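import Vale.Agent.P371.Defs

/-!
Internal definitions for the proof of P371 (see `notes/P371/PROOF.md`).
-/

namespace Vale.Agent.P371

open MeasureTheory Matrix Set
open scoped ComplexOrder

/-- `C_p = (p-1)^(p-1) / p^p`. -/
noncomputable def Cp (p : ℝ) : ℝ := (p - 1) ^ (p - 1) / p ^ p

/-- `I_p = ∫_0^1 (1-t^2)^(p-1) dt`. -/
noncomputable def Ip (p : ℝ) : ℝ := ∫ t in (0 : ℝ)..1, (1 - t ^ 2) ^ (p - 1)

/-- `J_a = ∫_0^∞ u^(a-1) log (1 + 1/u) du`. -/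
noncomputable def Jc (a : ℝ) : ℝ := ∫ u in Ioi (0 : ℝ), u ^ (a - 1) * Real.log (1 + 1 / u)

/-- `η(t) = t log t - t`, a primitive of `log`. -/
noncomputable def eta (t : ℝ) : ℝ := t * Real.log t - t

variable {n : Type*} [Fintype n] [DecidableEq n]

/-- Real part of the trace. -/
noncomputable def rtr (A : Matrix n n ℂ) : ℝ := A.trace.re

/-- Matrix logarithm (functional calculus). -/
noncomputable def lg (A : Matrix n n ℂ) : Matrix n n ℂ := cfc Real.log A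

/-- Matrix power (functional calculus). -/
noncomputable def pw (A : Matrix n n ℂ) (p : ℝ) : Matrix n n ℂ := cfc (fun t : ℝ => t ^ p) A

/-- `m_l = sqrt (κ^2 + l)`. -/
noncomputable def mOf (κ : Matrix n n ℂ) (l : ℝ) : Matrix n n ℂ :=
  cfc (fun t : ℝ => √(t ^ 2 + l)) κ

/-- `L_l = log (m + Z) + log (m - Z) - log l`. -/
noncomputable def Lm (κ Z : Matrix n n ℂ) (l : ℝ) : Matrix n n ℂ :=
  lg (mOf κ l + Z) + lg (mOf κ l - Z) - Real.log l • (1 : Matrix n n ℂ)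

/-- `S_l(Z) = tr η(m + Z) - tr η(m - Z) - log l * tr Z`, whose gradient in `Z` is `L_l`. -/
noncomputable def Sm (κ Z : Matrix n n ℂ) (l : ℝ) : ℝ :=
  rtr (cfc eta (mOf κ l + Z)) - rtr (cfc eta (mOf κ l - Z)) - Real.log l * rtr Z

/-- `u_l = tr Q - l tr L_l` with `Q = κ^2 - Z^2`. -/
noncomputable def um (κ Z : Matrix n n ℂ) (l : ℝ) : ℝ :=
  rtr (κ * κ - Z * Z) - l * rtr (Lm κ Z l)

/-- `w_l = tr ((Q + l) L_l) - tr Q` with `Q = κ^2 - Z^2`. -/
noncomputable def wm (κ Z : Matrix n n ℂ) (l : ℝ) : ℝ :=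
  rtr ((κ * κ - Z * Z + l • (1 : Matrix n n ℂ)) * Lm κ Z l) - rtr (κ * κ - Z * Z)

/-- The set of Hermitian `κ` with `ε ≤ κ ≤ R`. -/
def Kset (n : Type*) [Fintype n] [DecidableEq n] (ε R : ℝ) : Set (Matrix n n ℂ) :=
  {κ | (κ - ε • (1 : Matrix n n ℂ)).PosSemidef ∧ (R • (1 : Matrix n n ℂ) - κ).PosSemidef}

/-- The real quadratic form `Re ⟨v, A v⟩`. -/
noncomputable def qf (A : Matrix n n ℂ) (v : n → ℂ) : ℝ := (star v ⬝ᵥ A *ᵥ v).re

/-- A scalar `H^1` function `u` with weak derivative `u'`. -/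
structure IsH1 (u u' : ℝ → ℂ) : Prop where
  memLp : MemLp u 2 volume
  memLp' : MemLp u' 2 volume
  ftc : ∀ x y : ℝ, u y - u x = ∫ t in x..y, u' t

end Vale.Agent.P371
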