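import Vale.Agent.P371.Basic

namespace Vale.Agent.P371

open MeasureTheory Matrix Set Filter Topology
open scoped ComplexOrder Matrix.Norms.L2Operator MatrixOrder

set_option linter.unusedSectionVars false

variable {n : Type*} [Fintype n] [DecidableEq n]

theorem integrableOn_Jc {a : ℝ} (h0 : 0 < a) (h1 : a < 1) :
    IntegrableOn (fun u : ℝ => u ^ (a - 1) * Real.log (1 + 1 / u)) (Ioi 0) := by
  have hm : Measurable fun u : ℝ => u ^ (a - 1) * Real.log (1 + 1 / u) := by fun_prop
  have hl : ∀ u : ℝ, 0 < u → 0 ≤ Real.log (1 + 1 / u) := fun u hu =>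
    Real.log_nonneg (le_add_of_nonneg_right (by positivity))
  rw [← Ioc_union_Ioi_eq_Ioi zero_le_one]
  refine IntegrableOn.union ?_ ?_
  · have i1 := (intervalIntegral.intervalIntegrable_rpow' (r := a / 2 - 1) (a := 0) (b := 1)
      (by linarith)).1.const_mul (2 ^ (a / 2) / (a / 2))
    refine i1.mono' hm.aestronglyMeasurable ?_
    filter_upwards [ae_restrict_mem measurableSet_Ioc] with u hu
    have hu0 := hu.1
    rw [Real.norm_of_nonneg (mul_nonneg (by positivity) (hl u hu0))]
    have e1 : Real.log (1 + 1 / u) ≤ (2 / u) ^ (a / 2) / (a / 2) := by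
      refine (Real.log_le_log (by positivity) ?_).trans
        (Real.log_le_rpow_div (by positivity) (by positivity))
      have : 1 ≤ 1 / u := by rw [le_div_iff₀ hu0]; linarith [hu.2]
      rw [show 2 / u = 1 / u + 1 / u by ring]
      linarith
    refine (mul_le_mul_of_nonneg_left e1 (by positivity)).trans (le_of_eq ?_)
    rw [Real.div_rpow zero_le_two hu0.le, show a / 2 - 1 = a - 1 - a / 2 by ring,
      Real.rpow_sub hu0 (a - 1)]
    ring
  · refine (integrableOn_Ioi_rpow_of_lt (a := a - 1 - 1) (by linarith) one_pos).mono'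
      hm.aestronglyMeasurable ?_
    filter_upwards [ae_restrict_mem measurableSet_Ioi] with u hu
    have hu0 : 0 < u := one_pos.trans hu
    rw [Real.norm_of_nonneg (mul_nonneg (by positivity) (hl u hu0)), Real.rpow_sub_one hu0.ne' (a - 1),
      div_eq_mul_one_div (u ^ (a - 1))]
    refine mul_le_mul_of_nonneg_left ?_ (Real.rpow_nonneg hu0.le _)
    linarith [Real.log_le_sub_one_of_pos (show 0 < 1 + 1 / u by positivity)]

theorem Jc_pos {a : ℝ} (h0 : 0 < a) (h1 : a < 1) : 0 < Jc a := by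
  have hp : ∀ u ∈ Ioi (0 : ℝ), (0 : ℝ) < u ^ (a - 1) * Real.log (1 + 1 / u) := fun u hu => by
    have hu0 : 0 < u := hu
    exact mul_pos (by positivity) (Real.log_pos (lt_add_of_pos_right _ (by positivity)))
  refine (setIntegral_pos_iff_support_of_nonneg_ae ?_ (integrableOn_Jc h0 h1)).2 ?_
  · filter_upwards [ae_restrict_mem measurableSet_Ioi] with u hu
    exact (hp u hu).le
  · refine lt_of_lt_of_le (by simp) (measure_mono (s := Ioi (0 : ℝ)) fun u hu => ⟨(hp u hu).ne', hu⟩)

theorem scale_Jc {a : ℝ} (h0 : 0 < a) (h1 : a < 1) {q : ℝ} (hq : 0 ≤ q) :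
    IntegrableOn (fun l : ℝ => l ^ (a - 1) * Real.log (1 + q / l)) (Ioi 0) ∧
      ∫ l in Ioi (0 : ℝ), l ^ (a - 1) * Real.log (1 + q / l) = Jc a * q ^ a := by
  rcases eq_or_lt_of_le hq with rfl | hq
  · simp [h0.ne']
  have e : ∀ u ∈ Ioi (0 : ℝ), (q * u) ^ (a - 1) * Real.log (1 + q / (q * u)) =
      q ^ (a - 1) * (u ^ (a - 1) * Real.log (1 + 1 / u)) := fun u hu => by
    rw [Real.mul_rpow hq.le (le_of_lt hu), div_mul_cancel_left₀ hq.ne', one_div, mul_assoc]
  constructor
  · have := (integrableOn_Ioi_comp_mul_left_iff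
      (fun l : ℝ => l ^ (a - 1) * Real.log (1 + q / l)) 0 hq).1
      (IntegrableOn.congr_fun ((integrableOn_Jc h0 h1).const_mul (q ^ (a - 1)))
        (fun u hu => (e u hu).symm) measurableSet_Ioi)
    rwa [mul_zero] at this
  · have := integral_comp_mul_left_Ioi (fun l : ℝ => l ^ (a - 1) * Real.log (1 + q / l)) 0 hq
    rw [mul_zero, setIntegral_congr_fun measurableSet_Ioi e, integral_const_mul, smul_eq_mul,
      eq_inv_mul_iff_mul_eq₀ hq.ne'] at this
    rw [← this, Jc, Real.rpow_sub_one hq.ne']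
    field_simp

theorem fubini_Jc {a : ℝ} (h0 : 0 < a) (h1 : a < 1) {c d : ℝ} (hcd : c ≤ d) {q : ℝ → ℝ}
    (hq : Continuous q) (hq0 : ∀ t ∈ Ioc c d, 0 ≤ q t) :
    IntegrableOn (fun l : ℝ => l ^ (a - 1) * ∫ t in c..d, Real.log (1 + q t / l)) (Ioi 0) ∧
      ∫ l in Ioi (0 : ℝ), l ^ (a - 1) * ∫ t in c..d, Real.log (1 + q t / l) =
        Jc a * ∫ t in c..d, q t ^ a := by
  have hm := hq.measurable
  have hi : Integrable (Function.uncurry fun l t : ℝ => l ^ (a - 1) * Real.log (1 + q t / l))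
      ((volume.restrict (Ioi 0)).prod (volume.restrict (Ioc c d))) := by
    rw [integrable_prod_iff' (Measurable.aestronglyMeasurable (by unfold Function.uncurry; fun_prop))]
    constructor
    · filter_upwards [ae_restrict_mem measurableSet_Ioc] with t ht
      exact (scale_Jc h0 h1 (hq0 t ht)).1
    · have : IntegrableOn (fun t => Jc a * q t ^ a) (Ioc c d) :=
        ((continuous_const.mul (hq.rpow_const fun _ => Or.inr h0.le)).intervalIntegrable c d).1
      refine this.congr_fun (fun t ht => ?_) measurableSet_Ioc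
      simp only
      rw [← (scale_Jc h0 h1 (hq0 t ht)).2]
      refine setIntegral_congr_fun measurableSet_Ioi fun l hl => ?_
      have hl0 : 0 < l := hl
      have := hq0 t ht
      exact (Real.norm_of_nonneg (mul_nonneg (by positivity)
        (Real.log_nonneg (le_add_of_nonneg_right (by positivity))))).symm
  simp only [intervalIntegral.integral_of_le hcd, ← integral_const_mul]
  refine ⟨hi.integral_prod_left, ?_⟩
  rw [integral_integral_swap hi]
  exact setIntegral_congr_fun measurableSet_Ioc fun t ht => (scale_Jc h0 h1 (hq0 t ht)).2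

theorem hasDerivAt_eta {t : ℝ} (ht : 0 < t) : HasDerivAt eta (Real.log t) t := by
  have := (Real.hasDerivAt_mul_log ht.ne').sub (hasDerivAt_id t)
  rw [add_sub_cancel_right] at this
  exact this

theorem integral_h_le {a : ℝ} (h0 : 0 < a) (h1 : a < 1) {t l0 l1 : ℝ} (ht : 0 ≤ t) (hl0 : 0 < l0)
    (hl : l0 ≤ l1) :
    ∫ l in l0..l1, l ^ (a - 1) * ((t + l) * Real.log (t + l) - (t + l) * Real.log l - t)
      ≤ Jc a * t ^ (a + 1) / (a + 1) := by
  obtain ⟨i1, i2⟩ := fubini_Jc h0 h1 ht continuous_id fun τ hτ => hτ.1.le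
  have e : ∀ l : ℝ, 0 < l → (t + l) * Real.log (t + l) - (t + l) * Real.log l - t =
      ∫ τ in (0 : ℝ)..t, Real.log (1 + id τ / l) := by
    intro l hl
    have hp : ∀ τ ∈ uIcc 0 t, 0 < τ + l := fun τ hτ => by
      rw [uIcc_of_le ht] at hτ
      linarith [hτ.1]
    rw [intervalIntegral.integral_eq_sub_of_hasDerivAt (f := fun τ => eta (τ + l) - τ * Real.log l)
      (fun τ hτ => ?_) (ContinuousOn.intervalIntegrable (ContinuousOn.log (by fun_prop)
        fun τ hτ => ?_))]
    · unfold eta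
      simp only [zero_add]
      ring
    · have := ((hasDerivAt_eta (hp τ hτ)).comp_add_const τ l).sub
        ((hasDerivAt_id τ).mul_const (Real.log l))
      rw [one_mul, ← Real.log_div (hp τ hτ).ne' hl.ne', add_div, div_self hl.ne', add_comm] at this
      exact this
    · have := div_pos (hp τ hτ) hl
      rw [add_div, div_self hl.ne', add_comm] at this
      exact this.ne'
  have e2 : Jc a * t ^ (a + 1) / (a + 1) = Jc a * ∫ τ in (0 : ℝ)..t, id τ ^ a := by
    simp only [id]
    rw [integral_rpow (Or.inl (by linarith)), Real.zero_rpow (by linarith), sub_zero,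
      mul_div_assoc]
  rw [e2, ← i2, intervalIntegral.integral_of_le hl, setIntegral_congr_fun measurableSet_Ioc
    (fun l hl => by rw [e l (hl0.trans hl.1)])]
  refine setIntegral_mono_set i1 ?_ (HasSubset.Subset.eventuallyLE fun l hl => hl0.trans hl.1)
  filter_upwards [ae_restrict_mem measurableSet_Ioi] with l hl
  have hl' : 0 < l := hl
  refine mul_nonneg (by positivity) (intervalIntegral.integral_nonneg ht fun τ hτ => ?_)
  exact Real.log_nonneg (le_add_of_nonneg_right (div_nonneg hτ.1 hl'.le))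

theorem tendsto_integral_g {a : ℝ} (h0 : 0 < a) (h1 : a < 1) {k : ℝ} (hk : 0 < k) :
    Tendsto (fun N : ℕ => ∫ l in (1 / ((N : ℝ) + 1))..((N : ℝ) + 1), l ^ (a - 1) *
        (2 * (eta (√(k ^ 2 + l) + k) - eta (√(k ^ 2 + l) - k) - Real.log l * k)))
      atTop (𝓝 (Jc a * (2 * Ip (a + 1) * k ^ (2 * a + 1)))) := by
  have hkk : -k ≤ k := by linarith
  obtain ⟨i1, i2⟩ := fubini_Jc h0 h1 hkk (q := fun t => k ^ 2 - t ^ 2) (by fun_prop)
    fun τ hτ => by nlinarith [hτ.1, hτ.2]
  have e : ∀ l : ℝ, 0 < l → 2 * (eta (√(k ^ 2 + l) + k) - eta (√(k ^ 2 + l) - k) - Real.log l * k) =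
      ∫ τ in (-k)..k, Real.log (1 + (k ^ 2 - τ ^ 2) / l) := by
    intro l hl
    have hm : k < √(k ^ 2 + l) := Real.lt_sqrt_of_sq_lt (by linarith)
    have hs : √(k ^ 2 + l) ^ 2 = k ^ 2 + l := Real.sq_sqrt (by positivity)
    generalize √(k ^ 2 + l) = M at hm hs
    have hp : ∀ τ ∈ uIcc (-k) k, 0 < M + τ ∧ 0 < M - τ := fun τ hτ => by
      rw [uIcc_of_le hkk] at hτ
      constructor <;> linarith [hτ.1, hτ.2]
    have hq : ∀ τ : ℝ, 1 + (k ^ 2 - τ ^ 2) / l = (M + τ) * (M - τ) / l := fun τ => by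
      field_simp
      linarith
    rw [intervalIntegral.integral_eq_sub_of_hasDerivAt
      (f := fun τ => eta (M + τ) - eta (M - τ) - τ * Real.log l)
      (fun τ hτ => ?_) (ContinuousOn.intervalIntegrable (ContinuousOn.log (by fun_prop)
        fun τ hτ => ?_))]
    · simp only [sub_neg_eq_add, ← sub_eq_add_neg]
      ring
    · have := (((hasDerivAt_eta (hp τ hτ).1).comp_const_add M τ).sub
        ((hasDerivAt_eta (hp τ hτ).2).comp_const_sub M τ)).sub
        ((hasDerivAt_id τ).mul_const (Real.log l))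
      rw [hq, Real.log_div (mul_pos (hp τ hτ).1 (hp τ hτ).2).ne' hl.ne',
        Real.log_mul (hp τ hτ).1.ne' (hp τ hτ).2.ne']
      rw [one_mul, sub_neg_eq_add] at this
      exact this
    · rw [hq]
      exact (div_pos (mul_pos (hp τ hτ).1 (hp τ hτ).2) hl).ne'
  have e2 : 2 * Ip (a + 1) * k ^ (2 * a + 1) = ∫ τ in (-k)..k, (k ^ 2 - τ ^ 2) ^ a := by
    have hc : Continuous fun t : ℝ => (k ^ 2 - t ^ 2) ^ a :=
      Continuous.rpow_const (by fun_prop) fun _ => Or.inr h0.le
    have a1 := intervalIntegral.integral_comp_neg (a := 0) (b := k)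
      (fun t : ℝ => (k ^ 2 - t ^ 2) ^ a)
    have a2 := intervalIntegral.smul_integral_comp_mul_left (a := 0) (b := 1)
      (fun t : ℝ => (k ^ 2 - t ^ 2) ^ a) k
    have a3 : ∫ x in (0 : ℝ)..1, (k ^ 2 - (k * x) ^ 2) ^ a = k ^ (2 * a) * Ip (a + 1) := by
      rw [Ip, ← intervalIntegral.integral_const_mul, add_sub_cancel_right]
      refine intervalIntegral.integral_congr fun u hu => ?_
      rw [uIcc_of_le zero_le_one] at hu
      rw [show k ^ 2 - (k * u) ^ 2 = k ^ (2 : ℝ) * (1 - u ^ 2) by rw [Real.rpow_two]; ring,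
        Real.mul_rpow (by positivity) (by nlinarith [hu.1, hu.2]), ← Real.rpow_mul hk.le]
    rw [a3, mul_zero, mul_one, smul_eq_mul] at a2
    simp only [neg_sq, neg_zero] at a1
    rw [← intervalIntegral.integral_add_adjacent_intervals (hc.intervalIntegrable (-k) 0)
      (hc.intervalIntegrable 0 k), ← a1, ← a2, Real.rpow_add_one hk.ne']
    ring
  rw [e2, ← i2]
  have hN : Tendsto (fun N : ℕ => (N : ℝ) + 1) atTop atTop :=
    tendsto_atTop_add_const_right _ _ tendsto_natCast_atTop_atTop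
  have cov := (aecover_Ioi_of_Ioi (μ := volume)
    (tendsto_one_div_add_atTop_nhds_zero_nat (𝕜 := ℝ))).inter (aecover_Iic hN)
  refine (cov.integral_tendsto_of_countably_generated i1).congr fun N => ?_
  have p1 : (0 : ℝ) < 1 / ((N : ℝ) + 1) := by positivity
  have p2 : 1 / ((N : ℝ) + 1) ≤ (N : ℝ) + 1 := by
    have : (0 : ℝ) ≤ N := by positivity
    rw [div_le_iff₀ (by positivity)]
    nlinarith
  rw [Ioi_inter_Iic, Measure.restrict_restrict measurableSet_Ioc,
    inter_eq_left.2 (Ioc_subset_Ioi_self.trans (Ioi_subset_Ioi p1.le)), intervalIntegral.integral_of_le p2]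
  exact setIntegral_congr_fun measurableSet_Ioc fun l hl => by
    rw [e l (p1.trans hl.1)]

end Vale.Agent.P371
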