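import Vale.Agent.P371.MBasic

namespace Vale.Agent.P371

open MeasureTheory Matrix Set Filter Topology
open scoped ComplexOrder Matrix.Norms.L2Operator MatrixOrder

set_option linter.unusedSectionVars false

variable {n : Type*} [Fintype n] [DecidableEq n]

namespace WB

lemma exists_R {κ : Matrix n n ℂ} (hκ : κ.IsHermitian) :
    ∃ R : ℝ, 0 < R ∧ (R • (1 : Matrix n n ℂ) - κ).PosSemidef := by
  obtain ⟨R, hR⟩ := κ.finite_real_spectrum.bddAbove
  exact ⟨max R 1, lt_max_of_lt_right one_pos,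
    posSemidef_sub_of_spectrum' hκ fun a ha => (hR ha).trans (le_max_left _ _)⟩

lemma rtr_cfc_mono (A : Matrix n n ℂ) {f g : ℝ → ℝ} (h : ∀ a ∈ spectrum ℝ A, f a ≤ g a) :
    rtr (cfc f A) ≤ rtr (cfc g A) := by
  have := rtr_nonneg (posSemidef_cfc_sub A h)
  rw [rtr_sub] at this
  linarith

lemma rtr_quad {A : Matrix n n ℂ} (hA : A.IsHermitian) (a b c : ℝ) :
    rtr (cfc (fun t : ℝ => a * (t * t) + b * t + c) A) =
      a * rtr (A * A) + b * rtr A + c * Fintype.card n := by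
  rw [cfc_add', cfc_add', cfc_const_mul', cfc_const_mul' b (fun t => t), cfc_mul', cfc_id_eq hA,
    cfc_const' c hA]
  simp

lemma abs_log_le {y : ℝ} (hy : |y| ≤ 1 / 2) : |Real.log (1 + y)| ≤ 2 * |y| := by
  have h := Real.abs_log_sub_add_sum_range_le (x := -y) (by rw [abs_neg]; linarith) 0
  simp only [Finset.range_zero, Finset.sum_empty, zero_add, sub_neg_eq_add, abs_neg, pow_one] at h
  refine h.trans ?_
  rw [div_le_iff₀ (by linarith)]
  nlinarith [abs_nonneg y]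

lemma le_log {y : ℝ} (hy : |y| ≤ 1 / 2) : y - y ^ 2 / 2 - 2 * |y| ^ 3 ≤ Real.log (1 + y) := by
  have h := Real.abs_log_sub_add_sum_range_le (x := -y) (by rw [abs_neg]; linarith) 2
  simp only [Finset.sum_range_succ, Finset.range_zero, Finset.sum_empty, zero_add, sub_neg_eq_add,
    abs_neg] at h
  have h2 : |y| ^ (2 + 1) / (1 - |y|) ≤ 2 * |y| ^ 3 := by
    rw [div_le_iff₀ (by linarith)]
    have : 0 ≤ |y| ^ 3 := by positivity
    norm_num
    nlinarith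
  have h3 := (abs_le.1 (h.trans h2)).1
  norm_num at h3
  linarith

variable {κ Z : Matrix n n ℂ} {R l : ℝ}

lemma spec_le (hκ : κ.PosSemidef) (hR : (R • (1 : Matrix n n ℂ) - κ).PosSemidef)
    (hZ1 : (κ - Z).PosSemidef) (hl : 0 ≤ l) {x : ℝ} (hx : x ∈ spectrum ℝ (mOf κ l + Z)) :
    x ≤ √l + 2 * R := by
  refine ge_of_mem_spectrum ?_ hx
  have h1 : (√l • (1 : Matrix n n ℂ) - (mOf κ l - κ)).PosSemidef := by
    rw [mOf_sub_eq hκ.isHermitian, ← cfc_const' _ hκ.isHermitian]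
    refine posSemidef_cfc_sub κ fun t ht => ?_
    have h0 := nonneg_of_mem_spectrum hκ ht
    have : √(t ^ 2 + l) ≤ √l + t := by
      refine Real.sqrt_le_iff.2 ⟨by positivity, ?_⟩
      nlinarith [Real.sq_sqrt hl, Real.sqrt_nonneg l]
    linarith
  convert (h1.add hZ1).add (hR.add hR) using 1
  rw [add_smul, two_mul, add_smul]
  abel

lemma spec_ge (hκ : κ.PosSemidef) (hR : (R • (1 : Matrix n n ℂ) - κ).PosSemidef)
    (hZ2 : (κ + Z).PosSemidef) (hl : 0 ≤ l) {x : ℝ} (hx : x ∈ spectrum ℝ (mOf κ l + Z)) :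
    √(R ^ 2 + l) - R ≤ x := by
  refine le_of_mem_spectrum ?_ hx
  convert (mOf_sub_ge hκ hR hl).add hZ2 using 1
  abel

lemma norm_le (hR0 : 0 < R) (hκ : κ.PosSemidef) (hR : (R • (1 : Matrix n n ℂ) - κ).PosSemidef)
    (hZ1 : (κ - Z).PosSemidef) (hZ2 : (κ + Z).PosSemidef) : ‖Z‖ ≤ R := by
  rw [← cfc_id_eq (isHermitian_of_sub hκ.isHermitian hZ1)]
  refine norm_cfc_le hR0.le fun x hx => ?_
  rw [Real.norm_eq_abs, abs_le]
  constructor
  · refine le_of_mem_spectrum ?_ hx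
    convert hR.add hZ2 using 1
    rw [neg_smul]
    abel
  · refine ge_of_mem_spectrum ?_ hx
    convert hR.add hZ1 using 1
    abel

lemma Lm_eq (hκ : κ.PosSemidef) (hZ1 : (κ - Z).PosSemidef) :
    Lm κ Z l = cfc (fun x => Real.log x - Real.log l / 2) (mOf κ l + Z) +
      cfc (fun x => Real.log x - Real.log l / 2) (mOf κ l + -Z) := by
  have hZ := isHermitian_of_sub hκ.isHermitian hZ1
  rw [cfc_sub', cfc_sub', cfc_const' _ ((isHermitian_mOf κ l).add hZ),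
    cfc_const' _ ((isHermitian_mOf κ l).add hZ.neg), Lm, lg, lg, sub_eq_add_neg (mOf κ l) Z]
  conv_lhs => rw [← add_halves (Real.log l), add_smul]
  abel

lemma large (hR0 : 0 < R) (hκ : κ.PosSemidef) (hR : (R • (1 : Matrix n n ℂ) - κ).PosSemidef)
    (hZ1 : (κ - Z).PosSemidef) (hZ2 : (κ + Z).PosSemidef) {s : ℝ} (hs : 4 * R ≤ s) :
    ‖cfc (fun x => Real.log x - Real.log (s ^ 2) / 2) (mOf κ (s ^ 2) + Z)‖ ≤ 4 * R / s ∧
    -(1 / (2 * s ^ 2)) * rtr ((mOf κ (s ^ 2) + Z) * (mOf κ (s ^ 2) + Z)) +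
        2 / s * rtr (mOf κ (s ^ 2) + Z) + (-(3 / 2) - 2 * (2 * R / s) ^ 3) * Fintype.card n ≤
      rtr (cfc (fun x => Real.log x - Real.log (s ^ 2) / 2) (mOf κ (s ^ 2) + Z)) := by
  have hs0 : 0 < s := by linarith
  have key : ∀ x ∈ spectrum ℝ (mOf κ (s ^ 2) + Z), |x / s - 1| ≤ 2 * R / s ∧
      Real.log x - Real.log (s ^ 2) / 2 = Real.log (1 + (x / s - 1)) := by
    intro x hx
    have h1 := spec_le hκ hR hZ1 (sq_nonneg s) hx
    have h2 := spec_ge hκ hR hZ2 (sq_nonneg s) hx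
    rw [Real.sqrt_sq hs0.le] at h1
    have h3 : s ≤ √(R ^ 2 + s ^ 2) := Real.le_sqrt_of_sq_le (by nlinarith)
    constructor
    · rw [div_sub_one hs0.ne', abs_div, abs_of_pos hs0]
      refine div_le_div_of_nonneg_right (abs_le.2 ⟨by linarith, by linarith⟩) hs0.le
    · rw [add_sub_cancel, Real.log_div (by linarith) hs0.ne', Real.log_pow]
      push_cast
      ring
  have hρ : 2 * R / s ≤ 1 / 2 := by rw [div_le_iff₀ hs0]; linarith
  constructor
  · refine norm_cfc_le (by positivity) fun x hx => ?_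
    obtain ⟨h1, h2⟩ := key x hx
    rw [h2, Real.norm_eq_abs]
    refine (abs_log_le (h1.trans hρ)).trans ?_
    have : 4 * R / s = 2 * (2 * R / s) := by ring
    linarith
  · rw [← rtr_quad ((isHermitian_mOf κ _).add (isHermitian_of_sub hκ.isHermitian hZ1))]
    refine rtr_cfc_mono _ fun x hx => ?_
    obtain ⟨h1, h2⟩ := key x hx
    rw [h2]
    refine le_trans ?_ (le_log (h1.trans hρ))
    have h3 : |x / s - 1| ^ 3 ≤ (2 * R / s) ^ 3 := by gcongr
    have h4 : -(1 / (2 * s ^ 2)) * (x * x) + 2 / s * x + -(3 / 2) =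
        x / s - 1 - (x / s - 1) ^ 2 / 2 := by field_simp; ring
    linarith

lemma rtr_mOf (hκ : κ.PosSemidef) (hR : (R • (1 : Matrix n n ℂ) - κ).PosSemidef) {s : ℝ}
    (hs : 0 < s) :
    1 / (2 * s) * rtr (κ * κ) + (s - R ^ 4 / (8 * s ^ 3)) * Fintype.card n ≤
      rtr (mOf κ (s ^ 2)) := by
  have h := rtr_quad hκ.isHermitian (1 / (2 * s)) 0 (s - R ^ 4 / (8 * s ^ 3))
  rw [zero_mul, add_zero] at h
  rw [← h, mOf]
  refine rtr_cfc_mono _ fun t ht => ?_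
  have h0 := nonneg_of_mem_spectrum hκ ht
  have h1 := ge_of_mem_spectrum hR ht
  have h2 : t ^ 4 / (8 * s ^ 3) ≤ R ^ 4 / (8 * s ^ 3) := by gcongr
  set r := √(t ^ 2 + s ^ 2) with hr
  have h3 : r ^ 2 = t ^ 2 + s ^ 2 := Real.sq_sqrt (by positivity)
  have h4 : s ≤ r := Real.le_sqrt_of_sq_le (by nlinarith)
  have h5 : 1 / (2 * s) * (t * t) + s - t ^ 4 / (8 * s ^ 3) - r =
      -((r - s) ^ 3 * (r + 3 * s)) / (8 * s ^ 3) := by
    have h6 : t * t = r ^ 2 - s ^ 2 := by linarith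
    have h7 : t ^ 4 = (r ^ 2 - s ^ 2) ^ 2 := by rw [← h6]; ring
    rw [h6, h7]
    field_simp
    ring
  have h8 : 0 ≤ (r - s) ^ 3 * (r + 3 * s) / (8 * s ^ 3) := by
    have : 0 ≤ r - s := by linarith
    have : 0 ≤ r := by linarith
    positivity
  rw [neg_div] at h5
  linarith

end WB

open WB

/-- `liminf w ≥ 0` as `l → ∞`. -/
theorem wm_eventually_ge {κ Z : Matrix n n ℂ} (hκ : κ.PosSemidef) (hZ1 : (κ - Z).PosSemidef)
    (hZ2 : (κ + Z).PosSemidef) {δ : ℝ} (hδ : 0 < δ) : ∀ᶠ l in atTop, -δ ≤ wm κ Z l := by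
  obtain ⟨R, hR0, hR⟩ := exists_R hκ.isHermitian
  set N : ℝ := (Fintype.card n : ℝ) with hN
  have hN0 : 0 ≤ N := Nat.cast_nonneg _
  set C := N * (‖κ * κ - Z * Z‖ * (8 * R)) + N * R ^ 4 / 2 + 32 * N * R ^ 3 with hC
  have ht : Tendsto (fun l : ℝ => √l) atTop atTop := Real.tendsto_sqrt_atTop
  filter_upwards [ht.eventually_ge_atTop (4 * R), ht.eventually_ge_atTop 1,
    ht.eventually_ge_atTop (C / δ), eventually_ge_atTop 0] with l h1 h2 h3 h4
  obtain ⟨s, hs, rfl⟩ : ∃ s, s = √l ∧ l = s ^ 2 := ⟨_, rfl, (Real.sq_sqrt h4).symm⟩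
  rw [← hs] at h1 h2 h3
  have hs0 : 0 < s := by linarith
  obtain ⟨a1, a2⟩ := large hR0 hκ hR hZ1 hZ2 h1
  obtain ⟨b1, b2⟩ := large (Z := -Z) hR0 hκ hR (by simpa using hZ2)
    (by simpa [← sub_eq_add_neg] using hZ1) h1
  have hm := rtr_mOf hκ hR hs0
  have hmm := congrArg rtr (mOf_mul_self hκ.isHermitian (sq_nonneg s))
  have hL := Lm_eq (l := s ^ 2) hκ hZ1
  have hLn : ‖Lm κ Z (s ^ 2)‖ ≤ 8 * R / s := by
    rw [hL]
    refine (norm_add_le _ _).trans ?_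
    have : 8 * R / s = 4 * R / s + 4 * R / s := by ring
    linarith
  have hQ : |rtr ((κ * κ - Z * Z) * Lm κ Z (s ^ 2))| ≤ N * (‖κ * κ - Z * Z‖ * (8 * R / s)) := by
    refine (abs_rtr_le _).trans (mul_le_mul_of_nonneg_left ?_ hN0)
    exact (norm_mul_le _ _).trans (mul_le_mul_of_nonneg_left hLn (norm_nonneg _))
  have hLr := congrArg rtr hL
  rw [rtr_add] at hLr
  rw [← hN] at a2 b2 hm
  simp only [Matrix.add_mul, Matrix.mul_add, Matrix.neg_mul, Matrix.mul_neg, neg_neg, rtr_add,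
    rtr_neg, rtr_smul, rtr_one, ← hN] at a2 b2 hmm
  have e1 : wm κ Z (s ^ 2) = rtr ((κ * κ - Z * Z) * Lm κ Z (s ^ 2)) +
      s ^ 2 * rtr (Lm κ Z (s ^ 2)) - (rtr (κ * κ) - rtr (Z * Z)) := by
    rw [wm, Matrix.add_mul, Matrix.smul_mul, Matrix.one_mul, rtr_add, rtr_smul, rtr_sub (κ * κ)]
  have e2 : -(1 / s ^ 2) * (rtr (κ * κ) + s ^ 2 * N + rtr (Z * Z)) +
      4 / s * rtr (mOf κ (s ^ 2)) + (-3 - 4 * (2 * R / s) ^ 3) * N ≤ rtr (Lm κ Z (s ^ 2)) := by
    rw [hLr, ← hmm]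
    refine le_trans (le_of_eq ?_) (add_le_add a2 b2)
    ring
  have e3 := mul_le_mul_of_nonneg_left e2 (sq_nonneg s)
  have e4 := mul_le_mul_of_nonneg_left hm (show 0 ≤ 4 * s by positivity)
  have e5 : s ^ 2 * (-(1 / s ^ 2) * (rtr (κ * κ) + s ^ 2 * N + rtr (Z * Z)) +
      4 / s * rtr (mOf κ (s ^ 2)) + (-3 - 4 * (2 * R / s) ^ 3) * N) =
      -(rtr (κ * κ) + rtr (Z * Z)) - 4 * s ^ 2 * N + 4 * s * rtr (mOf κ (s ^ 2)) -
        32 * N * R ^ 3 / s := by field_simp; ring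
  have e6 : 4 * s * (1 / (2 * s) * rtr (κ * κ) + (s - R ^ 4 / (8 * s ^ 3)) * N) =
      2 * rtr (κ * κ) + 4 * s ^ 2 * N - N * R ^ 4 / 2 / s ^ 2 := by field_simp; ring
  have e7 : N * R ^ 4 / 2 / s ^ 2 ≤ N * R ^ 4 / 2 / s :=
    div_le_div_of_nonneg_left (by positivity) hs0 (by nlinarith)
  have e8 : C / s ≤ δ := by
    rw [div_le_iff₀ hs0]
    rw [div_le_iff₀ hδ] at h3
    linarith
  have e9 : C / s = N * (‖κ * κ - Z * Z‖ * (8 * R / s)) + N * R ^ 4 / 2 / s +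
      32 * N * R ^ 3 / s := by rw [hC]; ring
  have := (abs_le.1 hQ).1
  rw [e1]
  linarith

/-- Logarithmic upper bound for small `l`, uniform in `Z`. -/
theorem wm_le {κ : Matrix n n ℂ} (hκ : κ.PosSemidef) :
    ∃ C : ℝ, ∀ Z : Matrix n n ℂ, (κ - Z).PosSemidef → (κ + Z).PosSemidef →
      ∀ l ∈ Ioc (0 : ℝ) 1, wm κ Z l ≤ C * (1 + |Real.log l|) := by
  obtain ⟨R, hR0, hR⟩ := exists_R hκ.isHermitian
  set N : ℝ := (Fintype.card n : ℝ) with hN
  have hN0 : 0 ≤ N := Nat.cast_nonneg _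
  have hlog : 0 ≤ Real.log (2 * R + 1) := Real.log_nonneg (by linarith)
  refine ⟨N * (2 * R ^ 2 + 1) * (2 * Real.log (2 * R + 1) + 3) + N * (2 * R ^ 2),
    fun Z hZ1 hZ2 l hl => ?_⟩
  have key : ∀ W : Matrix n n ℂ, (κ - W).PosSemidef → (κ + W).PosSemidef →
      ‖cfc (fun x => Real.log x - Real.log l / 2) (mOf κ l + W)‖ ≤
        Real.log (2 * R + 1) + 3 / 2 * |Real.log l| := by
    intro W hW1 hW2
    refine norm_cfc_le (by positivity) fun x hx => ?_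
    have h1 := spec_le hκ hR hW1 hl.1.le hx
    have h2 := spec_ge hκ hR hW2 hl.1.le hx
    have h3 : √l ≤ 1 := Real.sqrt_le_one.2 hl.2
    have h4 : l / (2 * R + 1) ≤ x := by
      refine le_trans ?_ h2
      rw [le_sub_iff_add_le]
      refine Real.le_sqrt_of_sq_le ?_
      have h5 : l / (2 * R + 1) ≤ 1 := by rw [div_le_one (by linarith)]; linarith [hl.2]
      have h6 : l / (2 * R + 1) * (2 * R + 1) = l := div_mul_cancel₀ _ (by linarith)
      have h7 : 0 ≤ l / (2 * R + 1) := div_nonneg hl.1.le (by linarith)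
      nlinarith
    have h5 : 0 < l / (2 * R + 1) := div_pos hl.1 (by linarith)
    have h6 := Real.log_le_log h5 h4
    rw [Real.log_div hl.1.ne' (by linarith)] at h6
    have h7 := Real.log_le_log (h5.trans_le h4) (show x ≤ 2 * R + 1 by linarith)
    rw [Real.norm_eq_abs, abs_le]
    constructor <;> linarith [le_abs_self (Real.log l), neg_abs_le (Real.log l), abs_nonneg (Real.log l)]
  have hLn : ‖Lm κ Z l‖ ≤ 2 * Real.log (2 * R + 1) + 3 * |Real.log l| := by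
    rw [Lm_eq hκ hZ1]
    refine (norm_add_le _ _).trans ?_
    linarith [key Z hZ1 hZ2, key (-Z) (by simpa using hZ2) (by simpa [← sub_eq_add_neg] using hZ1)]
  have hZn := norm_le hR0 hκ hR hZ1 hZ2
  have hκn := norm_le (Z := κ) hR0 hκ hR (by simpa using PosSemidef.zero) (hκ.add hκ)
  have hQ : ‖κ * κ - Z * Z‖ ≤ 2 * R ^ 2 := by
    have h1 := (norm_mul_le κ κ).trans (mul_le_mul hκn hκn (norm_nonneg _) hR0.le)
    have h2 := (norm_mul_le Z Z).trans (mul_le_mul hZn hZn (norm_nonneg _) hR0.le)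
    linarith [norm_sub_le (κ * κ) (Z * Z)]
  have h1n : ‖l • (1 : Matrix n n ℂ)‖ ≤ 1 := by
    rw [← cfc_const' l hκ.isHermitian]
    exact norm_cfc_le zero_le_one fun x _ => by rw [Real.norm_eq_abs, abs_of_pos hl.1]; exact hl.2
  have h2 : |rtr ((κ * κ - Z * Z + l • (1 : Matrix n n ℂ)) * Lm κ Z l)| ≤
      N * ((2 * R ^ 2 + 1) * (2 * Real.log (2 * R + 1) + 3 * |Real.log l|)) := by
    refine (abs_rtr_le _).trans (mul_le_mul_of_nonneg_left ?_ hN0)
    exact (norm_mul_le _ _).trans (mul_le_mul ((norm_add_le _ _).trans (add_le_add hQ h1n)) hLn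
      (norm_nonneg _) (by positivity))
  have h3 : |rtr (κ * κ - Z * Z)| ≤ N * (2 * R ^ 2) :=
    (abs_rtr_le _).trans (mul_le_mul_of_nonneg_left hQ hN0)
  have h4 := (abs_le.1 h2).2
  have h5 := (abs_le.1 h3).1
  have h6 := abs_nonneg (Real.log l)
  rw [wm]
  generalize |Real.log l| = y at *
  generalize Real.log (2 * R + 1) = c at *
  have h7 : 0 ≤ N * (2 * R ^ 2 + 1) * (3 + 2 * c * y) := by positivity
  have h8 : 0 ≤ N * (2 * R ^ 2) * y := by positivity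
  linarith

end Vale.Agent.P371
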