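import Vale.Agent.P371.WDeriv
import Vale.Agent.P371.WBound
import Vale.Agent.P371.Scalar

namespace Vale.Agent.P371

open MeasureTheory Matrix Set Filter Topology
open scoped ComplexOrder Matrix.Norms.L2Operator MatrixOrder

set_option linter.unusedSectionVars false

variable {n : Type*} [Fintype n] [DecidableEq n]

theorem exists_rtr_cfc {A : Matrix n n ℂ} (hA : A.IsHermitian) :
    ∃ α : n → ℝ, spectrum ℝ A = range α ∧ ∀ f : ℝ → ℝ, rtr (cfc f A) = ∑ i, f (α i) := by
  obtain ⟨α, -, -, h1, -, -, -, -, h6, -⟩ := exists_double hA hA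
  exact ⟨α, h1, h6⟩

theorem continuousOn_wm {κ Z : Matrix n n ℂ} (hκ : κ.PosSemidef) (hZ1 : (κ - Z).PosSemidef)
    (hZ2 : (κ + Z).PosSemidef) : ContinuousOn (wm κ Z) (Ioi 0) := fun _ hl =>
  (exists_hasDerivAt_wm hκ hZ1 hZ2 hl).choose_spec.1.continuousAt.continuousWithinAt

theorem continuousOn_um {κ Z : Matrix n n ℂ} (hκ : κ.PosSemidef) (hZ1 : (κ - Z).PosSemidef)
    (hZ2 : (κ + Z).PosSemidef) : ContinuousOn (um κ Z) (Ioi 0) :=
  continuousOn_const.sub
    (continuousOn_id.mul (continuous_rtr.comp_continuousOn (continuousOn_Lm hκ hZ1 hZ2)))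

theorem wm_nonneg {κ Z : Matrix n n ℂ} (hκ : κ.PosSemidef) (hZ1 : (κ - Z).PosSemidef)
    (hZ2 : (κ + Z).PosSemidef) {l : ℝ} (hl : 0 < l) : 0 ≤ wm κ Z l := by
  have hanti : AntitoneOn (wm κ Z) (Ioi 0) := by
    refine antitoneOn_of_deriv_nonpos (convex_Ioi 0) (continuousOn_wm hκ hZ1 hZ2) ?_ ?_
    · rw [interior_Ioi]
      exact fun x hx => (exists_hasDerivAt_wm hκ hZ1 hZ2
        hx).choose_spec.1.differentiableAt.differentiableWithinAt
    · rw [interior_Ioi]
      intro x hx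
      obtain ⟨w', h1, h2⟩ := exists_hasDerivAt_wm hκ hZ1 hZ2 hx
      rw [h1.deriv]
      refine h2.trans (div_nonpos_of_nonpos_of_nonneg ?_ (le_of_lt hx))
      exact neg_nonpos.mpr (um_nonneg hκ hZ1 hZ2 hx)
  refine le_of_forall_pos_le_add fun δ hδ => ?_
  obtain ⟨l', h1, h2⟩ := ((wm_eventually_ge hκ hZ1 hZ2 hδ).and (eventually_ge_atTop l)).exists
  have := hanti hl (hl.trans_le h2) h2
  linarith

theorem integral_um_wm_le {a : ℝ} {κ Z : Matrix n n ℂ} (hκ : κ.PosSemidef)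
    (hZ1 : (κ - Z).PosSemidef) (hZ2 : (κ + Z).PosSemidef) {l0 l1 : ℝ} (hl0 : 0 < l0)
    (hl : l0 ≤ l1) :
    ∫ l in l0..l1, l ^ (a - 1) * (um κ Z l - a * wm κ Z l) ≤ l0 ^ a * wm κ Z l0 := by
  have hsub : Icc l0 l1 ⊆ Ioi 0 := fun x hx => hl0.trans_le hx.1
  have hpow : ∀ c : ℝ, ContinuousOn (fun l : ℝ => l ^ c) (Icc l0 l1) := fun c =>
    continuousOn_id.rpow_const fun x hx => Or.inl (ne_of_gt (hsub hx))
  have hw := (continuousOn_wm hκ hZ1 hZ2).mono hsub
  have hu := (continuousOn_um hκ hZ1 hZ2).mono hsub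
  choose! w' hw' using fun l (hl : 0 < l) => exists_hasDerivAt_wm hκ hZ1 hZ2 hl
  have key := intervalIntegral.sub_le_integral_of_hasDeriv_right_of_le
    (g := fun l => l ^ a * wm κ Z l) (g' := fun l => a * l ^ (a - 1) * wm κ Z l + l ^ a * w' l)
    (φ := fun l => -(l ^ (a - 1) * (um κ Z l - a * wm κ Z l))) hl ((hpow a).mul hw)
    (fun x hx => ((Real.hasDerivAt_rpow_const (Or.inl (ne_of_gt (hl0.trans hx.1)))).mul
      (hw' x (hl0.trans hx.1)).1).hasDerivWithinAt)
    (((hpow (a - 1)).mul (hu.sub (continuousOn_const.mul hw))).neg.integrableOn_Icc)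
    (fun x hx => by
      have hx0 : 0 < x := hl0.trans hx.1
      have h1 := mul_le_mul_of_nonneg_left (hw' x hx0).2 (Real.rpow_nonneg hx0.le a)
      have h2 : x ^ a * (-um κ Z x / x) = -(x ^ (a - 1) * um κ Z x) := by
        rw [Real.rpow_sub_one hx0.ne']
        field_simp
      linarith)
  rw [intervalIntegral.integral_neg] at key
  have := mul_nonneg (Real.rpow_nonneg (hl0.trans_le hl).le a)
    (wm_nonneg hκ hZ1 hZ2 (hl0.trans_le hl))
  linarith

theorem claimR {p : ℝ} (hp1 : 1 < p) (hp2 : p < 2) {κ Z V : Matrix n n ℂ} (hκ : κ.PosSemidef)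
    (hZ1 : (κ - Z).PosSemidef) (hZ2 : (κ + Z).PosSemidef) (hV : V.PosSemidef)
    {l0 l1 : ℝ} (hl0 : 0 < l0) (hl : l0 ≤ l1) :
    ∫ l in l0..l1, l ^ (p - 2) * rtr (Lm κ Z l * (V - (κ * κ - Z * Z)))
      ≤ Jc (p - 1) * Cp p * rtr (pw V p) + l0 ^ (p - 1) * wm κ Z l0 / (p - 1) := by
  set a := p - 1 with ha
  have ha0 : 0 < a := by linarith
  have ha1 : a < 1 := by linarith
  have hp0 : 0 < p := by linarith
  have hpa : p - 2 = a - 1 := by linarith
  have hpa' : a + 1 = p := by linarith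
  set c := a / p with hc
  have hc0 : 0 < c := by positivity
  obtain ⟨v, hv1, hv2⟩ := exists_rtr_cfc hV.isHermitian
  have hv0 : ∀ i, 0 ≤ v i := fun i => nonneg_of_mem_spectrum hV (hv1 ▸ mem_range_self i)
  set h : ℝ → ℝ → ℝ := fun t l => (t + l) * Real.log (t + l) - (t + l) * Real.log l - t with hh
  have hsub : Icc l0 l1 ⊆ Ioi 0 := fun x hx => hl0.trans_le hx.1
  have hpow : ContinuousOn (fun l : ℝ => l ^ (a - 1)) (Icc l0 l1) :=
    continuousOn_id.rpow_const fun x hx => Or.inl (ne_of_gt (hsub hx))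
  have hw := (continuousOn_wm hκ hZ1 hZ2).mono hsub
  have hu := (continuousOn_um hκ hZ1 hZ2).mono hsub
  have hL := (continuousOn_Lm hκ hZ1 hZ2).mono hsub
  have hhc : ∀ t, 0 ≤ t → ContinuousOn (fun l => l ^ (a - 1) * h t l) (Icc l0 l1) := by
    intro t ht
    refine hpow.mul ?_
    have e1 : ContinuousOn (fun l : ℝ => Real.log (t + l)) (Icc l0 l1) :=
      (continuousOn_const.add continuousOn_id).log fun x hx =>
        ne_of_gt (add_pos_of_nonneg_of_pos ht (hsub hx))
    have e2 := continuousOn_log_Ioi.mono hsub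
    exact (((continuousOn_const.add continuousOn_id).mul e1).sub
      ((continuousOn_const.add continuousOn_id).mul e2)).sub continuousOn_const
  have hpt : ∀ l ∈ Icc l0 l1, l ^ (p - 2) * rtr (Lm κ Z l * (V - (κ * κ - Z * Z)))
      ≤ c⁻¹ * ∑ i, l ^ (a - 1) * h (c * v i) l
        + a⁻¹ * (l ^ (a - 1) * (um κ Z l - a * wm κ Z l)) := by
    intro l hl
    have hl' : 0 < l := hsub hl
    have hP : (c • V).PosSemidef := hV.smul hc0.le
    have g := gibbs_Lm hκ hZ1 hZ2 hP hl'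
    have e0 : c • V = cfc (fun t : ℝ => c * t) V := by
      rw [cfc_const_mul', cfc_id_eq hV.isHermitian]
    have e1 : rtr (cfc (fun t : ℝ => (t + l) * Real.log (t + l) - (t + l) * Real.log l - t) (c • V))
        = ∑ i, h (c * v i) l := by
      rw [e0, cfc_cfc _ _ hV.isHermitian, hv2]
    rw [e1, Matrix.add_mul, Matrix.smul_mul, Matrix.smul_mul, Matrix.one_mul, rtr_add, rtr_smul,
      rtr_smul] at g
    have e2 : rtr (Lm κ Z l * (V - (κ * κ - Z * Z)))
        = rtr (V * Lm κ Z l) - (wm κ Z l + um κ Z l) := by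
      rw [rtr_mul_comm, Matrix.sub_mul, rtr_sub, wm, um, Matrix.add_mul, Matrix.smul_mul,
        Matrix.one_mul, rtr_add, rtr_smul]
      ring
    have e3 : rtr (V * Lm κ Z l) ≤ c⁻¹ * (∑ i, h (c * v i) l + um κ Z l) := by
      rw [le_inv_mul_iff₀ hc0, um]
      linarith
    have e4 : c⁻¹ = 1 + a⁻¹ := by
      rw [hc, ← hpa']
      field_simp
    have e5 : c⁻¹ * ∑ i, l ^ (a - 1) * h (c * v i) l
        + a⁻¹ * (l ^ (a - 1) * (um κ Z l - a * wm κ Z l))
        = l ^ (a - 1) * (c⁻¹ * (∑ i, h (c * v i) l + um κ Z l) - (wm κ Z l + um κ Z l)) := by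
      rw [← Finset.mul_sum, e4]
      field_simp
      ring
    rw [e5, e2, hpa]
    exact mul_le_mul_of_nonneg_left (by linarith) (Real.rpow_nonneg hl'.le _)
  have i1 : ∀ i, IntervalIntegrable (fun l => l ^ (a - 1) * h (c * v i) l) volume l0 l1 :=
    fun i => (hhc _ (mul_nonneg hc0.le (hv0 i))).intervalIntegrable_of_Icc hl
  have i2 : IntervalIntegrable (fun l => l ^ (a - 1) * (um κ Z l - a * wm κ Z l)) volume l0 l1 :=
    (hpow.mul (hu.sub (continuousOn_const.mul hw))).intervalIntegrable_of_Icc hl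
  have i3 : IntervalIntegrable (fun l => ∑ i, l ^ (a - 1) * h (c * v i) l) volume l0 l1 :=
    (continuousOn_finsetSum _ fun i _ =>
      hhc _ (mul_nonneg hc0.le (hv0 i))).intervalIntegrable_of_Icc hl
  have i0 : IntervalIntegrable (fun l => l ^ (p - 2) * rtr (Lm κ Z l * (V - (κ * κ - Z * Z))))
      volume l0 l1 := by
    rw [hpa]
    exact (hpow.mul (continuous_rtr.comp_continuousOn
      (hL.mul continuousOn_const))).intervalIntegrable_of_Icc hl
  refine (intervalIntegral.integral_mono_on hl i0 ((i3.const_mul _).add (i2.const_mul _))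
    hpt).trans ?_
  rw [intervalIntegral.integral_add (i3.const_mul _) (i2.const_mul _),
    intervalIntegral.integral_const_mul, intervalIntegral.integral_const_mul,
    intervalIntegral.integral_finsetSum fun i _ => i1 i]
  refine add_le_add ?_ ?_
  · rw [pw, hv2, Finset.mul_sum, Finset.mul_sum]
    refine Finset.sum_le_sum fun i _ => ?_
    have b := integral_h_le ha0 ha1 (mul_nonneg hc0.le (hv0 i)) hl0 hl
    refine (mul_le_mul_of_nonneg_left b (inv_nonneg.mpr hc0.le)).trans (le_of_eq ?_)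
    have e6 : c ^ p = c * (a ^ a / p ^ a) := by
      rw [← hpa', Real.rpow_add_one hc0.ne', hpa', hc, Real.div_rpow ha0.le hp0.le]
      ring
    have e7 : p ^ p = p ^ a * p := by
      rw [← Real.rpow_add_one hp0.ne', hpa']
    rw [hpa', Real.mul_rpow hc0.le (hv0 i), e6, Cp, ← ha, e7]
    field_simp
  · rw [div_eq_inv_mul]
    exact mul_le_mul_of_nonneg_left (integral_um_wm_le hκ hZ1 hZ2 hl0 hl) (inv_nonneg.mpr ha0.le)

end Vale.Agent.P371
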