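import Vale.Agent.P371.H1

namespace Vale.Agent.P371

open MeasureTheory Matrix Set Filter Topology
open scoped ComplexOrder Matrix.Norms.L2Operator MatrixOrder

set_option linter.unusedSectionVars false

variable {n : Type*} [Fintype n] [DecidableEq n]

/-- `u` is an integral of `u'` on `[a, b]`. -/
structure FT (a b : ℝ) (u u' : ℝ → ℂ) : Prop where
  cont : ContinuousOn u (Icc a b)
  int : IntervalIntegrable u' volume a b
  ftc : ∀ y ∈ Icc a b, u y - u a = ∫ t in a..y, u' t

theorem FT.mul {a b : ℝ} (hab : a ≤ b) {u u' v v' : ℝ → ℂ} (hu : FT a b u u') (hv : FT a b v v') :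
    FT a b (fun t => u t * v t) (fun t => u' t * v t + u t * v' t) where
  cont := hu.cont.mul hv.cont
  int := (hu.int.mul_continuousOn (by rw [uIcc_of_le hab]; exact hv.cont)).add
    (hv.int.continuousOn_mul (by rw [uIcc_of_le hab]; exact hu.cont))
  ftc := ftc_mul hab hu.int hv.int hu.ftc hv.ftc

theorem FT.sum {a b : ℝ} (hab : a ≤ b) {ι : Type*} [Fintype ι] {u u' : ι → ℝ → ℂ}
    (h : ∀ i, FT a b (u i) (u' i)) : FT a b (fun t => ∑ i, u i t) (fun t => ∑ i, u' i t) where
  cont := continuousOn_finsetSum _ fun i _ => (h i).cont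
  int := by
    have := IntervalIntegrable.sum Finset.univ fun i _ => (h i).int
    rwa [Finset.sum_fn] at this
  ftc := fun y hy => by
    rw [intervalIntegral.integral_finsetSum, ← Finset.sum_sub_distrib]
    · exact Finset.sum_congr rfl fun i _ => (h i).ftc y hy
    · exact fun i _ => (h i).int.mono_set (by
        rw [uIcc_of_le hab, uIcc_of_le hy.1]; exact Icc_subset_Icc_right hy.2)

theorem IsH1.ft {u u' : ℝ → ℂ} (h : IsH1 u u') (a b : ℝ) : FT a b u u' where
  cont := h.continuous.continuousOn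
  int := ((h.memLp'.locallyIntegrable (by norm_num)).integrableOn_isCompact
    isCompact_uIcc).intervalIntegrable
  ftc := fun y _ => h.ftc a y

theorem FT.of_hasDerivAt {a b : ℝ} (hab : a ≤ b) {u u' : ℝ → ℂ} (hc : ContinuousOn u (Icc a b))
    (hc' : ContinuousOn u' (Icc a b)) (hd : ∀ x ∈ Ioo a b, HasDerivAt u (u' x) x) :
    FT a b u u' where
  cont := hc
  int := hc'.intervalIntegrable_of_Icc hab
  ftc := fun _ hy => (intervalIntegral.integral_eq_sub_of_hasDerivAt_of_le hy.1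
    (hc.mono (Icc_subset_Icc_right hy.2)) (fun x hx => hd x ⟨hx.1, hx.2.trans_le hy.2⟩)
    ((hc'.mono (Icc_subset_Icc_right hy.2)).intervalIntegrable_of_Icc hy.1)).symm

/-- Evaluation of an entry as a continuous linear map. -/
noncomputable def entryL (i k : n) : Matrix n n ℂ →L[ℝ] ℂ :=
  LinearMap.toContinuousLinearMap
    { toFun := fun A => A i k, map_add' := fun _ _ => rfl, map_smul' := fun _ _ => rfl }

theorem integrable_rtr_mul {m : Type*} [Fintype m] (C : Matrix n n ℂ) {A : ℝ → Matrix n m ℂ}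
    (hA : ∀ i j, MemLp (fun x => A x i j) 2 volume) :
    Integrable fun x => rtr (C * (A x * (A x)ᴴ)) := by
  have h : Integrable fun x => ∑ i, ∑ k, C i k * ∑ j, A x k j * star (A x i j) :=
    integrable_finsetSum _ fun i _ => integrable_finsetSum _ fun k _ =>
      (integrable_finsetSum _ fun j _ => (hA k j).integrable_mul (hA i j).star).const_mul _
  exact h.re

theorem rtr_form_le {m : Type*} [Fintype m] [DecidableEq m] {M V Z : Matrix n n ℂ}
    (hZ : Z.IsHermitian) (Y Y' : Matrix n m ℂ) :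
    rtr ((M - Z * Z - V) * (Y * Yᴴ) + Z * (Y' * Yᴴ + Y * Y'ᴴ)) + rtr (V * (Y * Yᴴ)) ≤
      rtr (Y' * Y'ᴴ) + rtr (M * (Y * Yᴴ)) := by
  have h0 := rtr_nonneg (posSemidef_self_mul_conjTranspose (Y' - Z * Y))
  have h1 : rtr (Y' * (Yᴴ * Z)) = rtr (Z * (Y' * Yᴴ)) := by
    rw [← Matrix.mul_assoc, rtr_mul_comm]
  have h2 : rtr (Z * (Y * (Yᴴ * Z))) = rtr (Z * (Z * (Y * Yᴴ))) := by
    rw [← Matrix.mul_assoc Y, ← Matrix.mul_assoc Z, rtr_mul_comm]
  simp only [conjTranspose_sub, conjTranspose_mul, hZ.eq, Matrix.sub_mul, Matrix.mul_sub,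
    Matrix.mul_add, rtr_add, rtr_sub, Matrix.mul_assoc, h1, h2] at h0 ⊢
  linarith

theorem form_seg {m : Type*} [Fintype m] [DecidableEq m] {a b : ℝ} (hab : a ≤ b)
    {M : Matrix n n ℂ} {V Z : ℝ → Matrix n n ℂ}
    (hVc : ContinuousOn V (Icc a b)) (hZc : ContinuousOn Z (Icc a b))
    (hZd : ∀ x ∈ Ioo a b, HasDerivAt Z (M - Z x * Z x - V x) x)
    (hZH : ∀ x ∈ Icc a b, (Z x).IsHermitian) {Y Y' : ℝ → Matrix n m ℂ}
    (hY : ∀ i j, IsH1 (fun x => Y x i j) (fun x => Y' x i j)) :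
    rtr (Z b * (Y b * (Y b)ᴴ)) - rtr (Z a * (Y a * (Y a)ᴴ)) +
        ∫ x in a..b, rtr (V x * (Y x * (Y x)ᴴ))
      ≤ ∫ x in a..b, (rtr (Y' x * (Y' x)ᴴ) + rtr (M * (Y x * (Y x)ᴴ))) := by
  have hZ : ∀ i k, FT a b (fun x => Z x i k) (fun x => (M - Z x * Z x - V x) i k) := fun i k =>
    FT.of_hasDerivAt hab ((entryL i k).continuous.comp_continuousOn hZc)
      ((entryL i k).continuous.comp_continuousOn
        ((continuousOn_const.sub (hZc.mul hZc)).sub hVc))
      fun x hx => (entryL i k).hasFDerivAt.comp_hasDerivAt x (hZd x hx)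
  have hf := FT.sum hab fun i => FT.sum hab fun k => (hZ i k).mul hab
    (FT.sum hab fun j => ((hY k j).ft a b).mul hab ((hY i j).star.ft a b))
  have hg : (fun x => ∑ i, ∑ k, ((M - Z x * Z x - V x) i k * ∑ j, Y x k j * star (Y x i j) +
      Z x i k * ∑ j, (Y' x k j * star (Y x i j) + Y x k j * star (Y' x i j)))) =
      fun x => ((M - Z x * Z x - V x) * (Y x * (Y x)ᴴ) +
        Z x * (Y' x * (Y x)ᴴ + Y x * (Y' x)ᴴ)).trace := by
    funext x
    generalize M - Z x * Z x - V x = P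
    simp only [trace, diag_apply, Matrix.add_apply, Matrix.mul_apply, conjTranspose_apply,
      Finset.sum_add_distrib]
  rw [hg] at hf
  have h1 := congrArg Complex.reCLM (hf.ftc b ⟨hab, le_rfl⟩)
  rw [← ContinuousLinearMap.intervalIntegral_comp_comm _ hf.int, map_sub] at h1
  have h2 : rtr (Z b * (Y b * (Y b)ᴴ)) - rtr (Z a * (Y a * (Y a)ᴴ)) =
      ∫ x in a..b, rtr ((M - Z x * Z x - V x) * (Y x * (Y x)ᴴ) +
        Z x * (Y' x * (Y x)ᴴ + Y x * (Y' x)ᴴ)) := h1
  have i1 : IntervalIntegrable (fun x => rtr ((M - Z x * Z x - V x) * (Y x * (Y x)ᴴ) +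
      Z x * (Y' x * (Y x)ᴴ + Y x * (Y' x)ᴴ))) volume a b := ⟨hf.int.1.re, hf.int.2.re⟩
  have hYc : Continuous Y := continuous_matrix fun i j => (hY i j).continuous
  have i2 : IntervalIntegrable (fun x => rtr (V x * (Y x * (Y x)ᴴ))) volume a b :=
    (continuous_rtr.comp_continuousOn (hVc.mul
      (hYc.matrix_mul hYc.matrix_conjTranspose).continuousOn)).intervalIntegrable_of_Icc hab
  have i3 : Integrable fun x => rtr (Y' x * (Y' x)ᴴ) := by
    simpa using integrable_rtr_mul 1 fun i j => (hY i j).memLp'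
  have i4 := integrable_rtr_mul M fun i j => (hY i j).memLp
  rw [h2, ← intervalIntegral.integral_add i1 i2]
  exact intervalIntegral.integral_mono_on hab (i1.add i2) (i3.add i4).intervalIntegrable
    fun x hx => rtr_form_le (hZH x hx) _ _

/-- A connecting Riccati solution makes the form of `-d^2 + κ^2 - V 1_[a,b]` nonnegative. -/
theorem form_nonneg {m : Type*} [Fintype m] [DecidableEq m] {a b : ℝ} (hab : a ≤ b)
    {κ : Matrix n n ℂ} (hκ : κ.IsHermitian) {V Z : ℝ → Matrix n n ℂ}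
    (hVc : ContinuousOn V (Icc a b)) (hZc : ContinuousOn Z (Icc a b))
    (hZd : ∀ x ∈ Ioo a b, HasDerivAt Z (κ * κ - Z x * Z x - V x) x) (hZa : Z a = κ)
    (hZb : Z b = -κ) (hZH : ∀ x ∈ Icc a b, (Z x).IsHermitian) {Y Y' : ℝ → Matrix n m ℂ}
    (hY : ∀ i j, IsH1 (fun x => Y x i j) (fun x => Y' x i j)) :
    ∫ x in a..b, rtr (V x * (Y x * (Y x)ᴴ))
      ≤ (∫ x, rtr (Y' x * (Y' x)ᴴ)) + ∫ x, rtr (κ * κ * (Y x * (Y x)ᴴ)) := by
  have i3 : Integrable fun x => rtr (Y' x * (Y' x)ᴴ) := by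
    simpa using integrable_rtr_mul 1 fun i j => (hY i j).memLp'
  have i4 := integrable_rtr_mul (κ * κ) fun i j => (hY i j).memLp
  have i5 : Integrable fun x => rtr (Y' x * (Y' x)ᴴ) + rtr (κ * κ * (Y x * (Y x)ᴴ)) := i3.add i4
  rw [← integral_add i3 i4]
  have hmid := form_seg hab hVc hZc hZd hZH hY
  rw [hZa, hZb] at hmid
  have key : ∀ T, max (-a) b ≤ T →
      rtr (-κ * (Y T * (Y T)ᴴ)) - rtr (κ * (Y (-T) * (Y (-T))ᴴ)) +
        ∫ x in a..b, rtr (V x * (Y x * (Y x)ᴴ)) ≤
      ∫ x in -T..T, (rtr (Y' x * (Y' x)ᴴ) + rtr (κ * κ * (Y x * (Y x)ᴴ))) := fun T hT => by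
    have h1 := form_seg (a := -T) (b := a) (by linarith [le_max_left (-a) b]) (M := κ * κ)
      (V := fun _ => 0) (Z := fun _ => κ) continuousOn_const continuousOn_const
      (fun x _ => by simpa using hasDerivAt_const x κ) (fun _ _ => hκ) hY
    have h2 := form_seg (a := b) (b := T) (by linarith [le_max_right (-a) b]) (M := κ * κ)
      (V := fun _ => 0) (Z := fun _ => -κ) continuousOn_const continuousOn_const
      (fun x _ => by simpa using hasDerivAt_const x (-κ)) (fun _ _ => hκ.neg) hY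
    simp only [Matrix.zero_mul, rtr_zero, intervalIntegral.integral_zero, add_zero] at h1 h2
    rw [← intervalIntegral.integral_add_adjacent_intervals (b := a) i5.intervalIntegrable
      i5.intervalIntegrable, ← intervalIntegral.integral_add_adjacent_intervals (a := a) (b := b)
      i5.intervalIntegrable i5.intervalIntegrable]
    linarith
  have hc : ∀ C : Matrix n n ℂ, Continuous fun A : Matrix n m ℂ => rtr (C * (A * Aᴴ)) := fun C =>
    continuous_rtr.comp (continuous_const.matrix_mul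
      (continuous_id.matrix_mul continuous_id.matrix_conjTranspose))
  have t1 : Tendsto Y atTop (𝓝 0) :=
    tendsto_pi_nhds.2 fun i => tendsto_pi_nhds.2 fun j => (hY i j).tendsto_atTop
  have t2 : Tendsto Y atBot (𝓝 0) :=
    tendsto_pi_nhds.2 fun i => tendsto_pi_nhds.2 fun j => (hY i j).tendsto_atBot
  have t3 := ((((hc (-κ)).tendsto 0).comp t1).sub
    ((((hc κ).tendsto 0).comp t2).comp tendsto_neg_atTop_atBot)).add_const
    (∫ x in a..b, rtr (V x * (Y x * (Y x)ᴴ)))
  have t4 := intervalIntegral_tendsto_integral i5 tendsto_neg_atTop_atBot tendsto_id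
  simp only [Matrix.zero_mul, Matrix.mul_zero, rtr_zero, sub_zero, zero_add] at t3
  exact le_of_tendsto_of_tendsto t3 t4 ((eventually_ge_atTop _).mono key)

end Vale.Agent.P371
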