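import Vale.Agent.P371.CoreAux
import Vale.Agent.P371.Form

namespace Vale.Agent.P371

open MeasureTheory Matrix Set Filter Topology
open scoped ComplexOrder Matrix.Norms.L2Operator MatrixOrder

set_option linter.unusedSectionVars false

variable {n : Type*} [Fintype n] [DecidableEq n]

theorem core_aux {p : ℝ} (hp1 : 1 < p) (hp2 : p < 2) {m : Type*} [Fintype m] [DecidableEq m]
    {W : ℝ → Matrix m m ℂ} (hWm : ∀ i j, Measurable fun x => W x i j)
    (hWp : ∀ x, (W x).PosSemidef) (hWi : Integrable fun x => rtr (pw (W x) p))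
    {Ω : ℝ} (hΩ : ∫ x, rtr (pw (W x) p) < Ω)
    {Ψ Ψ' : ℝ → Matrix n m ℂ} (hΨ : ∀ i j, IsH1 (fun x => Ψ x i j) (fun x => Ψ' x i j))
    (horth : ∀ i k, ∫ x, (Ψ x * (Ψ x)ᴴ) i k = (1 : Matrix n n ℂ) i k) {a b : ℝ} (hab : a < b)
    (hX : ∀ v : n → ℂ, star v ⬝ᵥ v = 1 → 1 / 2 ≤ ∫ x in a..b, qf (Ψ x * (Ψ x)ᴴ) v)
    [Nonempty n] {α c : ℝ} (hα : 0 < α) (hc : 0 < c) :
    ∃ ε R : ℝ, 0 < ε ∧ ε < R ∧ ∀ A : Matrix n n ℂ → Matrix n n ℂ, ContinuousOn A (Kset n ε R) →
      (∀ κ ∈ Kset n ε R, (α • (1 : Matrix n n ℂ) - (A κ)ᴴ * A κ).PosSemidef) →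
      (∀ κ ∈ Kset n ε R, ∃ v : n → ℂ, star v ⬝ᵥ v = 1 ∧ 0 < qf (A κ * (A κ)ᴴ) v) →
      (∀ κ ∈ Kset n ε R, ∀ v : n → ℂ, star v ⬝ᵥ v = 1 → κ *ᵥ v = (ε : ℂ) • v →
        c ≤ qf (A κ * (A κ)ᴴ) v) →
      ∃ κ ∈ Kset n ε R, (∫ x in a..b, rtr (A κ * Ψ x * W x * (A κ * Ψ x)ᴴ)
          ≤ (∫ x, rtr (A κ * Ψ' x * (A κ * Ψ' x)ᴴ)) + rtr (κ * κ * (A κ * (A κ)ᴴ))) ∧
        2 * Ip p * rtr (pw κ (2 * p - 1)) ≤ Cp p * Ω := by
  have hp0 : 0 < p := by linarith
  have hba : 0 < b - a := sub_pos.mpr hab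
  set s := (p - 1)⁻¹ with hs
  have hs1 : 1 ≤ s := by
    rw [hs, one_le_inv₀ (by linarith)]
    linarith
  have hs0 : 0 < s := by linarith
  have hp1' : p - 1 ≠ 0 := by linarith
  have hsp : s * p = s + 1 := by
    rw [hs]
    field_simp
    ring
  have hpr : p.HolderConjugate (s + 1) := by
    rw [Real.holderConjugate_iff_eq_conjExponent hp1, ← hsp, hs, div_eq_inv_mul]
  have hΩ0 : 0 < Ω := lt_of_le_of_lt
    (integral_nonneg fun x => rtr_nonneg (posSemidef_pw (hWp x) p)) hΩ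
  have hΨc : Continuous Ψ := continuous_matrix fun i j => (hΨ i j).continuous
  have hXc : Continuous fun x => Ψ x * (Ψ x)ᴴ := hΨc.matrix_mul hΨc.matrix_conjTranspose
  obtain ⟨D0, hD0⟩ := (isCompact_Icc (a := a) (b := b)).exists_bound_of_continuousOn
    (continuous_rtr.comp hXc).continuousOn
  set D := |D0| + 1 with hD
  have hD1 : 0 < D := by positivity
  have hD2 : ∀ x ∈ Icc a b, rtr (Ψ x * (Ψ x)ᴴ) ≤ D := fun x hx =>
    (le_abs_self _).trans ((hD0 x hx).trans ((le_abs_self _).trans (by linarith)))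
  have hcard : (0 : ℝ) < Fintype.card n := Nat.cast_pos.mpr Fintype.card_pos
  set N0 := (b - a) * (Fintype.card n * (α * D) ^ (s + 1)) with hN0
  have hN0' : 0 < N0 := by positivity
  set η0 := (Ω / N0) ^ p⁻¹ * ((c / (4 * (b - a))) ^ (s - 1) * (c / 4)) with hη0
  have hη : 0 < η0 := by positivity
  set ε := min 1 (η0 / (2 * (2 + (b - a)))) with hε
  have hε0 : 0 < ε := lt_min one_pos (by positivity)
  have hε1 : ε ≤ 1 := min_le_left _ _
  have hε2 : 2 * ε + ε ^ 2 * (b - a) < η0 := by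
    have h1 : ε * (2 * (2 + (b - a))) ≤ η0 :=
      (le_div_iff₀ (by positivity)).mp (min_le_right _ _)
    have h2 : ε ^ 2 ≤ ε := by nlinarith
    nlinarith
  set R := b - a + Ω + 1 with hR
  refine ⟨ε, R, hε0, by linarith, fun A hAc hA1 hA2 hA3 => ?_⟩
  set X : Matrix n n ℂ → ℝ → Matrix n n ℂ := fun κ x => A κ * Ψ x * (A κ * Ψ x)ᴴ with hXdef
  have hXp : ∀ κ x, (X κ x).PosSemidef := fun κ x => posSemidef_self_mul_conjTranspose _
  have hXe : ∀ κ x, X κ x = A κ * (Ψ x * (Ψ x)ᴴ) * (A κ)ᴴ := fun κ x => by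
    simp only [hXdef, conjTranspose_mul, Matrix.mul_assoc]
  have hXx : ∀ κ, Continuous (X κ) := fun κ =>
    (continuous_const.matrix_mul hΨc).matrix_mul
      (continuous_const.matrix_mul hΨc).matrix_conjTranspose
  have hXq : ∀ κ v, qf (A κ * (A κ)ᴴ) v / 2 ≤ ∫ x in a..b, qf (X κ x) v := by
    intro κ v
    have h1 := half_le_integral hX ((A κ)ᴴ *ᵥ v)
    rw [← qf_conj, Matrix.mul_one] at h1
    simpa only [hXe, qf_conj] using h1
  have hPc : ∀ κ r, 0 ≤ r → Continuous fun x => pw (X κ x) r := fun κ r hr =>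
    continuousOn_univ.mp (continuousOn_cfc_of_continuous (Real.continuous_rpow_const hr)
      (hXx κ).continuousOn fun x _ => (hXp κ x).isHermitian)
  set N : Matrix n n ℂ → ℝ := fun κ => ∫ x in a..b, rtr (pw (X κ x) (s + 1)) with hN
  have hNpos : ∀ κ ∈ Kset n ε R, 0 < N κ := by
    intro κ hκ
    obtain ⟨v, hv, hv0⟩ := hA2 κ hκ
    have h1 := integral_qf_pw_ge (hXx κ) (hXp κ) hab hv hv0 (s := s + 1) (by linarith) (hXq κ v)
    refine lt_of_lt_of_le (by positivity) (h1.trans ?_)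
    exact intervalIntegral.integral_mono_on hab.le
      (((Ric.qfL v).continuous.comp (hPc κ _ (by linarith))).intervalIntegrable _ _)
      ((continuous_rtr.comp (hPc κ _ (by linarith))).intervalIntegrable _ _)
      fun x _ => qf_le_rtr (posSemidef_pw (hXp κ x) _) hv
  have hNle : ∀ κ ∈ Kset n ε R, N κ ≤ N0 := by
    intro κ hκ
    have h1 : N κ ≤ ∫ _x in a..b, Fintype.card n * (α * D) ^ (s + 1) := by
      refine intervalIntegral.integral_mono_on hab.le
        ((continuous_rtr.comp (hPc κ _ (by linarith))).intervalIntegrable _ _)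
        intervalIntegrable_const fun x hx => rtr_pw_le (hXp κ x) (by linarith) ?_
      have h2 := rtr_mul_nonneg (hA1 κ hκ) (posSemidef_self_mul_conjTranspose (Ψ x))
      rw [Matrix.sub_mul, Matrix.smul_mul, Matrix.one_mul, rtr_sub, rtr_smul] at h2
      rw [hXe, rtr_mul_comm, ← Matrix.mul_assoc]
      have h3 := mul_le_mul_of_nonneg_left (hD2 x hx) hα.le
      linarith
    rwa [intervalIntegral.integral_const, smul_eq_mul] at h1
  set μ : Matrix n n ℂ → ℝ := fun κ => (Ω / N κ) ^ p⁻¹ with hμ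
  have hμ0 : ∀ κ ∈ Kset n ε R, 0 < μ κ := fun κ hκ =>
    Real.rpow_pos_of_pos (div_pos hΩ0 (hNpos κ hκ)) _
  have hμp : ∀ κ ∈ Kset n ε R, μ κ ^ p * N κ = Ω := fun κ hκ => by
    rw [hμ]
    simp only
    rw [Real.rpow_inv_rpow (div_pos hΩ0 (hNpos κ hκ)).le hp0.ne',
      div_mul_cancel₀ _ (hNpos κ hκ).ne']
  set V : Matrix n n ℂ → ℝ → Matrix n n ℂ := fun κ x => μ κ • pw (X κ x) s with hV
  have hVx : ∀ κ, Continuous (V κ) := fun κ => (hPc κ s hs0.le).const_smul (μ κ)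
  have hVp : ∀ κ ∈ Kset n ε R, ∀ x, (V κ x).PosSemidef := fun κ hκ x =>
    (posSemidef_pw (hXp κ x) s).smul (hμ0 κ hκ).le
  have hVΩ : ∀ κ ∈ Kset n ε R, ∫ x in a..b, rtr (pw (V κ x) p) = Ω := by
    intro κ hκ
    simp only [hV, pw_smul_pw (hXp κ _) (hμ0 κ hκ).le, rtr_smul, hsp]
    rw [intervalIntegral.integral_const_mul]
    exact hμp κ hκ
  have hXj : ContinuousOn (fun q : Matrix n n ℂ × ℝ => X q.1 q.2) (Kset n ε R ×ˢ univ) := by
    rw [continuousOn_iff_continuous_domRestrict]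
    have c1 : Continuous fun q : (Kset n ε R ×ˢ (univ : Set ℝ) : Set (Matrix n n ℂ × ℝ)) =>
        A q.1.1 := hAc.comp_continuous (by fun_prop) fun q => q.2.1
    have c2 : Continuous fun q : (Kset n ε R ×ˢ (univ : Set ℝ) : Set (Matrix n n ℂ × ℝ)) =>
        Ψ q.1.2 := hΨc.comp (by fun_prop)
    exact (c1.matrix_mul c2).matrix_mul (c1.matrix_mul c2).matrix_conjTranspose
  have hNc : ContinuousOn N (Kset n ε R) := by
    rw [continuousOn_iff_continuous_domRestrict]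
    have c1 := continuousOn_rtr_pw (p := s + 1) (by linarith) hXj
      fun q _ => (hXp q.1 q.2).isHermitian
    have c2 : Continuous fun q : Kset n ε R × ℝ => rtr (pw (X q.1.1 q.2) (s + 1)) :=
      c1.comp_continuous (f := fun q : Kset n ε R × ℝ => ((q.1 : Matrix n n ℂ), q.2))
        (by fun_prop) fun q => ⟨q.1.2, mem_univ _⟩
    exact intervalIntegral.continuous_parametric_intervalIntegral_of_continuous'
      (f := fun (κ : Kset n ε R) x => rtr (pw (X κ.1 x) (s + 1))) c2 a b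
  have hμc : ContinuousOn μ (Kset n ε R) :=
    (continuousOn_const.div hNc fun κ hκ => (hNpos κ hκ).ne').rpow_const
      fun _ _ => Or.inr (inv_nonneg.mpr hp0.le)
  have hVc : ContinuousOn (fun q : Matrix n n ℂ × ℝ => V q.1 q.2) (Kset n ε R ×ˢ Icc a b) := by
    have c1 := continuousOn_cfc_of_continuous (Real.continuous_rpow_const hs0.le) hXj
      fun q _ => (hXp q.1 q.2).isHermitian
    exact (hμc.comp continuousOn_fst fun q hq => hq.1).smul
      (c1.mono (prod_mono le_rfl (subset_univ _)))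
  obtain ⟨κ, hκ, Z, hZc, hZd, hZa, hZb, hZ⟩ := exists_riccati hab hε0 (by linarith : ε < R) hVc
    (fun κ hκ x _ => hVp κ hκ x)
    (fun κ hκ v hv _ => by
      have c1 : Continuous fun x => rtr (pw (V κ x) p) := continuousOn_univ.mp
        (continuousOn_rtr_pw hp0.le (hVx κ).continuousOn fun x _ => (hVp κ hκ x).isHermitian)
      have h1 : ∫ x in a..b, qf (V κ x) v ≤ ∫ x in a..b, (1 + rtr (pw (V κ x) p)) :=
        intervalIntegral.integral_mono_on hab.le
          (((Ric.qfL v).continuous.comp (hVx κ)).intervalIntegrable _ _)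
          ((continuous_const.add c1).intervalIntegrable _ _)
          fun x _ => qf_le_one_add (hVp κ hκ x) hp1.le hv
      rw [intervalIntegral.integral_add intervalIntegrable_const (c1.intervalIntegrable _ _),
        hVΩ κ hκ, intervalIntegral.integral_const, smul_eq_mul, mul_one] at h1
      linarith)
    (fun κ hκ v hv hκv => by
      have h1 := integral_qf_pw_ge (hXx κ) (hXp κ) hab hv hc hs1
        (le_trans (by linarith [hA3 κ hκ v hv hκv]) (hXq κ v))
      have h2 : (Ω / N0) ^ p⁻¹ ≤ μ κ := Real.rpow_le_rpow (by positivity)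
        (div_le_div_of_nonneg_left hΩ0.le (hNpos κ hκ) (hNle κ hκ)) (inv_nonneg.mpr hp0.le)
      simp only [hV, Ric.qf_smul]
      rw [intervalIntegral.integral_const_mul]
      exact hε2.trans_le (mul_le_mul h2 h1 (by positivity) (hμ0 κ hκ).le))
  have hκd : κ.PosDef := posDef_of_sub hε0 hκ.1
  refine ⟨κ, hκ, ?_, ?_⟩
  · have hY := isH1_mul (A κ) hΨ
    have h1 := holder_step hs0 hpr hWm hWp hWi hΩ.le hY hab.le (hμ0 κ hκ) (hμp κ hκ)
    have h2 := form_nonneg hab.le hκd.isHermitian (hVx κ).continuousOn hZc hZd hZa hZb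
      (fun x hx => isHermitian_of_sub hκd.isHermitian (hZ x hx).1) hY
    have e1 : ∫ x in a..b, rtr (V κ x * (A κ * Ψ x * (A κ * Ψ x)ᴴ)) = μ κ * N κ := by
      rw [hN, ← intervalIntegral.integral_const_mul]
      refine intervalIntegral.integral_congr fun x _ => ?_
      rw [← pw_mul_self (hXp κ x) hs0, ← rtr_smul, ← Matrix.smul_mul]
    have e2 : ∫ x, rtr (κ * κ * (A κ * Ψ x * (A κ * Ψ x)ᴴ)) = rtr (κ * κ * (A κ * (A κ)ᴴ)) := by
      have e3 : ∀ T : Matrix n n ℂ, rtr (κ * κ * (A κ * T * (A κ)ᴴ))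
          = rtr ((A κ)ᴴ * (κ * κ) * A κ * T) := fun T => by
        rw [← Matrix.mul_assoc (κ * κ), rtr_mul_comm]
        simp only [Matrix.mul_assoc]
      have e4 := integral_rtr_cmul ((A κ)ᴴ * (κ * κ) * A κ) 1 (integrable_mul_conj hΨ) horth
      rw [← e3, Matrix.mul_one] at e4
      rw [← e4]
      refine integral_congr_ae (Eventually.of_forall fun x => ?_)
      simp only
      rw [← e3, ← hXe]
    rw [e1, e2] at h2
    exact h1.trans h2
  · rw [← hVΩ κ hκ]
    exact stepA hp1 hp2 hab.le hκd (hVx κ).continuousOn (fun x _ => hVp κ hκ x) hZc hZd hZa hZb hZ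

theorem cfc_diagonal (d : n → ℝ) (f : ℝ → ℝ) :
    cfc f (diagonal fun i => (d i : ℂ)) = diagonal fun i => (f (d i) : ℂ) := by
  have hH : (diagonal fun i => (d i : ℂ)).IsHermitian :=
    isHermitian_diagonal_of_self_adjoint _ (by ext i; simp)
  ext i j
  have h := cfc_mulVec_of_eigen hH (v := Pi.single j 1) (c := d j)
    (by ext k; by_cases hk : k = j <;> simp [mulVec_diagonal, hk]) f
  have := congrFun h i
  by_cases hij : i = j
  · subst hij
    simpa using this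
  · simpa [hij] using this

theorem core {γ : ℝ} (h1 : 1 / 2 < γ) (h2 : γ < 3 / 2) {m : Type*} [Fintype m] [DecidableEq m]
    {W : ℝ → Matrix m m ℂ} (hWm : ∀ i j, Measurable fun x => W x i j)
    (hWp : ∀ x, (W x).PosSemidef) (hWi : Integrable fun x => rtr (pw (W x) (γ + 1 / 2)))
    {Ω : ℝ} (hΩ : ∫ x, rtr (pw (W x) (γ + 1 / 2)) < Ω)
    {Ψ Ψ' : ℝ → Matrix n m ℂ} (hΨ : ∀ i j, IsH1 (fun x => Ψ x i j) (fun x => Ψ' x i j))
    (horth : ∀ i k, ∫ x, (Ψ x * (Ψ x)ᴴ) i k = (1 : Matrix n n ℂ) i k) {d : n → ℝ}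
    (hd : ∀ i, 0 < d i) {a b : ℝ} (hab : a < b)
    (hT : ∀ A : Matrix n n ℂ, (∫ x, rtr (A * Ψ' x * (A * Ψ' x)ᴴ))
          + rtr (A * (diagonal fun i => (d i : ℂ)) * Aᴴ)
        ≤ ∫ x in a..b, rtr (A * Ψ x * W x * (A * Ψ x)ᴴ))
    (hX : ∀ v : n → ℂ, star v ⬝ᵥ v = 1 → 1 / 2 ≤ ∫ x in a..b, qf (Ψ x * (Ψ x)ᴴ) v) :
    2 * Ip (γ + 1 / 2) * ∑ i, d i ^ γ ≤ Cp (γ + 1 / 2) * Ω := by
  have hΩ0 : 0 < Ω := lt_of_le_of_lt
    (integral_nonneg fun x => rtr_nonneg (posSemidef_pw (hWp x) _)) hΩ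
  have hγ0 : 0 < γ := by linarith
  rcases isEmpty_or_nonempty n with hn | hn
  · have : 0 ≤ Cp (γ + 1 / 2) :=
      div_nonneg (Real.rpow_nonneg (by linarith) _) (Real.rpow_nonneg (by linarith) _)
    simpa using mul_nonneg this hΩ0.le
  have hI : 0 ≤ 2 * Ip (γ + 1 / 2) := mul_nonneg zero_le_two
    (intervalIntegral.integral_nonneg zero_le_one fun t ht =>
      Real.rpow_nonneg (by nlinarith [ht.1, ht.2]) _)
  set Dm : Matrix n n ℂ := diagonal fun i => (d i : ℂ) with hDm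
  have hDH : Dm.IsHermitian := isHermitian_diagonal_of_self_adjoint _ (by ext i; simp)
  have hDp : ∀ t ∈ spectrum ℝ Dm, ∃ i, d i = t := by
    intro t ht
    have h := spectrum.algebraMap_mem ℂ ht
    rw [hDm, spectrum_diagonal] at h
    obtain ⟨i, hi⟩ := h
    exact ⟨i, Complex.ofReal_injective hi⟩
  have hDt : ∀ f : ℝ → ℝ, rtr (cfc f Dm) = ∑ i, f (d i) := fun f => by
    rw [hDm, cfc_diagonal, rtr, trace_diagonal, Complex.re_sum]
    simp
  obtain ⟨i0⟩ := id hn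
  have hunit : star (Pi.single i0 1 : n → ℂ) ⬝ᵥ (Pi.single i0 1 : n → ℂ) = 1 := by simp
  have e0 : 2 * (γ + 1 / 2) - 1 = 2 * γ := by ring
  suffices h : ∃ κ : Matrix n n ℂ, ∑ i, d i ^ γ ≤ rtr (pw κ (2 * γ)) ∧
      2 * Ip (γ + 1 / 2) * rtr (pw κ (2 * (γ + 1 / 2) - 1)) ≤ Cp (γ + 1 / 2) * Ω by
    obtain ⟨κ, k1, k2⟩ := h
    rw [e0] at k2
    exact (mul_le_mul_of_nonneg_left k1 hI).trans k2
  rcases lt_or_ge γ 1 with hγ | hγ
  · obtain ⟨ε, R, hε, hεR, H⟩ := core_aux (by linarith) (by linarith) hWm hWp hWi hΩ hΨ horth hab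
      hX one_pos one_pos
    set g : ℝ → ℝ := fun t => (t / ε) ^ (γ - 1) with hg
    have hKd : ∀ κ ∈ Kset n ε R, κ.PosDef := fun κ hκ => posDef_of_sub hε hκ.1
    have hAA : ∀ κ : Matrix n n ℂ, cfc g κ * (cfc g κ)ᴴ = cfc (fun t => g t * g t) κ := fun κ => by
      rw [(isHermitian_cfc g κ).eq, cfc_mul']
    obtain ⟨κ, hκ, k1, k2⟩ := H (fun κ => cfc g κ)
      (continuousOn_cfc_of_posDef (f := g) ((continuousOn_id.div_const ε).rpow_const
        fun t ht => Or.inl (div_pos ht hε).ne') continuousOn_id hKd)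
      (fun κ hκ => by
        rw [(isHermitian_cfc g κ).eq, ← cfc_mul', ← cfc_const' 1 (hKd κ hκ).isHermitian]
        refine posSemidef_cfc_sub κ fun t ht => ?_
        have h3 : 1 ≤ t / ε := (one_le_div hε).mpr (le_of_mem_spectrum hκ.1 ht)
        have h4 : g t ≤ 1 := Real.rpow_le_one_of_one_le_of_nonpos h3 (by linarith)
        have h5 : 0 ≤ g t := Real.rpow_nonneg (by linarith) _
        nlinarith)
      (fun κ hκ => by
        refine ⟨_, hunit, ?_⟩
        rw [hAA]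
        refine (posDef_cfc (hKd κ hκ).isHermitian fun t ht => ?_).re_dotProduct_pos
          (by simp)
        have h5 : 0 < g t := Real.rpow_pos_of_pos (div_pos (pos_of_mem_spectrum (hKd κ hκ) ht) hε) _
        positivity)
      (fun κ hκ v hv hκv => by
        rw [hAA, Ric.qf_of_eigen hv (cfc_mulVec_of_eigen (hKd κ hκ).isHermitian hκv _)]
        simp [hg, hε.ne'])
    refine ⟨κ, ?_, k2⟩
    have hκd := hKd κ hκ
    have k3 := (hT (cfc g κ)).trans k1
    have hE : 0 < ε ^ (2 * (1 - γ)) := Real.rpow_pos_of_pos hε _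
    have e1 : cfc (fun t => g t * g t) κ = ε ^ (2 * (1 - γ)) • pw κ (2 * γ - 2) := by
      rw [pw, ← cfc_const_mul']
      refine cfc_congr fun t ht => ?_
      have ht0 := pos_of_mem_spectrum hκd ht
      simp only [hg]
      rw [← Real.rpow_add (div_pos ht0 hε), Real.div_rpow ht0.le hε.le, div_eq_inv_mul,
        ← Real.rpow_neg hε.le]
      congr 1 <;> congr 1 <;> ring
    have e2 : κ * κ * pw κ (2 * γ - 2) = pw κ (2 * γ) := by
      conv_lhs => rw [← cfc_id_eq hκd.isHermitian]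
      rw [pw, pw, cfc_cfc _ _ hκd.isHermitian, ← cfc_mul', ← cfc_mul']
      refine cfc_congr fun t ht => ?_
      have ht0 := pos_of_mem_spectrum hκd ht
      rw [Real.rpow_sub ht0, Real.rpow_two]
      field_simp
    rw [add_le_add_iff_left, rtr_mul_comm, ← Matrix.mul_assoc, (isHermitian_cfc g κ).eq,
      ← cfc_mul', e1, Matrix.smul_mul, Matrix.mul_smul, rtr_smul, rtr_smul, e2] at k3
    have k4 := le_of_mul_le_mul_left k3 hE
    have k5 := rtr_cfc_mul_le hκd.isHermitian hDH (fun t => -γ * t ^ (2 * γ - 2)) (fun t => t)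
      (fun t => (1 - γ) * t ^ (2 * γ)) (fun t => -1 * t ^ γ) fun k hk t ht => by
        have hk0 := pos_of_mem_spectrum hκd hk
        obtain ⟨i, rfl⟩ := hDp t ht
        have h3 := Real.geom_mean_le_arith_mean2_weighted hγ0.le (sub_nonneg.mpr hγ.le)
          (mul_nonneg (hd i).le (Real.rpow_nonneg hk0.le (2 * γ - 2)))
          (Real.rpow_nonneg hk0.le (2 * γ)) (by ring)
        rw [Real.mul_rpow (hd i).le (Real.rpow_nonneg hk0.le _), ← Real.rpow_mul hk0.le,
          ← Real.rpow_mul hk0.le, mul_assoc, ← Real.rpow_add hk0,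
          show (2 * γ - 2) * γ + 2 * γ * (1 - γ) = 0 by ring, Real.rpow_zero, mul_one] at h3
        linarith
    rw [cfc_const_mul', cfc_const_mul', cfc_const_mul', cfc_id_eq hDH, Matrix.smul_mul, rtr_smul,
      rtr_smul, rtr_smul, hDt] at k5
    have k6 := mul_le_mul_of_nonneg_left k4 hγ0.le
    simp only [pw] at k6 ⊢
    linarith
  · set g : ℝ → ℝ := fun t => t ^ ((γ - 1) / 2) with hg
    have hgg : ∀ i, g (d i) * g (d i) = d i ^ (γ - 1) := fun i => by
      simp only [hg]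
      rw [← Real.rpow_add (hd i)]
      congr 1
      ring
    have hAA : cfc g Dm * cfc g Dm = cfc (fun t : ℝ => t ^ (γ - 1)) Dm := by
      rw [← cfc_mul']
      refine cfc_congr fun t ht => ?_
      obtain ⟨i, rfl⟩ := hDp t ht
      exact hgg i
    obtain ⟨j0, hj0⟩ := Finite.exists_min fun i => d i ^ (γ - 1)
    obtain ⟨j1, hj1⟩ := Finite.exists_max fun i => d i ^ (γ - 1)
    have hlow : ∀ v : n → ℂ, star v ⬝ᵥ v = 1 →
        d j0 ^ (γ - 1) ≤ qf (cfc g Dm * (cfc g Dm)ᴴ) v := fun v hv => by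
      rw [(isHermitian_cfc g Dm).eq, hAA]
      have h3 := posSemidef_cfc_sub Dm (f := fun _ => d j0 ^ (γ - 1)) (g := fun t => t ^ (γ - 1))
        fun t ht => by
          obtain ⟨i, rfl⟩ := hDp t ht
          exact hj0 i
      have h4 := Ric.qf_nonneg h3 v
      rw [cfc_const' _ hDH, Ric.qf_sub, Ric.qf_smul, Ric.qf_one hv] at h4
      linarith
    obtain ⟨ε, R, hε, hεR, H⟩ := core_aux (by linarith) (by linarith) hWm hWp hWi hΩ hΨ horth hab
      hX (Real.rpow_pos_of_pos (hd j1) (γ - 1)) (Real.rpow_pos_of_pos (hd j0) (γ - 1))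
    obtain ⟨κ, hκ, k1, k2⟩ := H (fun _ => cfc g Dm) continuousOn_const
      (fun κ hκ => by
        rw [(isHermitian_cfc g Dm).eq, hAA, ← cfc_const' _ hDH]
        refine posSemidef_cfc_sub Dm fun t ht => ?_
        obtain ⟨i, rfl⟩ := hDp t ht
        exact hj1 i)
      (fun κ hκ => ⟨_, hunit, (Real.rpow_pos_of_pos (hd j0) (γ - 1)).trans_le (hlow _ hunit)⟩)
      (fun κ hκ v hv _ => hlow v hv)
    refine ⟨κ, ?_, k2⟩
    have hκd : κ.PosDef := posDef_of_sub hε hκ.1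
    have k3 := (hT (cfc g Dm)).trans k1
    have e1 : cfc (fun t : ℝ => t ^ (γ - 1)) Dm * Dm = cfc (fun t : ℝ => t ^ γ) Dm := by
      conv_lhs => rw [← cfc_id_eq hDH]
      rw [cfc_cfc _ _ hDH, ← cfc_mul']
      refine cfc_congr fun t ht => ?_
      obtain ⟨i, rfl⟩ := hDp t ht
      rw [Real.rpow_sub_one (hd i).ne']
      field_simp [(hd i).ne']
    have e2 : κ * κ = cfc (fun t : ℝ => t * t) κ := by rw [cfc_mul', cfc_id_eq hκd.isHermitian]
    rw [add_le_add_iff_left, rtr_mul_comm, ← Matrix.mul_assoc, (isHermitian_cfc g Dm).eq, hAA, e1,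
      hDt, e2] at k3
    have k5 := rtr_cfc_mul_le hκd.isHermitian hDH (fun t => t * t) (fun t => t ^ (γ - 1))
      (fun t => γ⁻¹ * t ^ (2 * γ)) (fun t => (1 - γ⁻¹) * t ^ γ) fun k hk t ht => by
        have hk0 := pos_of_mem_spectrum hκd hk
        obtain ⟨i, rfl⟩ := hDp t ht
        have h3 := Real.geom_mean_le_arith_mean2_weighted (inv_nonneg.mpr hγ0.le)
          (sub_nonneg.mpr (inv_le_one_of_one_le₀ hγ))
          (Real.rpow_nonneg hk0.le (2 * γ)) (Real.rpow_nonneg (hd i).le γ) (by ring)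
        rw [← Real.rpow_mul hk0.le, ← Real.rpow_mul (hd i).le,
          show 2 * γ * γ⁻¹ = 2 by field_simp, show γ * (1 - γ⁻¹) = γ - 1 by field_simp,
          Real.rpow_two, sq] at h3
        exact h3
    rw [cfc_const_mul', cfc_const_mul', rtr_smul, rtr_smul, hDt] at k5
    have k6 : γ⁻¹ * ∑ i, d i ^ γ ≤ γ⁻¹ * rtr (pw κ (2 * γ)) := by
      rw [pw]
      linarith
    exact le_of_mul_le_mul_left k6 (inv_pos.mpr hγ0)

end Vale.Agent.P371
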