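import Vale.Agent.P371.Spec

namespace Vale.Agent.P371

open MeasureTheory Matrix Set Filter Topology
open scoped ComplexOrder Matrix.Norms.L2Operator MatrixOrder

set_option linter.unusedSectionVars false

variable {n : Type*} [Fintype n] [DecidableEq n]

/-- The cutoff: `1` for `‖Z‖ ≤ R`, `0` for `‖Z‖ ≥ R + δ`. -/
noncomputable def cut (R δ : ℝ) (Z : Matrix n n ℂ) : ℝ := max 0 (min 1 ((R + δ - ‖Z‖) / δ))

theorem flow_lip {E : Type*} [NormedAddCommGroup E] [NormedSpace ℝ E] {c : E → ℝ} {g : E → E}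
    {Lc Lg B : NNReal} (hc : LipschitzWith Lc c) (hg : LipschitzWith Lg g) {A : E}
    (hA : ‖A‖ ≤ B) : LipschitzWith (Lc * B + Lg) fun Z => c Z • A - g Z := by
  refine LipschitzWith.sub (LipschitzWith.of_dist_le_mul fun Z W => ?_) hg
  rw [dist_eq_norm, ← sub_smul, norm_smul, ← dist_eq_norm]
  calc _ ≤ (Lc * dist Z W) * B :=
        mul_le_mul (hc.dist_le_mul Z W) hA (norm_nonneg _) (by positivity)
    _ = _ := by push_cast; ring

theorem flow_aux {E : Type*} [NormedAddCommGroup E] [NormedSpace ℝ E] [CompleteSpace E]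
    {c : E → ℝ} {g : E → E} {Lc Lg Bg : NNReal} (hc : LipschitzWith Lc c) (hc1 : ∀ Z, |c Z| ≤ 1)
    (hg : LipschitzWith Lg g) (hgb : ∀ Z, ‖g Z‖ ≤ Bg) {S : Set E} {A : E → ℝ → E} {a b : ℝ}
    (hab : a ≤ b) (hA : ContinuousOn (Function.uncurry A) (S ×ˢ Icc a b)) :
    ∃ Z : E → ℝ → E, ContinuousOn (fun κ => Z κ b) S ∧ ∀ κ ∈ S, Z κ a = κ ∧
      (∀ x ∈ Icc a b, HasDerivWithinAt (Z κ) (c (Z κ x) • A κ x - g (Z κ x)) (Icc a b) x) ∧
      ∀ W : ℝ → E, W a = κ →
        (∀ x ∈ Icc a b, HasDerivWithinAt W (c (W x) • A κ x - g (W x)) (Icc a b) x) →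
        EqOn W (Z κ) (Icc a b) := by
  have hAκ : ∀ κ ∈ S, ContinuousOn (A κ) (Icc a b) := fun κ hκ =>
    hA.comp (continuousOn_const.prodMk continuousOn_id) fun x hx => ⟨hκ, hx⟩
  have hB : ∀ κ ∈ S, ∃ B : NNReal, ∀ x ∈ Icc a b, ‖A κ x‖ ≤ B := fun κ hκ => by
    obtain ⟨B, hB⟩ := isCompact_Icc.exists_bound_of_continuousOn (hAκ κ hκ)
    exact ⟨B.toNNReal, fun x hx => (hB x hx).trans (Real.le_coe_toNNReal B)⟩
  have hex : ∀ κ ∈ S, ∃ Z : ℝ → E, Z a = κ ∧
      ∀ x ∈ Icc a b, HasDerivWithinAt Z (c (Z x) • A κ x - g (Z x)) (Icc a b) x := by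
    intro κ hκ
    obtain ⟨B, hB⟩ := hB κ hκ
    have hP : IsPicardLindelof (fun x Z => c Z • A κ x - g Z) (⟨a, left_mem_Icc.2 hab⟩ : Icc a b)
        κ ((B + Bg) * (b - a).toNNReal) 0 (B + Bg) (Lc * B + Lg) :=
      { lipschitzOnWith := fun x hx => (flow_lip hc hg (hB x hx)).lipschitzOnWith
        continuousOn := fun Z _ => ((hAκ κ hκ).const_smul _).sub continuousOn_const
        norm_le := fun x hx Z _ => by
          refine (norm_sub_le _ _).trans ?_
          rw [norm_smul, Real.norm_eq_abs]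
          have := mul_le_mul (hc1 Z) (hB x hx) (norm_nonneg _) zero_le_one
          push_cast
          linarith [hgb Z]
        mul_max_le := by
          simp [Real.coe_toNNReal _ (sub_nonneg.2 hab), hab] }
    exact hP.exists_eq_forall_mem_Icc_hasDerivWithinAt₀
  choose! Z hZa hZ using hex
  have hci : ∀ {W : ℝ → E} {W' : E} {x : ℝ}, x ∈ Ico a b → HasDerivWithinAt W W' (Icc a b) x →
      HasDerivWithinAt W W' (Ici x) x := fun hx h =>
    h.mono_of_mem_nhdsWithin (Icc_mem_nhdsGE_of_mem hx)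
  refine ⟨Z, fun κ0 h0 => ?_, fun κ hκ => ⟨hZa κ hκ, hZ κ hκ, fun W hWa hW => ?_⟩⟩
  · obtain ⟨B, hB⟩ := hB κ0 h0
    set G := gronwallBound 1 ((Lc * B + Lg : NNReal) : ℝ) 1 (b - a) with hG
    rw [Metric.continuousWithinAt_iff']
    intro ε hε
    have hη : 0 < ε / (|G| + 1) := by positivity
    obtain ⟨v, hv, hv'⟩ := isCompact_Icc.mem_uniformity_of_prod hA h0 (Metric.dist_mem_uniformity hη)
    filter_upwards [hv, self_mem_nhdsWithin,
      mem_nhdsWithin_of_mem_nhds (Metric.ball_mem_nhds κ0 hη)] with κ h1 h2 h3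
    have := dist_le_of_approx_trajectories_ODE_of_mem (v := fun x Z => c Z • A κ0 x - g Z)
      (s := fun _ => univ) (εf := ε / (|G| + 1)) (εg := 0) (δ := ε / (|G| + 1))
      (fun x hx => (flow_lip hc hg (hB x (Ico_subset_Icc_self hx))).lipschitzOnWith)
      (fun x hx => (hZ κ h2 x hx).continuousWithinAt)
      (fun x hx => hci hx (hZ κ h2 x (Ico_subset_Icc_self hx))) (fun x hx => ?_)
      (fun _ _ => mem_univ _) (fun x hx => (hZ κ0 h0 x hx).continuousWithinAt)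
      (fun x hx => hci hx (hZ κ0 h0 x (Ico_subset_Icc_self hx))) (fun x _ => (dist_self _).le)
      (fun _ _ => mem_univ _) (by rw [hZa κ h2, hZa κ0 h0]; exact le_of_lt h3) b
      (right_mem_Icc.2 hab)
    · refine this.trans_lt ?_
      have e : gronwallBound (ε / (|G| + 1)) ((Lc * B + Lg : NNReal) : ℝ) (ε / (|G| + 1) + 0)
          (b - a) = ε / (|G| + 1) * G := by
        generalize ε / (|G| + 1) = η
        rw [hG]
        simp only [gronwallBound]
        split_ifs <;> ring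
      rw [e, div_mul_eq_mul_div, div_lt_iff₀ (by positivity)]
      nlinarith [le_abs_self G]
    · rw [dist_sub_right, dist_eq_norm, ← smul_sub, norm_smul, ← dist_eq_norm]
      have h4 : dist (A κ x) (A κ0 x) < ε / (|G| + 1) := hv' κ h1 x (Ico_subset_Icc_self hx)
      exact (mul_le_of_le_one_left dist_nonneg (hc1 _)).trans h4.le
  · obtain ⟨B, hB⟩ := hB κ hκ
    exact ODE_solution_unique_of_mem_Icc_right (v := fun x Z => c Z • A κ x - g Z)
      (s := fun _ => univ)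
      (fun x hx => (flow_lip hc hg (hB x (Ico_subset_Icc_self hx))).lipschitzOnWith)
      (fun x hx => (hW x hx).continuousWithinAt)
      (fun x hx => hci hx (hW x (Ico_subset_Icc_self hx))) (fun _ _ => mem_univ _)
      (fun x hx => (hZ κ hκ x hx).continuousWithinAt)
      (fun x hx => hci hx (hZ κ hκ x (Ico_subset_Icc_self hx))) (fun _ _ => mem_univ _)
      (hWa.trans (hZa κ hκ).symm)

theorem cut_nonneg (R δ : ℝ) (Z : Matrix n n ℂ) : 0 ≤ cut R δ Z := le_max_left _ _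

theorem cut_le_one (R δ : ℝ) (Z : Matrix n n ℂ) : cut R δ Z ≤ 1 :=
  max_le zero_le_one (min_le_left _ _)

theorem cut_eq_zero {R δ : ℝ} (hδ : 0 < δ) {Z : Matrix n n ℂ} (h : |R| + δ ≤ ‖Z‖) :
    cut R δ Z = 0 :=
  max_eq_left ((min_le_right _ _).trans
    (div_nonpos_of_nonpos_of_nonneg (by linarith [le_abs_self R]) hδ.le))

theorem cut_sub_le {R δ : ℝ} (hδ : 0 < δ) (Z W : Matrix n n ℂ) :
    |cut R δ Z - cut R δ W| ≤ δ⁻¹ * ‖Z - W‖ := by
  unfold cut
  rw [max_comm 0, max_comm 0]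
  refine (abs_max_sub_max_le_abs _ _ _).trans ((abs_min_sub_min_le_max _ _ _ _).trans ?_)
  rw [sub_self, abs_zero, ← sub_div, abs_div, abs_of_pos hδ, div_eq_inv_mul]
  refine max_le (by positivity) (mul_le_mul_of_nonneg_left ?_ (by positivity))
  rw [show R + δ - ‖Z‖ - (R + δ - ‖W‖) = -(‖Z‖ - ‖W‖) by ring, abs_neg]
  exact abs_norm_sub_norm_le Z W

theorem cut_sq_le {R δ : ℝ} (hδ : 0 < δ) (Z W : Matrix n n ℂ) :
    ‖cut R δ Z • (Z * Z) - cut R δ W • (W * W)‖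
      ≤ (δ⁻¹ * (|R| + δ) ^ 2 + 2 * (|R| + δ)) * ‖Z - W‖ := by
  have hρ : 0 ≤ |R| + δ := by positivity
  have one : ∀ Z W : Matrix n n ℂ, cut R δ W = 0 → ‖cut R δ Z • (Z * Z) - cut R δ W • (W * W)‖
      ≤ (δ⁻¹ * (|R| + δ) ^ 2 + 2 * (|R| + δ)) * ‖Z - W‖ := fun Z W hW => by
    rcases le_total (|R| + δ) ‖Z‖ with h | h
    · rw [hW, cut_eq_zero hδ h, zero_smul, zero_smul, sub_zero, norm_zero]; positivity
    have h1 := cut_sub_le (R := R) hδ Z W
    rw [hW, sub_zero] at h1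
    rw [hW, zero_smul, sub_zero, norm_smul, Real.norm_eq_abs]
    have h2 : ‖Z * Z‖ ≤ (|R| + δ) ^ 2 := (norm_mul_le _ _).trans (by rw [sq]; gcongr)
    have h3 := mul_le_mul h1 h2 (norm_nonneg _) (by positivity)
    have h4 : 0 ≤ 2 * (|R| + δ) * ‖Z - W‖ := by positivity
    linarith
  rcases le_total (|R| + δ) ‖W‖ with hW | hW
  · exact one Z W (cut_eq_zero hδ hW)
  rcases le_total (|R| + δ) ‖Z‖ with hZ | hZ
  · rw [norm_sub_rev, norm_sub_rev Z]; exact one W Z (cut_eq_zero hδ hZ)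
  have e : cut R δ Z • (Z * Z) - cut R δ W • (W * W) = (cut R δ Z - cut R δ W) • (Z * Z)
      + cut R δ W • (Z * (Z - W) + (Z - W) * W) := by
    rw [Matrix.mul_sub, Matrix.sub_mul, sub_add_sub_cancel, sub_smul, smul_sub, sub_add_sub_cancel]
  rw [e]
  refine (norm_add_le _ _).trans ?_
  rw [norm_smul, norm_smul, Real.norm_eq_abs, Real.norm_of_nonneg (cut_nonneg _ _ _)]
  have h2 : ‖Z * Z‖ ≤ (|R| + δ) ^ 2 := (norm_mul_le _ _).trans (by rw [sq]; gcongr)
  have h3 := mul_le_mul (cut_sub_le (R := R) hδ Z W) h2 (norm_nonneg _) (by positivity)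
  have h4 : ‖Z * (Z - W) + (Z - W) * W‖ ≤ (|R| + δ) * ‖Z - W‖ + ‖Z - W‖ * (|R| + δ) :=
    (norm_add_le _ _).trans (add_le_add ((norm_mul_le _ _).trans (by gcongr))
      ((norm_mul_le _ _).trans (by gcongr)))
  have h5 := mul_le_mul (cut_le_one R δ W) h4 (norm_nonneg _) zero_le_one
  linarith

/-- Existence and continuous dependence for the frozen Riccati equation. -/
theorem exists_flow {a b ε R δ : ℝ} (hab : a ≤ b) (hδ : 0 < δ)
    {V : Matrix n n ℂ → ℝ → Matrix n n ℂ}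
    (hVc : ContinuousOn (fun q : Matrix n n ℂ × ℝ => V q.1 q.2) (Kset n ε R ×ˢ Icc a b))
    (hVH : ∀ κ ∈ Kset n ε R, ∀ x ∈ Icc a b, (V κ x).IsHermitian) :
    ∃ Z : Matrix n n ℂ → ℝ → Matrix n n ℂ, ContinuousOn (fun κ => Z κ b) (Kset n ε R) ∧
      ∀ κ ∈ Kset n ε R, Z κ a = κ ∧ ContinuousOn (Z κ) (Icc a b) ∧
        (∀ x ∈ Icc a b, (Z κ x).IsHermitian) ∧
        ∀ x ∈ Ioo a b,
          HasDerivAt (Z κ) (cut R δ (Z κ x) • (κ * κ - Z κ x * Z κ x - V κ x)) x := by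
  have hκH : ∀ κ ∈ Kset n ε R, κ.IsHermitian := fun κ hκ => by
    have := hκ.1.isHermitian.add (show (ε • (1 : Matrix n n ℂ)).IsHermitian by
      simp [IsHermitian, conjTranspose_smul])
    simpa using this
  obtain ⟨Z, h1, h2⟩ := flow_aux (c := cut R δ) (g := fun Z : Matrix n n ℂ => cut R δ Z • (Z * Z))
    (Lc := ⟨δ⁻¹, by positivity⟩) (Lg := ⟨δ⁻¹ * (|R| + δ) ^ 2 + 2 * (|R| + δ), by positivity⟩)
    (Bg := ⟨(|R| + δ) ^ 2, by positivity⟩)
    (LipschitzWith.of_dist_le_mul fun Z W => by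
      rw [Real.dist_eq, dist_eq_norm]; exact cut_sub_le hδ Z W)
    (fun Z => by rw [abs_of_nonneg (cut_nonneg _ _ _)]; exact cut_le_one _ _ _)
    (LipschitzWith.of_dist_le_mul fun Z W => by
      rw [dist_eq_norm, dist_eq_norm]; exact cut_sq_le hδ Z W)
    (fun Z => by
      change _ ≤ (|R| + δ) ^ 2
      rcases le_total (|R| + δ) ‖Z‖ with h | h
      · rw [cut_eq_zero hδ h, zero_smul, norm_zero]; positivity
      rw [norm_smul, Real.norm_of_nonneg (cut_nonneg _ _ _)]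
      exact (mul_le_of_le_one_left (norm_nonneg _) (cut_le_one _ _ _)).trans
        ((norm_mul_le _ _).trans (by rw [sq]; gcongr)))
    (S := Kset n ε R) (A := fun κ x => κ * κ - V κ x) hab
    ((continuousOn_fst.mul continuousOn_fst).sub hVc)
  refine ⟨Z, h1, fun κ hκ => ⟨(h2 κ hκ).1, fun x hx => ((h2 κ hκ).2.1 x hx).continuousWithinAt,
    fun x hx => ?_, fun x hx => ?_⟩⟩
  · refine (h2 κ hκ).2.2 (fun x => star (Z κ x)) (by rw [(h2 κ hκ).1]; exact hκH κ hκ)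
      (fun y hy => ?_) hx
    refine ((h2 κ hκ).2.1 y hy).star.congr_deriv ?_
    have e1 : star κ = κ := hκH κ hκ
    have e2 : star (V κ y) = V κ y := hVH κ hκ y hy
    simp only [star_sub, star_smul, star_mul, star_trivial, e1, e2, cut, norm_star]
  · refine (((h2 κ hκ).2.1 x (Ioo_subset_Icc_self hx)).hasDerivAt
      (Icc_mem_nhds hx.1 hx.2)).congr_deriv ?_
    rw [← smul_sub, sub_right_comm]

end Vale.Agent.P371
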