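import Vale.Agent.P371.Spec

namespace Vale.Agent.P371

open MeasureTheory Matrix Set Filter Topology
open scoped ComplexOrder Matrix.Norms.L2Operator MatrixOrder

set_option linter.unusedSectionVars false

variable {n : Type*} [Fintype n] [DecidableEq n]

/-- The quadratic form as a continuous linear functional of the matrix. -/
noncomputable def qfL (v : n → ℂ) : Matrix n n ℂ →L[ℝ] ℝ :=
  LinearMap.toContinuousLinearMap
    { toFun := fun A => qf A v
      map_add' := fun A B => by simp [qf, add_mulVec]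
      map_smul' := fun c A => by simp [qf, smul_mulVec] }

theorem qfL_apply (v : n → ℂ) (A : Matrix n n ℂ) : qfL v A = qf A v := rfl

theorem continuous_qf : Continuous fun p : Matrix n n ℂ × (n → ℂ) => qf p.1 p.2 := by
  unfold qf
  exact Complex.continuous_re.comp
    (continuous_snd.star.dotProduct (continuous_fst.matrix_mulVec continuous_snd))

theorem qf_one_pos {v : n → ℂ} (hv : ‖v‖ = 1) : 0 < qf 1 v := by
  have h : v ≠ 0 := fun h => by simp [h] at hv
  exact (Complex.pos_iff.1 (PosDef.one.dotProduct_mulVec_pos h)).1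

theorem psd_of_sphere {A : Matrix n n ℂ} (hA : A.IsHermitian)
    (h : ∀ v : n → ℂ, ‖v‖ = 1 → 0 ≤ qf A v) : A.PosSemidef := by
  refine PosSemidef.of_dotProduct_mulVec_nonneg hA fun v => Complex.nonneg_iff.2
    ⟨?_, (hA.im_star_dotProduct_mulVec_self v).symm⟩
  by_cases hv : v = 0
  · simp [hv]
  have h0 : 0 < ‖v‖ := norm_pos_iff.2 hv
  have h1 := h (‖v‖⁻¹ • v) (by rw [norm_smul, norm_inv, norm_norm, inv_mul_cancel₀ h0.ne'])
  have h2 : qf A (‖v‖⁻¹ • v) = ‖v‖⁻¹ * (‖v‖⁻¹ * qf A v) := by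
    rw [qf, qf, mulVec_smul, star_smul, smul_dotProduct, dotProduct_smul]
    simp
  rw [h2] at h1
  exact (mul_nonneg_iff_of_pos_left (inv_pos.2 h0)).1 ((mul_nonneg_iff_of_pos_left (inv_pos.2 h0)).1 h1)

theorem qf_conjTranspose (A : Matrix n n ℂ) (v : n → ℂ) : qf Aᴴ v = qf A v := by
  rw [qf, qf, dotProduct_mulVec, vecMul_conjTranspose, star_star, star_dotProduct,
    Complex.star_def, Complex.conj_re]

theorem no_touch {U : ℝ → Matrix n n ℂ} {B C : Matrix n n ℂ} {y K e : ℝ} (he : 0 < e)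
    (hH : (U y).IsHermitian) (hd : HasDerivAt U (B * U y + U y * Bᴴ + C) y) (hC : C.PosSemidef)
    (hpos : ∀ z : n → ℂ, ‖z‖ = 1 → ∀ᶠ t in 𝓝[<] y,
      0 < qf (U t) z + e * Real.exp ((2 * K + 1) * t) * qf 1 z) {w : n → ℂ} (hw : ‖w‖ = 1)
    (e4 : qf B w ≤ K * qf 1 w)
    (hyw : qf (U y) w + e * Real.exp ((2 * K + 1) * y) * qf 1 w ≤ 0) : False := by
  have hw1 := qf_one_pos hw
  have hder : ∀ z : n → ℂ, HasDerivAt
      (fun t => qf (U t) z + e * Real.exp ((2 * K + 1) * t) * qf 1 z)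
      (qf (B * U y + U y * Bᴴ + C) z +
        e * (Real.exp ((2 * K + 1) * y) * (2 * K + 1)) * qf 1 z) y := fun z => by
    have d1 := (qfL z).hasFDerivAt.comp_hasDerivAt y hd
    have d2 := ((((hasDerivAt_id y).const_mul (2 * K + 1)).exp).const_mul e).mul_const (qf 1 z)
    simp only [id, mul_one] at d2
    exact d1.add d2
  have hnn : ∀ z : n → ℂ, ‖z‖ = 1 →
      0 ≤ qf (U y) z + e * Real.exp ((2 * K + 1) * y) * qf 1 z := fun z hz =>
    ge_of_tendsto ((hder z).continuousAt.tendsto.mono_left nhdsWithin_le_nhds)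
      ((hpos z hz).mono fun t ht => ht.le)
  set ε := e * Real.exp ((2 * K + 1) * y) with hε
  have hε0 : 0 < ε := by positivity
  have eq1 : ∀ z, qf (U y + ε • (1 : Matrix n n ℂ)) z = qf (U y) z + ε * qf 1 z := fun z => by
    rw [← qfL_apply, map_add, map_smul]
    rfl
  have hHe : (U y + ε • (1 : Matrix n n ℂ)).IsHermitian :=
    hH.add (IsSelfAdjoint.smul (IsSelfAdjoint.all ε) isHermitian_one)
  have hP := psd_of_sphere hHe fun z hz => (eq1 z).symm ▸ hnn z hz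
  have hz : qf (U y) w + ε * qf 1 w = 0 := le_antisymm hyw (hnn w hw)
  have hker : (U y + ε • (1 : Matrix n n ℂ)) *ᵥ w = 0 :=
    (hP.dotProduct_mulVec_zero_iff w).1
      (Complex.ext ((eq1 w).trans hz) (hHe.im_star_dotProduct_mulVec_self w))
  have e1 : qf (B * U y) w = -(ε * qf B w) := by
    have : qf (B * (U y + ε • (1 : Matrix n n ℂ))) w = 0 := by
      rw [qf, ← mulVec_mulVec, hker]
      simp
    rw [mul_add, mul_smul_comm, mul_one, ← qfL_apply, map_add, map_smul] at this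
    exact eq_neg_of_add_eq_zero_left this
  have e2 : qf (U y * Bᴴ) w = qf (B * U y) w := by
    rw [← qf_conjTranspose, conjTranspose_mul, conjTranspose_conjTranspose, hH.eq]
  have e3 : 0 ≤ qf C w := hC.re_dotProduct_nonneg w
  have hD : 0 < qf (B * U y + U y * Bᴴ + C) w +
      e * (Real.exp ((2 * K + 1) * y) * (2 * K + 1)) * qf 1 w := by
    rw [← qfL_apply, map_add, map_add, qfL_apply, qfL_apply, qfL_apply, e2, e1, ← mul_assoc e,
      ← hε]
    nlinarith [mul_le_mul_of_nonneg_left e4 hε0.le, mul_pos hε0 hw1]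
  have hsl := ((hder w).tendsto_slope.mono_left (nhdsLT_le_nhdsNE y)).eventually
    (lt_mem_nhds hD)
  obtain ⟨t, ⟨h1, h2⟩, h3⟩ := ((hsl.and (hpos w hw)).and self_mem_nhdsWithin).exists
  rw [slope_def_field, hz, sub_zero] at h1
  exact absurd h1 (not_lt.2 (div_nonpos_of_nonneg_of_nonpos h2.le (sub_nonpos.2 (le_of_lt h3))))

theorem continuous_qf_one : Continuous fun v : n → ℂ => qf 1 v :=
  continuous_qf.comp (continuous_const.prodMk continuous_id)

theorem continuousOn_qf {a b : ℝ} {A : ℝ → Matrix n n ℂ} (hA : ContinuousOn A (Icc a b)) :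
    ContinuousOn (fun p : ℝ × (n → ℂ) => qf (A p.1) p.2)
      (Icc a b ×ˢ Metric.sphere (0 : n → ℂ) 1) := by
  have h0 : ContinuousOn (fun p : ℝ × (n → ℂ) => A p.1)
      (Icc a b ×ˢ Metric.sphere (0 : n → ℂ) 1) :=
    ContinuousOn.comp (g := A) (f := Prod.fst) hA continuousOn_fst fun _ hp => hp.1
  generalize Icc a b ×ˢ Metric.sphere (0 : n → ℂ) 1 = S at h0
  rw [continuousOn_iff_continuous_restrict] at h0 ⊢
  have h1 : Continuous fun p : S => p.1.2 := by fun_prop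
  exact Complex.continuous_re.comp (h1.star.dotProduct (h0.matrix_mulVec h1))

theorem exists_qf_bound {a b : ℝ} {B : ℝ → Matrix n n ℂ} (hB : ContinuousOn B (Icc a b)) :
    ∃ K : ℝ, ∀ y ∈ Icc a b, ∀ w : n → ℂ, ‖w‖ = 1 → qf (B y) w ≤ K * qf 1 w := by
  have hK : IsCompact (Icc a b ×ˢ Metric.sphere (0 : n → ℂ) 1) :=
    isCompact_Icc.prod (isCompact_sphere _ _)
  obtain ⟨K, hKb⟩ := hK.exists_bound_of_continuousOn
    (f := fun p : ℝ × (n → ℂ) => qf (B p.1) p.2 / qf 1 p.2) ((continuousOn_qf hB).div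
    (continuous_qf_one.comp continuous_snd).continuousOn
      fun p hp => (qf_one_pos (by simpa using hp.2)).ne')
  refine ⟨K, fun y hy w hw => (div_le_iff₀ (qf_one_pos hw)).1 ?_⟩
  exact (le_abs_self _).trans (hKb (y, w) ⟨hy, by simpa using hw⟩)

theorem exists_first {a b : ℝ} {g : ℝ × (n → ℂ) → ℝ}
    (hg : ContinuousOn g (Icc a b ×ˢ Metric.sphere (0 : n → ℂ) 1)) {x : ℝ} (hx : x ∈ Icc a b)
    {v : n → ℂ} (hv : ‖v‖ = 1) (h : g (x, v) ≤ 0) :
    ∃ y ∈ Icc a b, y ≤ x ∧ ∃ w : n → ℂ, ‖w‖ = 1 ∧ g (y, w) ≤ 0 ∧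
      ∀ t ∈ Ico a y, ∀ z : n → ℂ, ‖z‖ = 1 → 0 < g (t, z) := by
  have hK : IsCompact (Icc a b ×ˢ Metric.sphere (0 : n → ℂ) 1) :=
    isCompact_Icc.prod (isCompact_sphere _ _)
  have hcl : IsCompact ((Icc a b ×ˢ Metric.sphere (0 : n → ℂ) 1) ∩ g ⁻¹' Iic 0) :=
    hK.of_isClosed_subset (hg.preimage_isClosed_of_isClosed hK.isClosed isClosed_Iic)
      inter_subset_left
  have hm : ∀ t ∈ Icc a b, ∀ z : n → ℂ, ‖z‖ = 1 → g (t, z) ≤ 0 →
      (t, z) ∈ (Icc a b ×ˢ Metric.sphere (0 : n → ℂ) 1) ∩ g ⁻¹' Iic 0 :=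
    fun t ht z hz h => ⟨⟨ht, mem_sphere_zero_iff_norm.2 hz⟩, h⟩
  obtain ⟨⟨y, w⟩, ⟨⟨hy, hw⟩, hyw⟩, hmin⟩ := hcl.exists_isMinOn ⟨_, hm x hx v hv h⟩ continuousOn_fst
  refine ⟨y, hy, hmin (hm x hx v hv h), w, mem_sphere_zero_iff_norm.1 hw, hyw,
    fun t ht z hz => ?_⟩
  by_contra hc
  exact absurd (hmin (hm t ⟨ht.1, ht.2.le.trans hy.2⟩ z hz (not_lt.1 hc))) (not_le.2 ht.2)

/-- Positivity is preserved by `U' = B U + U B^* + C` with `C ≥ 0`. -/
theorem posSemidef_of_deriv {a b : ℝ} {U B C : ℝ → Matrix n n ℂ} (hU : ContinuousOn U (Icc a b))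
    (hB : ContinuousOn B (Icc a b)) (hH : ∀ x ∈ Icc a b, (U x).IsHermitian)
    (hd : ∀ x ∈ Ioo a b, HasDerivAt U (B x * U x + U x * (B x)ᴴ + C x) x)
    (hC : ∀ x ∈ Ioo a b, (C x).PosSemidef) (h0 : (U a).PosSemidef) :
    ∀ x ∈ Icc a b, (U x).PosSemidef := by
  obtain ⟨K, hK⟩ := exists_qf_bound hB
  have key : ∀ e : ℝ, 0 < e → ∀ x ∈ Ico a b, ∀ v : n → ℂ, ‖v‖ = 1 →
      0 < qf (U x) v + e * Real.exp ((2 * K + 1) * x) * qf 1 v := by
    intro e he x hx v hv
    by_contra hc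
    have c2 : Continuous fun p : ℝ × (n → ℂ) => e * Real.exp ((2 * K + 1) * p.1) := by fun_prop
    obtain ⟨y, hy, hyx, w, hw, hyw, hmin⟩ := exists_first
      (g := fun p => qf (U p.1) p.2 + e * Real.exp ((2 * K + 1) * p.1) * qf 1 p.2)
      ((continuousOn_qf hU).add (c2.mul (continuous_qf_one.comp continuous_snd)).continuousOn)
      ⟨hx.1, hx.2.le⟩ hv (not_lt.1 hc)
    have hw1 := qf_one_pos hw
    have hay : a < y := by
      refine lt_of_le_of_ne hy.1 fun h => ?_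
      subst h
      have h1 : 0 ≤ qf (U a) w := h0.re_dotProduct_nonneg w
      have h2 : 0 < e * Real.exp ((2 * K + 1) * a) * qf 1 w := by positivity
      exact absurd hyw (not_le.2 (add_pos_of_nonneg_of_pos h1 h2))
    have hyb : y ∈ Ioo a b := ⟨hay, hyx.trans_lt hx.2⟩
    refine no_touch he (hH y hy) (hd y hyb) (hC y hyb) (fun z hz => ?_) hw (hK y hy w hw) hyw
    filter_upwards [Ioo_mem_nhdsLT hay] with t ht
    exact hmin t ⟨ht.1.le, ht.2⟩ z hz
  have key2 : ∀ x ∈ Ico a b, ∀ v : n → ℂ, ‖v‖ = 1 → 0 ≤ qf (U x) v := by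
    intro x hx v hv
    have : Tendsto (fun e : ℝ => qf (U x) v + e * Real.exp ((2 * K + 1) * x) * qf 1 v) (𝓝[>] 0)
        (𝓝 (qf (U x) v + 0 * Real.exp ((2 * K + 1) * x) * qf 1 v)) :=
      (Continuous.tendsto (by fun_prop) 0).mono_left nhdsWithin_le_nhds
    simpa using ge_of_tendsto this
      (eventually_mem_nhdsWithin.mono fun e he => (key e he x hx v hv).le)
  intro x hx
  rcases eq_or_lt_of_le hx.1 with rfl | hax
  · exact h0
  refine psd_of_sphere (hH x hx) fun v hv => ?_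
  have hs : Ioo a x ⊆ Icc a b := fun t ht => ⟨ht.1.le, ht.2.le.trans hx.2⟩
  have : ContinuousWithinAt (fun t => qf (U t) v) (Iio x) x :=
    (((qfL v).continuous.comp_continuousOn hU) x hx).mono_of_mem_nhdsWithin
      (mem_of_superset (Ioo_mem_nhdsLT hax) hs)
  refine ge_of_tendsto this.tendsto ?_
  filter_upwards [Ioo_mem_nhdsLT hax] with t ht
  exact key2 t ⟨ht.1.le, ht.2.trans_le hx.2⟩ v hv

/-- Backward version. -/
theorem posSemidef_of_deriv_left {a b : ℝ} {U B C : ℝ → Matrix n n ℂ}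
    (hU : ContinuousOn U (Icc a b)) (hB : ContinuousOn B (Icc a b))
    (hH : ∀ x ∈ Icc a b, (U x).IsHermitian)
    (hd : ∀ x ∈ Ioo a b, HasDerivAt U (B x * U x + U x * (B x)ᴴ - C x) x)
    (hC : ∀ x ∈ Ioo a b, (C x).PosSemidef) (h0 : (U b).PosSemidef) :
    ∀ x ∈ Icc a b, (U x).PosSemidef := by
  have m1 : ∀ x ∈ Icc (-b) (-a), -x ∈ Icc a b := fun x hx =>
    ⟨by linarith [hx.2], by linarith [hx.1]⟩
  have m2 : ∀ x ∈ Ioo (-b) (-a), -x ∈ Ioo a b := fun x hx =>
    ⟨by linarith [hx.2], by linarith [hx.1]⟩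
  intro x hx
  have := posSemidef_of_deriv (a := -b) (b := -a) (U := fun x => U (-x)) (B := fun x => -B (-x))
    (C := fun x => C (-x)) (hU.comp continuous_neg.continuousOn m1)
    (hB.comp continuous_neg.continuousOn m1).neg (fun x hx => hH _ (m1 x hx)) (fun x hx => by
      refine ((hd _ (m2 x hx)).scomp x (hasDerivAt_neg x)).congr_deriv ?_
      rw [conjTranspose_neg, neg_smul, one_smul, Matrix.neg_mul, Matrix.mul_neg]
      abel) (fun x hx => hC _ (m2 x hx)) (by simpa using h0) (-x)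
    ⟨by linarith [hx.2], by linarith [hx.1]⟩
  simpa using this

end Vale.Agent.P371
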