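import Vale.Agent.P371.Brouwer
import Vale.Agent.P371.PosODE
import Vale.Agent.P371.Flow

namespace Vale.Agent.P371

open MeasureTheory Matrix Set Filter Topology
open scoped ComplexOrder Matrix.Norms.L2Operator MatrixOrder

set_option linter.unusedSectionVars false

variable {n : Type*} [Fintype n] [DecidableEq n]

namespace Ric

theorem qf_add (A B : Matrix n n ℂ) (v : n → ℂ) : qf (A + B) v = qf A v + qf B v := by
  simp [qf, add_mulVec]

theorem qf_smul (c : ℝ) (A : Matrix n n ℂ) (v : n → ℂ) : qf (c • A) v = c * qf A v := by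
  simp [qf, smul_mulVec]

/-- `qf` as a continuous real-linear map of the matrix. -/
noncomputable def qfL (v : n → ℂ) : Matrix n n ℂ →L[ℝ] ℝ :=
  LinearMap.toContinuousLinearMap
    { toFun := fun A => qf A v, map_add' := fun A B => qf_add A B v,
      map_smul' := fun c A => qf_smul c A v }

theorem qfL_apply (v : n → ℂ) (A : Matrix n n ℂ) : qfL v A = qf A v := rfl

theorem qf_sub (A B : Matrix n n ℂ) (v : n → ℂ) : qf (A - B) v = qf A v - qf B v :=
  map_sub (qfL v) A B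

theorem qf_neg (A : Matrix n n ℂ) (v : n → ℂ) : qf (-A) v = -qf A v :=
  map_neg (qfL v) A

theorem qf_nonneg {A : Matrix n n ℂ} (hA : A.PosSemidef) (v : n → ℂ) : 0 ≤ qf A v :=
  hA.re_dotProduct_nonneg v

theorem qf_one {v : n → ℂ} (hv : star v ⬝ᵥ v = 1) : qf (1 : Matrix n n ℂ) v = 1 := by
  simp [qf, hv]

theorem qf_of_eigen {A : Matrix n n ℂ} {v : n → ℂ} (hv : star v ⬝ᵥ v = 1) {c : ℝ}
    (h : A *ᵥ v = (c : ℂ) • v) : qf A v = c := by
  simp [qf, h, hv]

theorem qf_sq_of_eigen {A : Matrix n n ℂ} {v : n → ℂ} (hv : star v ⬝ᵥ v = 1) {c : ℝ}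
    (h : A *ᵥ v = (c : ℂ) • v) : qf (A * A) v = c ^ 2 := by
  apply qf_of_eigen hv
  rw [← mulVec_mulVec, h, mulVec_smul, h, smul_smul]
  push_cast
  rw [sq]

theorem qf_le_norm {A : Matrix n n ℂ} (hA : A.IsHermitian) {v : n → ℂ} (hv : star v ⬝ᵥ v = 1) :
    qf A v ≤ ‖A‖ := by
  have h1 : A ≤ algebraMap ℝ (Matrix n n ℂ) ‖A‖ := hA.isSelfAdjoint.le_algebraMap_norm_self
  rw [Algebra.algebraMap_eq_smul_one] at h1
  have h2 : (‖A‖ • (1 : Matrix n n ℂ) - A).PosSemidef := h1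
  have h3 := qf_nonneg h2 v
  rw [qf_sub, qf_smul, qf_one hv] at h3
  linarith

theorem qf_sq_nonneg {A : Matrix n n ℂ} (hA : A.IsHermitian) (v : n → ℂ) : 0 ≤ qf (A * A) v := by
  have := posSemidef_conjTranspose_mul_self A
  rw [hA.eq] at this
  exact qf_nonneg this v

theorem qf_sq_le {A : Matrix n n ℂ} (hA : A.IsHermitian) {v : n → ℂ} (hv : star v ⬝ᵥ v = 1) :
    qf (A * A) v ≤ ‖A‖ ^ 2 := by
  have h := posSemidef_conjTranspose_mul_self A
  rw [hA.eq] at h
  refine (qf_le_norm h.isHermitian hv).trans ?_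
  rw [sq]
  exact norm_mul_le A A

theorem exists_eigvec {A : Matrix n n ℂ} (hA : A.IsHermitian) {t : ℝ} (ht : t ∈ spectrum ℝ A) :
    ∃ v : n → ℂ, star v ⬝ᵥ v = 1 ∧ A *ᵥ v = (t : ℂ) • v := by
  rw [hA.spectrum_real_eq_range_eigenvalues] at ht
  obtain ⟨i, rfl⟩ := ht
  refine ⟨⇑(hA.eigenvectorBasis i), ?_, ?_⟩
  · rw [dotProduct_comm, ← EuclideanSpace.inner_eq_star_dotProduct, inner_self_eq_norm_sq_to_K,
      hA.eigenvectorBasis.orthonormal.1 i]
    simp
  · rw [hA.mulVec_eigenvectorBasis i]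
    rfl

theorem norm_le_of_pos {A : Matrix n n ℂ} {R : ℝ} (hR : 0 ≤ R)
    (h1 : (R • (1 : Matrix n n ℂ) - A).PosSemidef) (h2 : (R • (1 : Matrix n n ℂ) + A).PosSemidef) :
    ‖A‖ ≤ R := by
  have hA : A.IsHermitian := by
    have := (show (R • (1 : Matrix n n ℂ)).IsHermitian by
      simp [IsHermitian, conjTranspose_smul]).sub h1.isHermitian
    simpa using this
  have h3 : (A - (-R) • (1 : Matrix n n ℂ)).PosSemidef := by
    convert h2 using 1
    rw [neg_smul]
    abel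
  rw [← cfc_id_eq hA]
  refine norm_cfc_le hR fun t ht => ?_
  rw [Real.norm_eq_abs, abs_le]
  exact ⟨le_of_mem_spectrum h3 ht, ge_of_mem_spectrum h1 ht⟩

theorem posSemidef_smul_one {c : ℝ} (hc : 0 ≤ c) : (c • (1 : Matrix n n ℂ)).PosSemidef :=
  PosSemidef.one.smul hc

theorem isHermitian_of_mem {ε R : ℝ} {κ : Matrix n n ℂ} (h : κ ∈ Kset n ε R) : κ.IsHermitian := by
  have := h.1.isHermitian.add (show (ε • (1 : Matrix n n ℂ)).IsHermitian by
    simp [IsHermitian, conjTranspose_smul])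
  simpa using this

theorem isCompact_Kset {ε R : ℝ} (hε : 0 ≤ ε) (hR : 0 ≤ R) : IsCompact (Kset n ε R) := by
  have : ProperSpace (Matrix n n ℂ) := FiniteDimensional.proper ℝ _
  refine Metric.isCompact_of_isClosed_isBounded ?_ ?_
  · have e : Kset n ε R = {κ | ε • (1 : Matrix n n ℂ) ≤ κ} ∩ {κ | κ ≤ R • (1 : Matrix n n ℂ)} := rfl
    rw [e]
    exact (isClosed_le continuous_const continuous_id).inter
      (isClosed_le continuous_id continuous_const)
  · refine (Metric.isBounded_closedBall (x := (0 : Matrix n n ℂ)) (r := R)).subset fun κ hκ => ?_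
    rw [mem_closedBall_zero_iff]
    refine norm_le_of_pos hR hκ.2 ?_
    have := (hκ.1.add (posSemidef_smul_one (n := n) hε)).add (posSemidef_smul_one (n := n) hR)
    convert this using 1
    abel

theorem continuous_cut (R δ : ℝ) : Continuous (cut R δ : Matrix n n ℂ → ℝ) := by
  unfold cut
  fun_prop

theorem cut_nonneg (R δ : ℝ) (Z : Matrix n n ℂ) : 0 ≤ cut R δ Z := le_max_left _ _

theorem cut_le_one (R δ : ℝ) (Z : Matrix n n ℂ) : cut R δ Z ≤ 1 :=
  max_le zero_le_one (min_le_left _ _)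

theorem cut_eq_one {R δ : ℝ} (hδ : 0 < δ) {Z : Matrix n n ℂ} (h : ‖Z‖ ≤ R) : cut R δ Z = 1 := by
  have : 1 ≤ (R + δ - ‖Z‖) / δ := by
    rw [le_div_iff₀ hδ]
    linarith
  rw [cut, min_eq_left this, max_eq_right zero_le_one]

theorem cut_eq_zero {R δ : ℝ} (hδ : 0 < δ) {Z : Matrix n n ℂ} (h : R + δ ≤ ‖Z‖) :
    cut R δ Z = 0 := by
  have : (R + δ - ‖Z‖) / δ ≤ 0 := div_nonpos_of_nonpos_of_nonneg (by linarith) hδ.le
  rw [cut, max_eq_left ((min_le_right _ _).trans this)]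

/-- Lower bound for the solution along a top eigenvector. -/
theorem top_bound {a b R δ : ℝ} (hab : a ≤ b) (hδ : 0 < δ) (hR : 0 ≤ R) {κ : Matrix n n ℂ}
    {V Z : ℝ → Matrix n n ℂ} (hVc : ContinuousOn V (Icc a b))
    (hVp : ∀ x ∈ Icc a b, (V x).PosSemidef) (hZc : ContinuousOn Z (Icc a b))
    (hZH : ∀ x ∈ Icc a b, (Z x).IsHermitian)
    (hZd : ∀ x ∈ Ioo a b, HasDerivAt Z (cut R δ (Z x) • (κ * κ - Z x * Z x - V x)) x)
    {v : n → ℂ} (hv : star v ⬝ᵥ v = 1) (hκ : κ *ᵥ v = (R : ℂ) • v) :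
    -((2 * R * δ + δ ^ 2) * (b - a)) - ∫ x in a..b, qf (V x) v ≤ qf (Z b) v - qf (Z a) v := by
  have hc : ContinuousOn (fun x => qf (V x) v) (Icc a b) := (qfL v).continuous.comp_continuousOn hVc
  have key := intervalIntegral.integral_le_sub_of_hasDeriv_right_of_le
    (g := fun x => qf (Z x) v)
    (g' := fun x => qf (cut R δ (Z x) • (κ * κ - Z x * Z x - V x)) v)
    (φ := fun x => -(2 * R * δ + δ ^ 2) - qf (V x) v) hab
    ((qfL v).continuous.comp_continuousOn hZc)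
    (fun x hx => ((qfL v).hasFDerivAt.comp_hasDerivAt x (hZd x hx)).hasDerivWithinAt)
    ((continuousOn_const.sub hc).integrableOn_Icc) (fun x hx => ?_)
  · rw [intervalIntegral.integral_sub intervalIntegrable_const
      ((uIcc_of_le hab ▸ hc).intervalIntegrable), intervalIntegral.integral_const,
      smul_eq_mul] at key
    linarith
  · have hx' : x ∈ Icc a b := Ioo_subset_Icc_self hx
    have h0 := qf_nonneg (hVp x hx') v
    have h4 : 0 ≤ 2 * R * δ + δ ^ 2 := by positivity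
    rw [qf_smul, qf_sub, qf_sub, qf_sq_of_eigen hv hκ]
    by_cases h : R + δ ≤ ‖Z x‖
    · rw [cut_eq_zero hδ h]
      linarith
    · have h1 := qf_sq_le (hZH x hx') hv
      have h2 : ‖Z x‖ ^ 2 ≤ (R + δ) ^ 2 := by
        have := norm_nonneg (Z x)
        nlinarith
      have h5 := cut_nonneg R δ (Z x)
      have h6 := cut_le_one R δ (Z x)
      have h7 : -(2 * R * δ + δ ^ 2) - qf (V x) v ≤ R ^ 2 - qf (Z x * Z x) v - qf (V x) v := by
        nlinarith
      nlinarith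

/-- Upper bound for the solution along a bottom eigenvector. -/
theorem bot_bound {a b ε : ℝ} (hab : a ≤ b) {κ : Matrix n n ℂ}
    {V Z : ℝ → Matrix n n ℂ} (hVc : ContinuousOn V (Icc a b)) (hZc : ContinuousOn Z (Icc a b))
    (hZH : ∀ x ∈ Icc a b, (Z x).IsHermitian)
    (hZd : ∀ x ∈ Ioo a b, HasDerivAt Z (κ * κ - Z x * Z x - V x) x)
    {v : n → ℂ} (hv : star v ⬝ᵥ v = 1) (hκ : κ *ᵥ v = (ε : ℂ) • v) :
    qf (Z b) v - qf (Z a) v ≤ ε ^ 2 * (b - a) - ∫ x in a..b, qf (V x) v := by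
  have hc : ContinuousOn (fun x => qf (V x) v) (Icc a b) := (qfL v).continuous.comp_continuousOn hVc
  have key := intervalIntegral.sub_le_integral_of_hasDeriv_right_of_le
    (g := fun x => qf (Z x) v)
    (g' := fun x => qf (κ * κ - Z x * Z x - V x) v)
    (φ := fun x => ε ^ 2 - qf (V x) v) hab
    ((qfL v).continuous.comp_continuousOn hZc)
    (fun x hx => ((qfL v).hasFDerivAt.comp_hasDerivAt x (hZd x hx)).hasDerivWithinAt)
    ((continuousOn_const.sub hc).integrableOn_Icc) (fun x hx => ?_)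
  · rw [intervalIntegral.integral_sub intervalIntegrable_const
      ((uIcc_of_le hab ▸ hc).intervalIntegrable), intervalIntegral.integral_const,
      smul_eq_mul] at key
    linarith
  · have h1 := qf_sq_nonneg (hZH x (Ioo_subset_Icc_self hx)) v
    rw [qf_sub, qf_sub, qf_sq_of_eigen hv hκ]
    linarith

/-- Two sided bound for the frozen equation. -/
theorem two_sided {a b R δ : ℝ} {κ : Matrix n n ℂ} (hκ : κ.IsHermitian)
    {V Z : ℝ → Matrix n n ℂ} (hVp : ∀ x ∈ Icc a b, (V x).PosSemidef)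
    (hZc : ContinuousOn Z (Icc a b)) (hZH : ∀ x ∈ Icc a b, (Z x).IsHermitian)
    (hZd : ∀ x ∈ Ioo a b, HasDerivAt Z (cut R δ (Z x) • (κ * κ - Z x * Z x - V x)) x)
    (hZa : Z a = κ) (hZb : (κ + Z b).PosSemidef) :
    ∀ x ∈ Icc a b, (κ - Z x).PosSemidef ∧ (κ + Z x).PosSemidef := by
  have hcut : ContinuousOn (fun x => cut R δ (Z x)) (Icc a b) :=
    (continuous_cut R δ).comp_continuousOn hZc
  have hC : ∀ x ∈ Ioo a b, (cut R δ (Z x) • V x).PosSemidef := fun x hx =>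
    (hVp x (Ioo_subset_Icc_self hx)).smul (cut_nonneg R δ (Z x))
  have h1 := posSemidef_of_deriv (a := a) (b := b) (U := fun x => κ - Z x)
    (B := fun x => (-(cut R δ (Z x) / 2)) • (κ + Z x)) (C := fun x => cut R δ (Z x) • V x)
    (continuousOn_const.sub hZc) ((hcut.div_const 2).neg.smul (continuousOn_const.add hZc))
    (fun x hx => hκ.sub (hZH x hx)) (fun x hx => ?_) hC (by simpa [hZa] using PosSemidef.zero)
  · have h2 := posSemidef_of_deriv_left (a := a) (b := b) (U := fun x => κ + Z x)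
      (B := fun x => (cut R δ (Z x) / 2) • (κ - Z x)) (C := fun x => cut R δ (Z x) • V x)
      (continuousOn_const.add hZc) ((hcut.div_const 2).smul (continuousOn_const.sub hZc))
      (fun x hx => hκ.add (hZH x hx)) (fun x hx => ?_) hC hZb
    · exact fun x hx => ⟨h1 x hx, h2 x hx⟩
    · refine ((hZd x hx).const_add κ).congr_deriv ?_
      have e := (hκ.sub (hZH x (Ioo_subset_Icc_self hx))).eq
      rw [conjTranspose_smul, e, star_trivial]
      simp only [Matrix.smul_mul, Matrix.mul_smul, Matrix.add_mul, Matrix.mul_add, Matrix.sub_mul,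
        Matrix.mul_sub]
      module
  · refine ((hZd x hx).const_sub κ).congr_deriv ?_
    have e := (hκ.add (hZH x (Ioo_subset_Icc_self hx))).eq
    rw [conjTranspose_smul, e, star_trivial]
    simp only [Matrix.smul_mul, Matrix.mul_smul, Matrix.add_mul, Matrix.mul_add, Matrix.sub_mul,
      Matrix.mul_sub]
    module

end Ric

open Ric in
/-- Existence of a connecting solution of the Riccati equation. -/
theorem exists_riccati {a b ε R : ℝ} (hab : a < b) (hε : 0 < ε) (hεR : ε < R)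
    {V : Matrix n n ℂ → ℝ → Matrix n n ℂ}
    (hVc : ContinuousOn (fun q : Matrix n n ℂ × ℝ => V q.1 q.2) (Kset n ε R ×ˢ Icc a b))
    (hVp : ∀ κ ∈ Kset n ε R, ∀ x ∈ Icc a b, (V κ x).PosSemidef)
    (htop : ∀ κ ∈ Kset n ε R, ∀ v : n → ℂ, star v ⬝ᵥ v = 1 → κ *ᵥ v = (R : ℂ) • v →
      ∫ x in a..b, qf (V κ x) v < R)
    (hbot : ∀ κ ∈ Kset n ε R, ∀ v : n → ℂ, star v ⬝ᵥ v = 1 → κ *ᵥ v = (ε : ℂ) • v →
      2 * ε + ε ^ 2 * (b - a) < ∫ x in a..b, qf (V κ x) v) :
    ∃ κ ∈ Kset n ε R, ∃ Z : ℝ → Matrix n n ℂ, ContinuousOn Z (Icc a b) ∧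
      (∀ x ∈ Ioo a b, HasDerivAt Z (κ * κ - Z x * Z x - V κ x) x) ∧ Z a = κ ∧ Z b = -κ ∧
      ∀ x ∈ Icc a b, (κ - Z x).PosSemidef ∧ (κ + Z x).PosSemidef := by
  have hR : 0 < R := hε.trans hεR
  have hba : 0 < b - a := sub_pos.mpr hab
  obtain ⟨δ, hδ, hδR, hδb⟩ : ∃ δ : ℝ, 0 < δ ∧ δ ≤ R ∧ 3 * δ * (b - a) ≤ 1 := by
    refine ⟨min R (1 / (3 * (b - a))), lt_min hR (by positivity), min_le_left _ _, ?_⟩
    have := min_le_right R (1 / (3 * (b - a)))
    rw [le_div_iff₀ (by positivity)] at this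
    linarith
  obtain ⟨Z, hZκ, hZ⟩ := exists_flow (R := R) hab.le hδ hVc
    (fun κ hκ x hx => (hVp κ hκ x hx).isHermitian)
  set cl : ℝ → ℝ := fun t => max ε (min t R) with hcl
  have hclc : Continuous cl := by fun_prop
  have hsH : ∀ H : Matrix n n ℂ, ((1 / 2 : ℝ) • (H + Hᴴ)).IsHermitian := fun H => by
    simp [IsHermitian, conjTranspose_smul, add_comm]
  have hkK : ∀ H : Matrix n n ℂ, H.IsHermitian → cfc cl H ∈ Kset n ε R := fun H hH => by
    constructor
    · rw [← cfc_const' ε hH]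
      exact posSemidef_cfc_sub H fun t _ => le_max_left _ _
    · rw [← cfc_const' R hH]
      exact posSemidef_cfc_sub H fun t _ => max_le hεR.le (min_le_right _ _)
  have hkc : Continuous fun H : Matrix n n ℂ => cfc cl ((1 / 2 : ℝ) • (H + Hᴴ)) := by
    rw [← continuousOn_univ]
    refine continuousOn_cfc_of_continuous hclc ?_ fun H _ => hsH H
    exact ((continuous_id.add continuous_star).const_smul (1 / 2 : ℝ)).continuousOn
  obtain ⟨C, hC⟩ := (isCompact_Kset (n := n) hε.le hR.le).exists_bound_of_continuousOn hZκ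
  obtain ⟨H, hH⟩ := brouwer_bounded
    (f := fun H : Matrix n n ℂ => -Z (cfc cl ((1 / 2 : ℝ) • (H + Hᴴ))) b)
    (hZκ.comp_continuous hkc fun H => hkK _ (hsH H)).neg (C := C)
    (fun H => by rw [norm_neg]; exact hC _ (hkK _ (hsH H)))
  have hHH : H.IsHermitian := by
    rw [← hH]
    exact ((hZ _ (hkK _ (hsH H))).2.2.1 b (right_mem_Icc.mpr hab.le)).neg
  have hs : (1 / 2 : ℝ) • (H + Hᴴ) = H := by
    rw [hHH.eq]
    module
  simp only [hs] at hH
  obtain ⟨κ, hκ⟩ : ∃ κ, κ = cfc cl H := ⟨_, rfl⟩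
  rw [← hκ] at hH
  have hκK : κ ∈ Kset n ε R := hκ ▸ hkK H hHH
  have hκH := isHermitian_of_mem hκK
  obtain ⟨hZa, hZc, hZH, hZd⟩ := hZ κ hκK
  have hZb : Z κ b = -H := by rw [← hH, neg_neg]
  have hVc' : ContinuousOn (V κ) (Icc a b) :=
    hVc.comp (f := fun x : ℝ => (κ, x)) (by fun_prop) fun x hx => ⟨hκK, hx⟩
  have hsR : ∀ t ∈ spectrum ℝ H, t ≤ R := by
    intro t ht
    by_contra hlt
    rw [not_le] at hlt
    obtain ⟨v, hv, hHv⟩ := exists_eigvec hHH ht
    have hκv : κ *ᵥ v = (R : ℂ) • v := by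
      rw [hκ, cfc_mulVec_of_eigen hHH hHv cl, hcl]
      simp only [min_eq_right hlt.le, max_eq_right hεR.le]
    have h1 := top_bound hab.le hδ hR.le hVc' (hVp κ hκK) hZc hZH hZd hv hκv
    have h2 := htop κ hκK v hv hκv
    rw [hZa, hZb, qf_neg, qf_of_eigen hv hHv, qf_of_eigen hv hκv] at h1
    have h3 : (2 * R * δ + δ ^ 2) * (b - a) ≤ R * (3 * δ * (b - a)) := by
      have : δ ^ 2 ≤ R * δ := by nlinarith
      nlinarith
    nlinarith
  have hG : (κ + Z κ b).PosSemidef := by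
    rw [hZb, ← sub_eq_add_neg, hκ]
    have := posSemidef_cfc_sub H (f := fun t => t) (g := cl) fun t ht => by
      rw [hcl]
      simp only [min_eq_left (hsR t ht)]
      exact le_max_right _ _
    rwa [cfc_id_eq hHH] at this
  have h2s := two_sided hκH (hVp κ hκK) hZc hZH hZd hZa hG
  have hZd' : ∀ x ∈ Ioo a b, HasDerivAt (Z κ) (κ * κ - Z κ x * Z κ x - V κ x) x := by
    intro x hx
    have h1 := hZd x hx
    obtain ⟨h2, h3⟩ := h2s x (Ioo_subset_Icc_self hx)
    have h4 : ‖Z κ x‖ ≤ R := by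
      refine norm_le_of_pos hR.le ?_ ?_
      · convert hκK.2.add h2 using 1
        abel
      · convert hκK.2.add h3 using 1
        abel
    rwa [cut_eq_one hδ h4, one_smul] at h1
  have hsε : ∀ t ∈ spectrum ℝ H, ε ≤ t := by
    intro t ht
    by_contra hlt
    rw [not_le] at hlt
    obtain ⟨v, hv, hHv⟩ := exists_eigvec hHH ht
    have hκv : κ *ᵥ v = (ε : ℂ) • v := by
      rw [hκ, cfc_mulVec_of_eigen hHH hHv cl, hcl]
      simp only [min_eq_left (hsR t ht), max_eq_left hlt.le]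
    have h1 := bot_bound hab.le hVc' hZc hZH hZd' hv hκv
    have h2 := hbot κ hκK v hv hκv
    rw [hZa, hZb, qf_neg, qf_of_eigen hv hHv, qf_of_eigen hv hκv] at h1
    linarith
  have hκeq : κ = H := by
    rw [hκ]
    conv_rhs => rw [← cfc_id_eq hHH]
    refine cfc_congr fun t ht => ?_
    rw [hcl]
    simp only [min_eq_left (hsR t ht), max_eq_right (hsε t ht)]
  exact ⟨κ, hκK, Z κ, hZc, hZd', hZa, by rw [hZb, hκeq], h2s⟩

end Vale.Agent.P371
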