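import Vale.Agent.P371.H1

namespace Vale.Agent.P371

open MeasureTheory Matrix Set Filter Topology
open scoped ComplexOrder Matrix.Norms.L2Operator MatrixOrder

set_option linter.unusedSectionVars false

variable {n : Type*} [Fintype n] [DecidableEq n]

theorem trunc_entry_le_norm (A : Matrix n n ℂ) (i j : n) : ‖A i j‖ ≤ ‖A‖ := by
  have h1 := l2_opNorm_mulVec A (EuclideanSpace.single j (1 : ℂ))
  have h2 := PiLp.norm_apply_le
    (EuclideanSpace.equiv n ℂ |>.symm <| A *ᵥ (EuclideanSpace.single j (1 : ℂ))) i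
  simp only [PiLp.norm_single, norm_one, mul_one] at h1
  refine le_trans (le_of_eq ?_) (h2.trans h1)
  simp

theorem trunc_rtr_cfc {W : Matrix n n ℂ} (hW : W.IsHermitian) :
    ∃ α : n → ℝ, spectrum ℝ W = range α ∧ ∀ f : ℝ → ℝ, rtr (cfc f W) = ∑ i, f (α i) := by
  obtain ⟨α, c, h1, h2, -, h4⟩ := exists_rtr_mul_cfc hW
  refine ⟨α, h1, fun f => ?_⟩
  have := h4 1 f
  simpa [h2] using this

/-- Entries of a positive semidefinite matrix are bounded by `1 + tr W^p`. -/
theorem norm_entry_le {W : Matrix n n ℂ} (hW : W.PosSemidef) {p : ℝ} (hp : 1 ≤ p) (i j : n) :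
    ‖W i j‖ ≤ 1 + rtr (pw W p) := by
  obtain ⟨α, h1, h2⟩ := trunc_rtr_cfc hW.isHermitian
  have hα : ∀ k, 0 ≤ α k := fun k => nonneg_of_mem_spectrum hW (h1 ▸ mem_range_self k)
  have h3 : rtr (pw W p) = ∑ k, α k ^ p := h2 _
  have h4 : 0 ≤ ∑ k, α k ^ p := Finset.sum_nonneg fun k _ => Real.rpow_nonneg (hα k) p
  refine (trunc_entry_le_norm W i j).trans ?_
  have h5 : ‖cfc (fun t : ℝ => t) W‖ ≤ 1 + rtr (pw W p) := by
    refine norm_cfc_le (by rw [h3]; linarith) fun x hx => ?_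
    rw [h1] at hx
    obtain ⟨k, rfl⟩ := hx
    rw [h3, Real.norm_eq_abs, abs_of_nonneg (hα k)]
    have h6 : α k ^ p ≤ ∑ k, α k ^ p :=
      Finset.single_le_sum (f := fun k => α k ^ p) (fun k _ => Real.rpow_nonneg (hα k) p)
        (Finset.mem_univ k)
    rcases le_total (α k) 1 with h | h
    · linarith
    · have h7 : α k ^ (1 : ℝ) ≤ α k ^ p := Real.rpow_le_rpow_of_exponent_le h hp
      rw [Real.rpow_one] at h7
      linarith
  rwa [cfc_id_eq hW.isHermitian] at h5

theorem integrable_entry {m : Type*} [Fintype m] [DecidableEq m] {p : ℝ} (hp : 1 ≤ p)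
    {W : ℝ → Matrix m m ℂ} (hWm : ∀ i j, Measurable fun x => W x i j)
    (hWp : ∀ x, (W x).PosSemidef) (hWi : Integrable fun x => rtr (pw (W x) p))
    {Y Y' : ℝ → Matrix n m ℂ} (hY : ∀ i j, IsH1 (fun x => Y x i j) (fun x => Y' x i j))
    (i k : n) : Integrable fun x => (Y x * W x * (Y x)ᴴ) i k := by
  simp only [Matrix.mul_apply, conjTranspose_apply, Finset.sum_mul]
  refine integrable_finsetSum _ fun b _ => integrable_finsetSum _ fun a _ => ?_
  obtain ⟨C, hC⟩ := (hY i a).bounded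
  obtain ⟨D, hD⟩ := (hY k b).bounded
  have hi1 : Integrable fun x => ‖Y x i a‖ * ‖Y x k b‖ :=
    MemLp.integrable_mul (hY i a).memLp.norm (hY k b).memLp.norm
  have hi2 : Integrable fun x => ‖Y x i a‖ * ‖Y x k b‖ + C * D * rtr (pw (W x) p) :=
    hi1.add (hWi.const_mul _)
  refine hi2.mono' ?_ (Eventually.of_forall fun x => ?_)
  · exact ((hY i a).continuous.aestronglyMeasurable.mul (hWm a b).aestronglyMeasurable).mul
      (hY k b).star.continuous.aestronglyMeasurable
  · rw [norm_mul, norm_mul, norm_star]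
    have h1 := norm_entry_le (hWp x) hp a b
    have h2 : 0 ≤ rtr (pw (W x) p) := by
      refine rtr_nonneg (posSemidef_cfc _ fun t ht => ?_)
      exact Real.rpow_nonneg (nonneg_of_mem_spectrum (hWp x) ht) p
    have h3 : ‖Y x i a‖ * ‖Y x k b‖ ≤ C * D :=
      mul_le_mul (hC x) (hD x) (norm_nonneg _) ((norm_nonneg _).trans (hC x))
    have h4 : 0 ≤ ‖Y x i a‖ * ‖Y x k b‖ := by positivity
    calc ‖Y x i a‖ * ‖W x a b‖ * ‖Y x k b‖ = ‖Y x i a‖ * ‖Y x k b‖ * ‖W x a b‖ := by ring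
      _ ≤ ‖Y x i a‖ * ‖Y x k b‖ * (1 + rtr (pw (W x) p)) := mul_le_mul_of_nonneg_left h1 h4
      _ = ‖Y x i a‖ * ‖Y x k b‖ + ‖Y x i a‖ * ‖Y x k b‖ * rtr (pw (W x) p) := by ring
      _ ≤ _ := by gcongr

theorem trunc_rtr_mul_eq (B T : Matrix n n ℂ) :
    rtr (B * T) = ∑ k, ∑ j, (B k j * T j k).re := by
  simp only [rtr, trace, diag_apply, Matrix.mul_apply, Complex.re_sum]

theorem trunc_integrable_rtr (B : Matrix n n ℂ) {T : ℝ → Matrix n n ℂ}
    (hT : ∀ j k, Integrable fun x => T x j k) : Integrable fun x => rtr (B * T x) := by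
  simp only [trunc_rtr_mul_eq]
  exact integrable_finsetSum _ fun k _ => integrable_finsetSum _ fun j _ =>
    ((hT j k).const_mul (B k j)).re

theorem trunc_integral_rtr (B : Matrix n n ℂ) {T : ℝ → Matrix n n ℂ}
    (hT : ∀ j k, Integrable fun x => T x j k) :
    ∫ x, rtr (B * T x) = rtr (B * Matrix.of fun j k => ∫ x, T x j k) := by
  simp only [trunc_rtr_mul_eq]
  have hi : ∀ k j, Integrable fun x => (B k j * T x j k).re := fun k j =>
    ((hT j k).const_mul (B k j)).re
  rw [integral_finsetSum _ fun k _ => integrable_finsetSum _ fun j _ => hi k j]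
  refine Finset.sum_congr rfl fun k _ => ?_
  rw [integral_finsetSum _ fun j _ => hi k j]
  refine Finset.sum_congr rfl fun j _ => ?_
  have := integral_re ((hT j k).const_mul (B k j))
  simp only [RCLike.re_to_complex] at this
  rw [this, integral_const_mul, Matrix.of_apply]

theorem trunc_rtr_mul_le {B T : Matrix n n ℂ} (hB : B.PosSemidef) (hT : T.PosSemidef) :
    rtr (B * T) ≤ rtr B * rtr T := by
  obtain ⟨α, h1, h2⟩ := trunc_rtr_cfc hT.isHermitian
  have hα : ∀ k, 0 ≤ α k := fun k => nonneg_of_mem_spectrum hT (h1 ▸ mem_range_self k)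
  have h3 : rtr T = ∑ k, α k := by
    have := h2 fun t => t
    rwa [cfc_id_eq hT.isHermitian] at this
  have h4 : (rtr T • (1 : Matrix n n ℂ) - T).PosSemidef := by
    refine posSemidef_sub_of_spectrum' hT.isHermitian fun a ha => ?_
    rw [h1] at ha
    obtain ⟨k, rfl⟩ := ha
    rw [h3]
    exact Finset.single_le_sum (f := α) (fun k _ => hα k) (Finset.mem_univ k)
  have h5 := rtr_mul_nonneg hB h4
  rw [Matrix.mul_sub, Matrix.mul_smul, Matrix.mul_one, rtr_sub, rtr_smul] at h5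
  linarith

theorem trunc_tail {B : Matrix n n ℂ} (hB : B.PosSemidef) {T : ℝ → Matrix n n ℂ}
    (hT : ∀ j k, Integrable fun x => T x j k) (hTp : ∀ x, (T x).PosSemidef) {a b η : ℝ}
    (hab : a ≤ b) (h : (∫ x, rtr (T x)) - η ≤ ∫ x in a..b, rtr (T x)) :
    rtr (B * Matrix.of fun j k => ∫ x, T x j k) - η * rtr B ≤ ∫ x in a..b, rtr (B * T x) := by
  have hi1 := trunc_integrable_rtr B hT
  have hi2 : Integrable fun x => rtr (T x) := by simpa using trunc_integrable_rtr 1 hT
  have hi3 : Integrable fun x => rtr B * rtr (T x) - rtr (B * T x) := (hi2.const_mul _).sub hi1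
  have h1 : ∫ x in a..b, (rtr B * rtr (T x) - rtr (B * T x))
      ≤ ∫ x, (rtr B * rtr (T x) - rtr (B * T x)) := by
    rw [intervalIntegral.integral_of_le hab]
    exact setIntegral_le_integral hi3
      (Eventually.of_forall fun x => sub_nonneg.mpr (trunc_rtr_mul_le hB (hTp x)))
  rw [intervalIntegral.integral_sub (hi2.const_mul _).intervalIntegrable hi1.intervalIntegrable,
    integral_sub (hi2.const_mul _) hi1, intervalIntegral.integral_const_mul,
    integral_const_mul, trunc_integral_rtr B hT] at h1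
  have h2 := mul_le_mul_of_nonneg_left h (rtr_nonneg hB)
  nlinarith

theorem trunc_eventually {g : ℝ → ℝ} (hg : Integrable g) {η : ℝ} (hη : 0 < η) :
    ∀ᶠ k : ℝ in atTop, (∫ x, g x) - η ≤ ∫ x in (-k)..k, g x := by
  have h := intervalIntegral_tendsto_integral hg tendsto_neg_atTop_atBot tendsto_id
  exact h.eventually (eventually_ge_nhds (by linarith))

/-- Restriction of the potential energy to a large compact interval. -/
theorem trunc {m : Type*} [Fintype m] [DecidableEq m] {p : ℝ} (hp : 1 ≤ p)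
    {W : ℝ → Matrix m m ℂ} (hWm : ∀ i j, Measurable fun x => W x i j)
    (hWp : ∀ x, (W x).PosSemidef) (hWi : Integrable fun x => rtr (pw (W x) p))
    {Ψ Ψ' : ℝ → Matrix n m ℂ} (hΨ : ∀ i j, IsH1 (fun x => Ψ x i j) (fun x => Ψ' x i j))
    (horth : ∀ i k, ∫ x, (Ψ x * (Ψ x)ᴴ) i k = (1 : Matrix n n ℂ) i k) {d : n → ℝ}
    (heig : ∀ i k, (∫ x, (Ψ' x * (Ψ' x)ᴴ) i k) - ∫ x, (Ψ x * W x * (Ψ x)ᴴ) i k
      = -(diagonal fun i => (d i : ℂ)) i k) {η : ℝ} (hη : 0 < η) :
    ∃ a b : ℝ, a < b ∧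
      (∀ A : Matrix n n ℂ, (∫ x, rtr (A * Ψ' x * (A * Ψ' x)ᴴ))
          + rtr (A * (diagonal fun i => ((d i - η : ℝ) : ℂ)) * Aᴴ)
        ≤ ∫ x in a..b, rtr (A * Ψ x * W x * (A * Ψ x)ᴴ)) ∧
      ∀ v : n → ℂ, star v ⬝ᵥ v = 1 → 1 / 2 ≤ ∫ x in a..b, qf (Ψ x * (Ψ x)ᴴ) v := by
  have hT : ∀ j k, Integrable fun x => (Ψ x * W x * (Ψ x)ᴴ) j k :=
    integrable_entry hp hWm hWp hWi hΨ
  have hG : ∀ j k, Integrable fun x => (Ψ x * (Ψ x)ᴴ) j k := by
    intro j k
    simp only [Matrix.mul_apply, conjTranspose_apply]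
    exact integrable_finsetSum _ fun a _ =>
      MemLp.integrable_mul (hΨ j a).memLp (hΨ k a).star.memLp
  have hG' : ∀ j k, Integrable fun x => (Ψ' x * (Ψ' x)ᴴ) j k := by
    intro j k
    simp only [Matrix.mul_apply, conjTranspose_apply]
    exact integrable_finsetSum _ fun a _ =>
      MemLp.integrable_mul (hΨ j a).memLp' (hΨ k a).star.memLp'
  have hTi : Integrable fun x => rtr (Ψ x * W x * (Ψ x)ᴴ) := by
    simpa using trunc_integrable_rtr 1 hT
  have hGi : Integrable fun x => rtr (Ψ x * (Ψ x)ᴴ) := by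
    simpa using trunc_integrable_rtr 1 hG
  obtain ⟨k, hk1, hk2, hk3⟩ := ((trunc_eventually hTi hη).and
    ((trunc_eventually hGi (η := 1 / 2) (by norm_num)).and (eventually_gt_atTop (0 : ℝ)))).exists
  have hab : -k ≤ k := by linarith
  refine ⟨-k, k, by linarith, fun A => ?_, fun v hv => ?_⟩
  · have hB : (Aᴴ * A).PosSemidef := posSemidef_conjTranspose_mul_self A
    have h1 := trunc_tail hB hT (fun x => (hWp x).mul_mul_conjTranspose_same (Ψ x)) hab hk1
    have e1 : ∀ x, rtr (A * Ψ x * W x * (A * Ψ x)ᴴ) = rtr (Aᴴ * A * (Ψ x * W x * (Ψ x)ᴴ)) := by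
      intro x
      rw [conjTranspose_mul, ← Matrix.mul_assoc, rtr_mul_comm]
      simp only [Matrix.mul_assoc]
    have e2 : ∀ x, rtr (A * Ψ' x * (A * Ψ' x)ᴴ) = rtr (Aᴴ * A * (Ψ' x * (Ψ' x)ᴴ)) := by
      intro x
      rw [conjTranspose_mul, ← Matrix.mul_assoc, rtr_mul_comm]
      simp only [Matrix.mul_assoc]
    have e3 : (Matrix.of fun j k => ∫ x, (Ψ x * W x * (Ψ x)ᴴ) j k)
        = (Matrix.of fun j k => ∫ x, (Ψ' x * (Ψ' x)ᴴ) j k)
          + (diagonal fun i => ((d i - η : ℝ) : ℂ)) + η • (1 : Matrix n n ℂ) := by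
      ext i j
      have := heig i j
      simp only [Matrix.of_apply, Matrix.add_apply, Matrix.smul_apply]
      by_cases hij : i = j
      · subst hij
        simp only [diagonal_apply_eq, one_apply_eq, Complex.real_smul, mul_one] at this ⊢
        push_cast
        linear_combination -this
      · simp only [diagonal_apply_ne _ hij, one_apply_ne hij, smul_zero] at this ⊢
        linear_combination -this
    simp only [e1, e2]
    rw [trunc_integral_rtr _ hG', rtr_mul_comm (A * _) Aᴴ, ← Matrix.mul_assoc]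
    rw [e3, Matrix.mul_add, Matrix.mul_add, Matrix.mul_smul, Matrix.mul_one, rtr_add, rtr_add,
      rtr_smul] at h1
    linarith
  · have hB : (vecMulVec v (star v)).PosSemidef := posSemidef_vecMulVec_self_star v
    have h1 := trunc_tail hB hG (fun x => posSemidef_self_mul_conjTranspose (Ψ x)) hab hk2
    have e1 : ∀ X : Matrix n n ℂ, rtr (vecMulVec v (star v) * X) = qf X v := by
      intro X
      rw [rtr_mul_comm, rtr, qf, Matrix.mul_vecMulVec, trace_vecMulVec, dotProduct_comm]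
    have e2 : (Matrix.of fun j k => ∫ x, (Ψ x * (Ψ x)ᴴ) j k) = 1 := by
      ext i j
      exact horth i j
    have e3 : rtr (vecMulVec v (star v)) = 1 := by
      rw [rtr, trace_vecMulVec, dotProduct_comm, hv, Complex.one_re]
    rw [e2, Matrix.mul_one, e3] at h1
    simp only [e1] at h1
    linarith

end Vale.Agent.P371
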