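import Vale.Agent.P371.StepA
import Vale.Agent.P371.Riccati
import Vale.Agent.P371.Trunc

namespace Vale.Agent.P371

open MeasureTheory Matrix Set Filter Topology
open scoped ComplexOrder Matrix.Norms.L2Operator MatrixOrder

set_option linter.unusedSectionVars false

variable {n : Type*} [Fintype n] [DecidableEq n]

theorem posSemidef_pw {X : Matrix n n ℂ} (hX : X.PosSemidef) (s : ℝ) : (pw X s).PosSemidef :=
  posSemidef_cfc X fun _ ha => Real.rpow_nonneg (nonneg_of_mem_spectrum hX ha) s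

theorem pw_lower {X : Matrix n n ℂ} (hX : X.PosSemidef) {s t : ℝ} (hs : 1 ≤ s) (ht : 0 < t) :
    (pw X s - t ^ (s - 1) • (X - t • (1 : Matrix n n ℂ))).PosSemidef := by
  have e : t ^ (s - 1) • (X - t • (1 : Matrix n n ℂ))
      = cfc (fun x : ℝ => t ^ (s - 1) * (x - t)) X := by
    rw [cfc_const_mul', cfc_sub', cfc_id_eq hX.isHermitian, cfc_const' t hX.isHermitian]
  rw [e]
  refine posSemidef_cfc_sub X fun x hx => ?_
  have hx0 := nonneg_of_mem_spectrum hX hx
  have ht1 : 0 < t ^ (s - 1) := Real.rpow_pos_of_pos ht _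
  rcases le_total x t with h | h
  · exact (mul_nonpos_of_nonneg_of_nonpos ht1.le (by linarith)).trans (Real.rpow_nonneg hx0 s)
  · have hx1 : 0 < x := ht.trans_le h
    have h1 : t ^ (s - 1) ≤ x ^ (s - 1) := Real.rpow_le_rpow ht.le h (by linarith)
    have h2 : x ^ s = x ^ (s - 1) * x := by
      rw [Real.rpow_sub_one hx1.ne']
      field_simp
    rw [h2]
    exact mul_le_mul h1 (by linarith) (by linarith) (Real.rpow_nonneg hx0 _)

theorem qf_le_rtr {X : Matrix n n ℂ} (hX : X.PosSemidef) {v : n → ℂ} (hv : star v ⬝ᵥ v = 1) :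
    qf X v ≤ rtr X := by
  obtain ⟨α, h1, h2⟩ := exists_rtr_cfc hX.isHermitian
  have h3 : rtr X = ∑ i, α i := by rw [← h2 (fun t => t), cfc_id_eq hX.isHermitian]
  have h4 := posSemidef_sub_of_spectrum' hX.isHermitian (c := rtr X) fun a ha => by
    rw [h1] at ha
    obtain ⟨i, rfl⟩ := ha
    rw [h3]
    exact Finset.single_le_sum (f := α)
      (fun j _ => nonneg_of_mem_spectrum hX (h1 ▸ mem_range_self j)) (Finset.mem_univ i)
  have h5 := Ric.qf_nonneg h4 v
  rw [Ric.qf_sub, Ric.qf_smul, Ric.qf_one hv] at h5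
  linarith

theorem qf_le_one_add {V : Matrix n n ℂ} (hV : V.PosSemidef) {p : ℝ} (hp : 1 ≤ p) {v : n → ℂ}
    (hv : star v ⬝ᵥ v = 1) : qf V v ≤ 1 + rtr (pw V p) := by
  have h1 : (cfc (fun t : ℝ => 1 + t ^ p) V - cfc (fun t : ℝ => t) V).PosSemidef := by
    refine posSemidef_cfc_sub V fun t ht => ?_
    have ht0 := nonneg_of_mem_spectrum hV ht
    rcases le_total t 1 with h | h
    · linarith [Real.rpow_nonneg ht0 p]
    · linarith [Real.self_le_rpow_of_one_le h hp]
  rw [cfc_id_eq hV.isHermitian, cfc_add', cfc_const' 1 hV.isHermitian] at h1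
  have h2 := Ric.qf_nonneg h1 v
  rw [Ric.qf_sub, Ric.qf_add, Ric.qf_smul, Ric.qf_one hv] at h2
  have h3 := qf_le_rtr (posSemidef_pw hV p) hv
  rw [pw] at h3 ⊢
  linarith

theorem rtr_pw_le {X : Matrix n n ℂ} (hX : X.PosSemidef) {r D : ℝ} (hr : 0 ≤ r)
    (hD : rtr X ≤ D) : rtr (pw X r) ≤ Fintype.card n * D ^ r := by
  obtain ⟨α, h1, h2⟩ := exists_rtr_cfc hX.isHermitian
  have h3 : rtr X = ∑ i, α i := by rw [← h2 (fun t => t), cfc_id_eq hX.isHermitian]
  have h0 : ∀ j, 0 ≤ α j := fun j => nonneg_of_mem_spectrum hX (h1 ▸ mem_range_self j)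
  rw [pw, h2]
  calc ∑ i, α i ^ r ≤ ∑ _i : n, D ^ r := Finset.sum_le_sum fun i _ =>
        Real.rpow_le_rpow (h0 i) ((Finset.single_le_sum (f := α) (fun j _ => h0 j)
          (Finset.mem_univ i)).trans (h3 ▸ hD)) hr
    _ = _ := by simp

theorem pw_smul_pw {X : Matrix n n ℂ} (hX : X.PosSemidef) {μ : ℝ} (hμ : 0 ≤ μ) (s p : ℝ) :
    pw (μ • pw X s) p = μ ^ p • pw X (s * p) := by
  rw [pw, pw, pw, ← cfc_const_mul', cfc_cfc _ _ hX.isHermitian, ← cfc_const_mul']
  refine cfc_congr fun t ht => ?_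
  have ht0 := nonneg_of_mem_spectrum hX ht
  rw [Real.mul_rpow hμ (Real.rpow_nonneg ht0 s), Real.rpow_mul ht0]

theorem pw_mul_self {X : Matrix n n ℂ} (hX : X.PosSemidef) {s : ℝ} (hs : 0 < s) :
    pw X s * X = pw X (s + 1) := by
  conv_lhs => rw [← cfc_id_eq hX.isHermitian]
  rw [pw, pw, cfc_cfc _ _ hX.isHermitian, ← cfc_mul']
  refine cfc_congr fun t ht => ?_
  rw [Real.rpow_add_one' (nonneg_of_mem_spectrum hX ht) (by linarith)]

theorem rtr_pw_comm {m : Type*} [Fintype m] [DecidableEq m] (Y : Matrix n m ℂ) {s : ℝ}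
    (hs : 0 < s) : rtr (pw (Yᴴ * Y) (s + 1)) = rtr (pw (Y * Yᴴ) (s + 1)) := by
  have h1 := posSemidef_conjTranspose_mul_self Y
  have h2 := posSemidef_self_mul_conjTranspose Y
  have h3 := cfc_mul_intertwine h2.isHermitian h1.isHermitian Y (Matrix.mul_assoc _ _ _)
    (fun t => t ^ s)
  rw [← pw_mul_self h1 hs, ← pw_mul_self h2 hs, pw, pw, ← Matrix.mul_assoc,
    ← Matrix.mul_assoc _ Y, h3, rtr_mul_comm, Matrix.mul_assoc]

theorem young_matrix {W X : Matrix n n ℂ} (hW : W.PosSemidef) (hX : X.PosSemidef) {p r μ : ℝ}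
    (hpr : p.HolderConjugate r) (hμ : 0 ≤ μ) :
    μ ^ (p - 1) * rtr (W * X) ≤ rtr (pw W p) / p + μ ^ p * rtr (pw X r) / r := by
  have h := rtr_cfc_mul_le hW.isHermitian hX.isHermitian (fun t => t) (fun t => μ ^ (p - 1) * t)
    (fun t => p⁻¹ * t ^ p) (fun t => (μ ^ p / r) * t ^ r) fun a ha b hb => by
      have ha0 := nonneg_of_mem_spectrum hW ha
      have hb0 := nonneg_of_mem_spectrum hX hb
      have h1 := Real.young_inequality_of_nonneg ha0
        (mul_nonneg (Real.rpow_nonneg hμ (p - 1)) hb0) hpr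
      rw [Real.mul_rpow (Real.rpow_nonneg hμ _) hb0, ← Real.rpow_mul hμ,
        hpr.sub_one_mul_conj] at h1
      refine h1.trans (le_of_eq ?_)
      ring
  rw [cfc_const_mul', cfc_const_mul', cfc_const_mul', cfc_id_eq hW.isHermitian,
    cfc_id_eq hX.isHermitian, Matrix.mul_smul, rtr_smul, rtr_smul, rtr_smul] at h
  rw [pw, pw]
  refine h.trans (le_of_eq ?_)
  ring

theorem rtr_eq_sum (C T : Matrix n n ℂ) : rtr (C * T) = ∑ i, ∑ k, (C i k * T k i).re := by
  simp only [rtr, trace, diag_apply, mul_apply, Complex.re_sum]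

theorem integrable_rtr_cmul (C : Matrix n n ℂ) {T : ℝ → Matrix n n ℂ}
    (hT : ∀ i k, Integrable fun x => T x i k) : Integrable fun x => rtr (C * T x) := by
  simp only [rtr_eq_sum]
  exact integrable_finsetSum _ fun i _ => integrable_finsetSum _ fun k _ =>
    ((hT k i).const_mul (C i k)).re

theorem integral_rtr_cmul (C S : Matrix n n ℂ) {T : ℝ → Matrix n n ℂ}
    (hT : ∀ i k, Integrable fun x => T x i k) (hS : ∀ i k, ∫ x, T x i k = S i k) :
    ∫ x, rtr (C * T x) = rtr (C * S) := by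
  simp only [rtr_eq_sum]
  have hi : ∀ i k, Integrable fun x => (C i k * T x k i).re := fun i k =>
    ((hT k i).const_mul (C i k)).re
  rw [integral_finsetSum _ fun i _ => integrable_finsetSum _ fun k _ => hi i k]
  refine Finset.sum_congr rfl fun i _ => ?_
  rw [integral_finsetSum _ fun k _ => hi i k]
  refine Finset.sum_congr rfl fun k _ => ?_
  have := integral_re ((hT k i).const_mul (C i k))
  rw [integral_const_mul, hS] at this
  exact this

theorem isH1_mul {m : Type*} [Fintype m] (A : Matrix n n ℂ) {Ψ Ψ' : ℝ → Matrix n m ℂ}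
    (hΨ : ∀ i j, IsH1 (fun x => Ψ x i j) (fun x => Ψ' x i j)) (i : n) (j : m) :
    IsH1 (fun x => (A * Ψ x) i j) (fun x => (A * Ψ' x) i j) := by
  simp only [mul_apply]
  exact IsH1.sum Finset.univ (fun k => A i k) fun k _ => hΨ k j

theorem integrable_mul_conj {m : Type*} [Fintype m] {Ψ Ψ' : ℝ → Matrix n m ℂ}
    (hΨ : ∀ i j, IsH1 (fun x => Ψ x i j) (fun x => Ψ' x i j)) (i k : n) :
    Integrable fun x => (Ψ x * (Ψ x)ᴴ) i k := by
  simp only [mul_apply, conjTranspose_apply]
  exact integrable_finsetSum _ fun j _ => (hΨ i j).memLp.integrable_mul (hΨ k j).star.memLp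

theorem qf_conj {m : Type*} [Fintype m] [DecidableEq m] (A : Matrix n m ℂ) (X : Matrix m m ℂ)
    (v : n → ℂ) : qf (A * X * Aᴴ) v = qf X (Aᴴ *ᵥ v) := by
  rw [qf, qf, star_mulVec, conjTranspose_conjTranspose, ← mulVec_mulVec, ← mulVec_mulVec,
    dotProduct_mulVec]

theorem qf_smul_vec (X : Matrix n n ℂ) (c : ℝ) (v : n → ℂ) :
    qf X ((c : ℂ) • v) = c ^ 2 * qf X v := by
  rw [qf, qf, mulVec_smul, star_smul, smul_dotProduct, dotProduct_smul, smul_smul, smul_eq_mul,
    Complex.star_def, Complex.conj_ofReal, ← Complex.ofReal_mul, Complex.re_ofReal_mul, sq]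

/-- From unit vectors to all vectors. -/
theorem half_le_integral {X : ℝ → Matrix n n ℂ} {a b : ℝ}
    (hX : ∀ v : n → ℂ, star v ⬝ᵥ v = 1 → 1 / 2 ≤ ∫ x in a..b, qf (X x) v) (w : n → ℂ) :
    qf 1 w / 2 ≤ ∫ x in a..b, qf (X x) w := by
  have h0 : 0 ≤ qf 1 w := Ric.qf_nonneg PosSemidef.one w
  have h1 : star w ⬝ᵥ w = (qf 1 w : ℂ) := by
    have := dotProduct_star_self_nonneg w
    rw [qf, one_mulVec]
    exact (Complex.ext rfl (by simpa using (Complex.nonneg_iff.mp this).2.symm))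
  rcases h0.eq_or_lt with h | h
  · have hw : w = 0 := by
      rw [← h] at h1
      exact dotProduct_star_self_eq_zero.mp (by simpa using h1)
    subst hw
    simp [qf]
  · set c := √(qf 1 w) with hc
    have hc0 : 0 < c := Real.sqrt_pos.mpr h
    have hc2 : c ^ 2 = qf 1 w := Real.sq_sqrt h0
    have hv : star (((c⁻¹ : ℝ) : ℂ) • w) ⬝ᵥ (((c⁻¹ : ℝ) : ℂ) • w) = 1 := by
      rw [star_smul, smul_dotProduct, dotProduct_smul, h1, ← hc2, Complex.star_def,
        Complex.conj_ofReal, smul_eq_mul, smul_eq_mul, ← Complex.ofReal_mul, ← Complex.ofReal_mul,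
        Complex.ofReal_eq_one]
      field_simp
    have h2 := hX _ hv
    simp only [qf_smul_vec] at h2
    rw [intervalIntegral.integral_const_mul, inv_pow, hc2, le_inv_mul_iff₀ h] at h2
    linarith

/-- Lower bound for the integrated quadratic form of a power. -/
theorem integral_qf_pw_ge {X : ℝ → Matrix n n ℂ} (hXc : Continuous X)
    (hXp : ∀ x, (X x).PosSemidef) {a b : ℝ} (hab : a < b) {v : n → ℂ} (hv : star v ⬝ᵥ v = 1)
    {c s : ℝ} (hc : 0 < c) (hs : 1 ≤ s) (h : c / 2 ≤ ∫ x in a..b, qf (X x) v) :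
    (c / (4 * (b - a))) ^ (s - 1) * (c / 4) ≤ ∫ x in a..b, qf (pw (X x) s) v := by
  have hba : 0 < b - a := sub_pos.mpr hab
  set t := c / (4 * (b - a)) with ht
  have ht0 : 0 < t := by positivity
  have c1 : Continuous fun x => qf (X x) v := (Ric.qfL v).continuous.comp hXc
  have c2 : Continuous fun x => qf (pw (X x) s) v := (Ric.qfL v).continuous.comp
    (continuousOn_univ.mp (continuousOn_cfc_of_continuous (Real.continuous_rpow_const (by linarith))
      hXc.continuousOn fun x _ => (hXp x).isHermitian))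
  have h1 : ∫ x in a..b, t ^ (s - 1) * (qf (X x) v - t) ≤ ∫ x in a..b, qf (pw (X x) s) v := by
    refine intervalIntegral.integral_mono_on hab.le
      ((continuous_const.mul (c1.sub continuous_const)).intervalIntegrable _ _)
      (c2.intervalIntegrable _ _) fun x _ => ?_
    have := Ric.qf_nonneg (pw_lower (hXp x) hs ht0) v
    rw [Ric.qf_sub, Ric.qf_smul, Ric.qf_sub, Ric.qf_smul, Ric.qf_one hv, mul_one] at this
    linarith
  rw [intervalIntegral.integral_const_mul, intervalIntegral.integral_sub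
    (c1.intervalIntegrable _ _) intervalIntegrable_const, intervalIntegral.integral_const,
    smul_eq_mul] at h1
  refine le_trans (mul_le_mul_of_nonneg_left ?_ (Real.rpow_nonneg ht0.le _)) h1
  have : (b - a) * t = c / 4 := by rw [ht]; field_simp
  linarith

/-- The Young inequality, integrated. -/
theorem holder_step {m : Type*} [Fintype m] [DecidableEq m] {p s : ℝ} (hs : 0 < s)
    (hpr : p.HolderConjugate (s + 1)) {W : ℝ → Matrix m m ℂ}
    (hWm : ∀ i j, Measurable fun x => W x i j) (hWp : ∀ x, (W x).PosSemidef)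
    (hWi : Integrable fun x => rtr (pw (W x) p)) {Ω : ℝ} (hΩ : ∫ x, rtr (pw (W x) p) ≤ Ω)
    {Y Y' : ℝ → Matrix n m ℂ} (hY : ∀ i j, IsH1 (fun x => Y x i j) (fun x => Y' x i j))
    {a b : ℝ} (hab : a ≤ b) {μ : ℝ} (hμ : 0 < μ)
    (hN : μ ^ p * ∫ x in a..b, rtr (pw (Y x * (Y x)ᴴ) (s + 1)) = Ω) :
    ∫ x in a..b, rtr (Y x * W x * (Y x)ᴴ)
      ≤ μ * ∫ x in a..b, rtr (pw (Y x * (Y x)ᴴ) (s + 1)) := by
  have hYc : Continuous Y := continuous_matrix fun i j => (hY i j).continuous
  have c1 : Continuous fun x => rtr (pw (Y x * (Y x)ᴴ) (s + 1)) :=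
    continuousOn_univ.mp (continuousOn_rtr_pw (by linarith)
      (hYc.matrix_mul hYc.matrix_conjTranspose).continuousOn
      fun x _ => (posSemidef_self_mul_conjTranspose (Y x)).isHermitian)
  have i1 : Integrable fun x => rtr (Y x * W x * (Y x)ᴴ) := by
    have := integrable_rtr_cmul 1 (integrable_entry hpr.lt.le hWm hWp hWi hY)
    simpa only [Matrix.one_mul] using this
  have i2 : IntervalIntegrable (fun x => μ ^ p * rtr (pw (Y x * (Y x)ᴴ) (s + 1)) / (s + 1))
      volume a b := ((continuous_const.mul c1).div_const _).intervalIntegrable _ _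
  have h1 : ∫ x in a..b, μ ^ (p - 1) * rtr (Y x * W x * (Y x)ᴴ)
      ≤ ∫ x in a..b, (rtr (pw (W x) p) / p
        + μ ^ p * rtr (pw (Y x * (Y x)ᴴ) (s + 1)) / (s + 1)) := by
    refine intervalIntegral.integral_mono_on hab (i1.const_mul _).intervalIntegrable
      ((hWi.div_const _).intervalIntegrable.add i2) fun x _ => ?_
    have := young_matrix (hWp x) (posSemidef_conjTranspose_mul_self (Y x)) hpr hμ.le
    rw [rtr_pw_comm _ hs] at this
    rw [Matrix.mul_assoc, rtr_mul_comm, Matrix.mul_assoc]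
    exact this
  rw [intervalIntegral.integral_const_mul, intervalIntegral.integral_add
    (hWi.div_const _).intervalIntegrable i2,
    intervalIntegral.integral_div, intervalIntegral.integral_div,
    intervalIntegral.integral_const_mul, hN] at h1
  have h2 : ∫ x in a..b, rtr (pw (W x) p) ≤ Ω := by
    refine le_trans ?_ hΩ
    rw [intervalIntegral.integral_of_le hab]
    exact setIntegral_le_integral hWi
      (Eventually.of_forall fun x => rtr_nonneg (posSemidef_pw (hWp x) p))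
  have h3 : Ω / p + Ω / (s + 1) = Ω := by
    rw [div_eq_mul_inv, div_eq_mul_inv, ← mul_add, hpr.inv_add_inv_eq_one, mul_one]
  have h4 := div_le_div_of_nonneg_right h2 hpr.pos.le
  have h5 : μ ^ p = μ ^ (p - 1) * μ := by
    rw [Real.rpow_sub_one hμ.ne']
    field_simp
  refine le_of_mul_le_mul_left ?_ (Real.rpow_pos_of_pos hμ (p - 1))
  rw [← mul_assoc, ← h5, hN]
  linarith

end Vale.Agent.P371
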