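import Mathlib

/-!
Definitions used in the statement for problem P371 (sharp one-dimensional Lieb-Thirring constants).
-/

namespace Vale.Agent.P371

open MeasureTheory Matrix
open scoped ENNReal ComplexOrder

/-- An element of the Sobolev space `H^1(ℝ; ℂ^m)`, given by its (locally absolutely) continuous
representative `toFun` and its weak derivative `deriv`; both are square integrable. -/
structure H1 (m : ℕ) where
  toFun : ℝ → Fin m → ℂ
  deriv : ℝ → Fin m → ℂ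
  memLp_toFun : MemLp toFun 2 volume
  memLp_deriv : MemLp deriv 2 volume
  sub_eq_integral : ∀ x y : ℝ, toFun y - toFun x = ∫ t in x..y, deriv t

/-- The inner product of `L^2(ℝ; ℂ^m)`. -/
noncomputable def l2Inner {m : ℕ} (f g : ℝ → Fin m → ℂ) : ℂ :=
  ∫ x, star (f x) ⬝ᵥ g x

/-- `tr (A^p)`, the power taken by functional calculus. -/
noncomputable def trPow {m : ℕ} (A : Matrix (Fin m) (Fin m) ℂ) (p : ℝ) : ℝ :=
  (cfc (fun t : ℝ => t ^ p) A).trace.re

/-- A potential: measurable, positive semidefinite, with `∫ tr W^(γ+1/2) < ∞`. -/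
structure IsPotential (γ : ℝ) {m : ℕ} (W : ℝ → Matrix (Fin m) (Fin m) ℂ) : Prop where
  measurable : ∀ i j, Measurable fun x => W x i j
  posSemidef : ∀ x, (W x).PosSemidef
  lintegral_lt_top : ∫⁻ x, ENNReal.ofReal (trPow (W x) (γ + 1 / 2)) < ∞

/-- The sesquilinear form of `H_W = -d^2/dx^2 - W` on `H^1(ℝ; ℂ^m)`. -/
noncomputable def form {m : ℕ} (W : ℝ → Matrix (Fin m) (Fin m) ℂ) (φ ψ : H1 m) : ℂ :=
  l2Inner φ.deriv ψ.deriv - l2Inner φ.toFun fun x => W x *ᵥ ψ.toFun x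

/-- `H_W ψ = E ψ` for the operator `H_W` defined by the form. -/
def IsEigen {m : ℕ} (W : ℝ → Matrix (Fin m) (Fin m) ℂ) (E : ℝ) (ψ : H1 m) : Prop :=
  ∀ φ : H1 m, form W φ ψ = E * l2Inner φ.toFun ψ.toFun

/-- `Tr (H_W)_-^γ`: the sum of `|E|^γ` over the negative eigenvalues counted with multiplicity,
i.e. the supremum over finite orthonormal families of eigenfunctions with negative eigenvalues. -/
noncomputable def rieszMean (γ : ℝ) {m : ℕ} (W : ℝ → Matrix (Fin m) (Fin m) ℂ) : ℝ≥0∞ :=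
  ⨆ (N : ℕ) (ψ : Fin N → H1 m) (E : Fin N → ℝ)
    (_ : ∀ j k, l2Inner (ψ j).toFun (ψ k).toFun = if j = k then 1 else 0)
    (_ : ∀ j, E j < 0 ∧ IsEigen W (E j) (ψ j)),
    ENNReal.ofReal (∑ j, |E j| ^ γ)

/-- The Lieb-Thirring constant `L_γ(m)`. -/
noncomputable def ltConst (γ : ℝ) (m : ℕ) : ℝ≥0∞ :=
  ⨆ (W : ℝ → Matrix (Fin m) (Fin m) ℂ) (_ : IsPotential γ W) (_ : ¬ W =ᵐ[volume] 0),
    rieszMean γ W / ∫⁻ x, ENNReal.ofReal (trPow (W x) (γ + 1 / 2))

end Vale.Agent.P371
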