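import Vale.Agent.P371.Spec

namespace Vale.Agent.P371

open MeasureTheory Matrix Set Filter Topology
open scoped ComplexOrder Matrix.Norms.L2Operator MatrixOrder

set_option linter.unusedSectionVars false

variable {n : Type*} [Fintype n] [DecidableEq n]

theorem dlog_scalar {a : ℝ} (ha : 0 < a) :
    IntegrableOn (fun t : ℝ => (a + t)⁻¹ * (a + t)⁻¹) (Ioi 0) ∧
      ∫ t in Ioi (0 : ℝ), (a + t)⁻¹ * (a + t)⁻¹ = a⁻¹ := by
  have hd : ∀ x ∈ Ici (0 : ℝ), HasDerivAt (fun t : ℝ => -(a + t)⁻¹) ((a + x)⁻¹ * (a + x)⁻¹) x := by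
    intro x hx
    have hx' : a + x ≠ 0 := by have : (0 : ℝ) ≤ x := hx; linarith
    have h1 : HasDerivAt (fun t : ℝ => a + t) 1 x := (hasDerivAt_id x).const_add a
    have h2 : HasDerivAt (fun t : ℝ => -(a + t)⁻¹) (-(-1 / (a + x) ^ 2)) x := (h1.inv hx').neg
    refine h2.congr_deriv ?_
    field_simp
  have hpos : ∀ x ∈ Ioi (0 : ℝ), 0 ≤ (a + x)⁻¹ * (a + x)⁻¹ := fun x _ => mul_self_nonneg _
  have hl : Tendsto (fun t : ℝ => -(a + t)⁻¹) atTop (𝓝 0) := by
    have := (tendsto_inv_atTop_zero.comp (tendsto_atTop_add_const_left atTop a tendsto_id)).neg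
    simpa using this
  refine ⟨integrableOn_Ioi_deriv_of_nonneg' hd hpos hl, ?_⟩
  rw [integral_Ioi_of_hasDerivAt_of_nonneg' hd hpos hl]
  simp

theorem dlog_scalar2 {a b : ℝ} (ha : 0 < a) (hb : 0 < b) :
    IntegrableOn (fun t : ℝ => (a + t)⁻¹ * (b + t)⁻¹) (Ioi 0) := by
  refine Integrable.mono' ((dlog_scalar ha).1.add (dlog_scalar hb).1) ?_ ?_
  · apply Measurable.aestronglyMeasurable
    fun_prop
  · refine (ae_restrict_iff' measurableSet_Ioi).mpr (Eventually.of_forall fun t ht => ?_)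
    have ht' : (0 : ℝ) < t := ht
    have h1 : 0 < (a + t)⁻¹ := inv_pos.mpr (by linarith)
    have h2 : 0 < (b + t)⁻¹ := inv_pos.mpr (by linarith)
    rw [Real.norm_eq_abs, abs_of_pos (mul_pos h1 h2)]
    simp only [Pi.add_apply]
    nlinarith [sq_nonneg ((a + t)⁻¹ - (b + t)⁻¹), mul_pos h1 h2]

theorem dlog_conj {R S : Matrix n n ℂ} (hR : R.IsHermitian) (hS : S.PosDef) :
    rtr (R * R) ≤ rtr (S⁻¹ * R * S * R) := by
  have hH := hS.isHermitian
  set T := cfc (fun t : ℝ => √t) S with hT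
  set T' := cfc (fun t : ℝ => (√t)⁻¹) S with hT'
  have hTH : Tᴴ = T := isHermitian_cfc _ _
  have hTH' : T'ᴴ = T' := isHermitian_cfc _ _
  have h1 : T * T = S := by
    rw [hT, ← cfc_mul']
    conv_rhs => rw [← cfc_id_eq hH]
    exact cfc_congr fun a ha => Real.mul_self_sqrt (pos_of_mem_spectrum hS ha).le
  have h2 : T * T' = 1 := by
    rw [hT, hT', ← cfc_mul', ← cfc_one ℝ S hH.isSelfAdjoint]
    exact cfc_congr fun a ha =>
      mul_inv_cancel₀ (Real.sqrt_pos.mpr (pos_of_mem_spectrum hS ha)).ne'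
  have h3 : T' * T = 1 := mul_eq_one_comm.mp h2
  have h4 : T' * T' = S⁻¹ := by
    symm
    apply Matrix.inv_eq_right_inv
    rw [← h1]
    calc T * T * (T' * T') = T * (T * T') * T' := by simp only [Matrix.mul_assoc]
      _ = 1 := by rw [h2, Matrix.mul_one, h2]
  set C := T' * R * T with hC
  have hCH : Cᴴ = T * R * T' := by
    rw [hC, conjTranspose_mul, conjTranspose_mul, hTH, hTH', hR.eq, Matrix.mul_assoc]
  have e1 : rtr (C * Cᴴ) = rtr (S⁻¹ * R * S * R) := by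
    rw [hCH, hC, ← h4, ← h1]
    have : T' * R * T * (T * R * T') = (T' * R * (T * T) * R) * T' := by
      simp only [Matrix.mul_assoc]
    rw [this, rtr_mul_comm]
    simp only [Matrix.mul_assoc]
  have e2 : rtr (C * C) = rtr (R * R) := by
    have : C * C = T' * (R * R * T) := by
      rw [hC]
      calc T' * R * T * (T' * R * T) = T' * R * (T * T') * R * T := by simp only [Matrix.mul_assoc]
        _ = _ := by rw [h2]; simp only [Matrix.mul_assoc, Matrix.mul_one]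
    rw [this, rtr_mul_comm, Matrix.mul_assoc, h2, Matrix.mul_one]
  have e3 : rtr (Cᴴ * Cᴴ) = rtr (C * C) := by rw [← conjTranspose_mul, rtr_conjTranspose]
  have e4 : rtr (Cᴴ * C) = rtr (C * Cᴴ) := rtr_mul_comm _ _
  have h5 : 0 ≤ rtr ((C - Cᴴ) * (C - Cᴴ)ᴴ) := rtr_nonneg (posSemidef_self_mul_conjTranspose _)
  rw [conjTranspose_sub, conjTranspose_conjTranspose, Matrix.sub_mul, Matrix.mul_sub,
    Matrix.mul_sub] at h5
  simp only [rtr_sub] at h5
  linarith

theorem dlog_point {A S : Matrix n n ℂ} (hA : A.PosDef) (hS : S.PosDef) {t : ℝ} (ht : 0 < t) :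
    rtr (((1 / 2 : ℝ) • (A * S + S * A) - A * A) * cfc (fun x : ℝ => (x + t)⁻¹) A * S⁻¹ *
        cfc (fun x : ℝ => (x + t)⁻¹) A)
      ≤ rtr (1 * cfc (fun x : ℝ => x * ((x + t)⁻¹ * (x + t)⁻¹)) A)
        - rtr (S⁻¹ * cfc (fun x : ℝ => x * x * ((x + t)⁻¹ * (x + t)⁻¹)) A) := by
  have hH := hA.isHermitian
  set R := cfc (fun x : ℝ => (x + t)⁻¹) A with hR
  have hRH : R.IsHermitian := isHermitian_cfc _ _
  have hne : ∀ a ∈ spectrum ℝ A, a + t ≠ 0 := fun a ha => by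
    have := pos_of_mem_spectrum hA ha; linarith
  have hid := cfc_id_eq hH
  have hA1 : ∀ g : ℝ → ℝ, A * cfc g A = cfc (fun x => x * g x) A := fun g => by
    rw [cfc_mul', hid]
  have hA2 : ∀ g : ℝ → ℝ, cfc g A * A = cfc (fun x => g x * x) A := fun g => by
    rw [cfc_mul', hid]
  have hone : cfc (fun x : ℝ => 1 - t * (x + t)⁻¹) A = 1 - t • R := by
    rw [cfc_sub', cfc_const_mul', cfc_const' 1 hH, one_smul]
  have hAR : A * R = 1 - t • R := by
    rw [← hone, hR, hA1]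
    exact cfc_congr fun a ha => by have := hne a ha; field_simp; ring
  have hRA : R * A = 1 - t • R := by
    rw [← hone, hR, hA2]
    exact cfc_congr fun a ha => by have := hne a ha; field_simp; ring
  have hSS : S * S⁻¹ = 1 := Matrix.mul_nonsing_inv _ ((Matrix.isUnit_iff_isUnit_det _).mp hS.isUnit)
  have hSS' : S⁻¹ * S = 1 :=
    Matrix.nonsing_inv_mul _ ((Matrix.isUnit_iff_isUnit_det _).mp hS.isUnit)
  have e1 : rtr (A * S * R * S⁻¹ * R) = rtr R - t * rtr (S⁻¹ * R * S * R) := by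
    rw [rtr_mul_comm]
    have : R * (A * S * R * S⁻¹) = (R * A) * S * R * S⁻¹ := by simp only [Matrix.mul_assoc]
    rw [this, hRA, rtr_mul_comm]
    have : S⁻¹ * ((1 - t • R) * S * R) = (S⁻¹ * S) * R - t • (S⁻¹ * R * S * R) := by
      simp only [Matrix.sub_mul, Matrix.mul_sub, Matrix.one_mul, Matrix.smul_mul, Matrix.mul_smul,
        Matrix.mul_assoc]
    rw [this, hSS', Matrix.one_mul, rtr_sub, rtr_smul]
  have e2 : rtr (S * A * R * S⁻¹ * R) = rtr R - t * rtr (S⁻¹ * R * S * R) := by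
    have : S * A * R * S⁻¹ * R = S * (A * R) * S⁻¹ * R := by simp only [Matrix.mul_assoc]
    rw [this, hAR]
    have : S * (1 - t • R) * S⁻¹ * R = (S * S⁻¹) * R - t • ((S * R) * (S⁻¹ * R)) := by
      simp only [Matrix.sub_mul, Matrix.mul_sub, Matrix.mul_one, Matrix.smul_mul, Matrix.mul_smul,
        Matrix.mul_assoc]
    rw [this, hSS, Matrix.one_mul, rtr_sub, rtr_smul, rtr_mul_comm (S * R)]
    simp only [Matrix.mul_assoc]
  have e3 : rtr (A * A * R * S⁻¹ * R)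
      = rtr (S⁻¹ * cfc (fun x : ℝ => x * x * ((x + t)⁻¹ * (x + t)⁻¹)) A) := by
    have h1 : cfc (fun x : ℝ => x * x * ((x + t)⁻¹ * (x + t)⁻¹)) A = R * (A * A * R) := by
      rw [Matrix.mul_assoc A, hR, hA1, hA1, ← cfc_mul']
      exact cfc_congr fun a _ => by ring
    rw [h1, Matrix.mul_assoc (A * A * R), rtr_mul_comm]
    simp only [Matrix.mul_assoc]
  have e4 : rtr (1 * cfc (fun x : ℝ => x * ((x + t)⁻¹ * (x + t)⁻¹)) A)
      = rtr R - t * rtr (R * R) := by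
    have h1 : cfc (fun x : ℝ => x * ((x + t)⁻¹ * (x + t)⁻¹)) A = A * R * R := by
      rw [hR, hA1, ← cfc_mul']
      exact cfc_congr fun a _ => by ring
    rw [h1, hAR, Matrix.one_mul, Matrix.sub_mul, Matrix.one_mul, Matrix.smul_mul, rtr_sub, rtr_smul]
  have e5 := dlog_conj hRH hS
  have e6 : ((1 / 2 : ℝ) • (A * S + S * A) - A * A) * R * S⁻¹ * R
      = (1 / 2 : ℝ) • (A * S * R * S⁻¹ * R + S * A * R * S⁻¹ * R) - A * A * R * S⁻¹ * R := by
    simp only [Matrix.sub_mul, Matrix.add_mul, Matrix.smul_mul]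
  rw [e6, rtr_sub, rtr_smul, rtr_add, e1, e2, e3, e4]
  nlinarith [mul_le_mul_of_nonneg_left e5 ht.le]

theorem dlog_integrable {A : Matrix n n ℂ} (hA : A.PosDef) (X Y : Matrix n n ℂ) :
    IntegrableOn (fun t : ℝ => rtr (X * cfc (fun x : ℝ => (x + t)⁻¹) A * Y *
      cfc (fun x : ℝ => (x + t)⁻¹) A)) (Ioi 0) := by
  obtain ⟨U, α, -, -, h3, h4⟩ := exists_diag hA.isHermitian
  have e : ∀ g : ℝ → ℝ, cfc g A
      = ∑ i, g (α i) • (U * diagonal (Pi.single i (1 : ℂ)) * Uᴴ) := by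
    intro g
    rw [h4]
    simp only [← Matrix.smul_mul, ← Matrix.sum_mul]
    congr 1
    ext i j
    simp [Matrix.sum_apply, Pi.single_apply, mul_comm]
  have hα : ∀ i, 0 < α i := fun i => pos_of_mem_spectrum hA (h3 ▸ mem_range_self i)
  have e2 : (fun t : ℝ => rtr (X * cfc (fun x : ℝ => (x + t)⁻¹) A * Y *
      cfc (fun x : ℝ => (x + t)⁻¹) A)) = fun t => ∑ j, ∑ i, ((α i + t)⁻¹ * (α j + t)⁻¹) *
        rtr (X * (U * diagonal (Pi.single i (1 : ℂ)) * Uᴴ) * Y *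
          (U * diagonal (Pi.single j (1 : ℂ)) * Uᴴ)) := by
    funext t
    rw [e]
    simp only [Matrix.mul_sum, Matrix.sum_mul, Matrix.mul_smul, Matrix.smul_mul, ← rtrL_apply,
      map_sum, map_smul, smul_eq_mul, Finset.mul_sum]
    refine Finset.sum_congr rfl fun j _ => Finset.sum_congr rfl fun i _ => by ring
  rw [e2]
  exact integrable_finset_sum _ fun j _ => integrable_finset_sum _ fun i _ =>
    (dlog_scalar2 (hα i) (hα j)).mul_const _

/-- The key trace bound for the derivative of the logarithm. -/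
theorem dlog_bound {A S : Matrix n n ℂ} (hA : A.PosDef) (hS : S.PosDef) :
    ∫ t in Ioi (0 : ℝ), rtr (((1 / 2 : ℝ) • (A * S + S * A) - A * A) *
        (A + t • (1 : Matrix n n ℂ))⁻¹ * S⁻¹ * (A + t • (1 : Matrix n n ℂ))⁻¹)
      ≤ Fintype.card n - rtr (S⁻¹ * A) := by
  have hH := hA.isHermitian
  have hinv : ∀ t ∈ Ioi (0 : ℝ),
      (A + t • (1 : Matrix n n ℂ))⁻¹ = cfc (fun x : ℝ => (x + t)⁻¹) A := by
    intro t ht
    have ht' : (0 : ℝ) < t := ht
    rw [← inv_cfc hH (f := fun x => x + t)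
      (fun a ha => by have := pos_of_mem_spectrum hA ha; linarith),
      cfc_add', cfc_id_eq hH, cfc_const' t hH]
  obtain ⟨α, c, h1, h2, -, h4⟩ := exists_rtr_mul_cfc hH
  have hα : ∀ i, 0 < α i := fun i => pos_of_mem_spectrum hA (h1 ▸ mem_range_self i)
  have hg : ∀ t : ℝ, rtr (1 * cfc (fun x : ℝ => x * ((x + t)⁻¹ * (x + t)⁻¹)) A)
        - rtr (S⁻¹ * cfc (fun x : ℝ => x * x * ((x + t)⁻¹ * (x + t)⁻¹)) A)
      = ∑ i, (α i - c S⁻¹ i * (α i * α i)) * ((α i + t)⁻¹ * (α i + t)⁻¹) := by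
    intro t
    rw [h4, h4, ← Finset.sum_sub_distrib]
    exact Finset.sum_congr rfl fun i _ => by rw [h2]; ring
  have hint : ∀ i, IntegrableOn
      (fun t : ℝ => (α i - c S⁻¹ i * (α i * α i)) * ((α i + t)⁻¹ * (α i + t)⁻¹)) (Ioi 0) :=
    fun i => (dlog_scalar (hα i)).1.const_mul _
  rw [setIntegral_congr_fun measurableSet_Ioi (g := fun t : ℝ =>
    rtr (((1 / 2 : ℝ) • (A * S + S * A) - A * A) * cfc (fun x : ℝ => (x + t)⁻¹) A * S⁻¹ *
      cfc (fun x : ℝ => (x + t)⁻¹) A)) (fun t ht => by simp only [hinv t ht])]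
  refine le_trans (setIntegral_mono_on (dlog_integrable hA _ _)
    (g := fun t : ℝ => ∑ i, (α i - c S⁻¹ i * (α i * α i)) * ((α i + t)⁻¹ * (α i + t)⁻¹))
    (integrable_finset_sum _ fun i _ => hint i) measurableSet_Ioi
    (fun t ht => (dlog_point hA hS ht).trans (hg t).le)) (le_of_eq ?_)
  rw [integral_finset_sum _ fun i _ => hint i]
  have e1 : rtr (S⁻¹ * A) = ∑ i, c S⁻¹ i * α i := by
    conv_lhs => rw [← cfc_id_eq hH]
    exact h4 _ _
  rw [e1]
  have e2 : (Fintype.card n : ℝ) = ∑ _i : n, (1 : ℝ) := by simp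
  rw [e2, ← Finset.sum_sub_distrib]
  refine Finset.sum_congr rfl fun i _ => ?_
  rw [integral_const_mul, (dlog_scalar (hα i)).2]
  have := (hα i).ne'
  field_simp

end Vale.Agent.P371
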