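import Vale.Agent.P371.Spec

namespace Vale.Agent.P371

open MeasureTheory Matrix Set Filter Topology
open scoped ComplexOrder Matrix.Norms.L2Operator MatrixOrder

set_option linter.unusedSectionVars false

variable {n : Type*} [Fintype n] [DecidableEq n]

namespace GT

/-- Complex powers of a positive definite matrix. -/
lemma exists_cpow {A : Matrix n n ℂ} (hA : A.PosDef) :
    ∃ E : ℂ → Matrix n n ℂ, (∀ z w, E z * E w = E (z + w)) ∧
      (∀ z, (E z)ᴴ = E (starRingEnd ℂ z)) ∧ E 0 = 1 ∧ E 1 = A ∧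
      (∀ z, HasDerivAt E (E z * lg A) z) ∧ ∃ C, 0 ≤ C ∧ ∀ z : ℂ, |z.re| ≤ 1 → ‖E z‖ ≤ C := by
  obtain ⟨U, α, h1, h2, h3, h4⟩ := exists_diag hA.isHermitian
  have hpos : ∀ i, 0 < α i := fun i => pos_of_mem_spectrum hA (h3 ▸ mem_range_self i)
  have hmul : ∀ d e : n → ℂ, U * diagonal d * Uᴴ * (U * diagonal e * Uᴴ) =
      U * diagonal (fun i => d i * e i) * Uᴴ := by
    intro d e
    calc U * diagonal d * Uᴴ * (U * diagonal e * Uᴴ)
        = U * (diagonal d * ((Uᴴ * U) * diagonal e)) * Uᴴ := by simp only [Matrix.mul_assoc]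
      _ = _ := by rw [h1, Matrix.one_mul, diagonal_mul_diagonal]
  have e : ∀ d : n → ℂ, U * diagonal d * Uᴴ
      = ∑ i, d i • (U * diagonal (Pi.single i (1 : ℂ)) * Uᴴ) := by
    intro d
    simp only [← Matrix.smul_mul, ← Matrix.sum_mul]
    congr 1
    ext i j
    simp [Matrix.sum_apply, Pi.single_apply, mul_comm]
  refine ⟨fun z => U * diagonal (fun i => Complex.exp (z * (Real.log (α i) : ℂ))) * Uᴴ,
    fun z w => ?_, fun z => ?_, ?_, ?_, fun z => ?_,
    ∑ i, Real.exp |Real.log (α i)| * ‖U * diagonal (Pi.single i (1 : ℂ)) * Uᴴ‖, by positivity,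
    fun z hz => ?_⟩
  · simp only [hmul, ← Complex.exp_add, add_mul]
  · simp only [conjTranspose_mul, conjTranspose_conjTranspose, diagonal_conjTranspose,
      Matrix.mul_assoc]
    congr 3
    ext i
    simp only [Pi.star_apply, Complex.star_def, ← Complex.exp_conj, map_mul, Complex.conj_ofReal]
  · simp [h2]
  · have h5 := h4 (fun t => t)
    rw [cfc_id_eq hA.isHermitian] at h5
    have h6 : (fun i => Complex.exp (1 * (Real.log (α i) : ℂ))) = fun i => (α i : ℂ) := by
      ext i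
      rw [one_mul, ← Complex.ofReal_exp, Real.exp_log (hpos i)]
    simp only [h6]
    exact h5.symm
  · simp only [lg, h4, hmul]
    simp only [e (fun i => Complex.exp _), e (fun i => Complex.exp _ * _)]
    refine HasDerivAt.fun_sum fun i _ => HasDerivAt.smul_const ?_ _
    simpa using ((hasDerivAt_id z).mul_const ((Real.log (α i) : ℝ) : ℂ)).cexp
  · simp only [e (fun i => Complex.exp _)]
    refine (norm_sum_le _ _).trans (Finset.sum_le_sum fun i _ => ?_)
    rw [norm_smul, Complex.norm_exp]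
    gcongr
    rw [Complex.re_mul_ofReal]
    refine (le_abs_self _).trans ?_
    rw [abs_mul]
    exact mul_le_of_le_one_left (abs_nonneg _) hz

lemma rtr_mul_conj (X : Matrix n n ℂ) : rtr (X * Xᴴ) = ∑ i, ∑ j, ‖X i j‖ ^ 2 := by
  simp only [rtr, trace, diag_apply, mul_apply, conjTranspose_apply, Complex.re_sum,
    Complex.star_def, Complex.mul_conj, Complex.ofReal_re, Complex.normSq_eq_norm_sq]

lemma norm_trace_mul_le (X Y : Matrix n n ℂ) :
    ‖(X * Y).trace‖ ≤ (rtr (X * Xᴴ) + rtr (Y * Yᴴ)) / 2 := by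
  rw [rtr_mul_conj, rtr_mul_conj, Finset.sum_comm (f := fun i j => ‖Y i j‖ ^ 2),
    ← Finset.sum_add_distrib, Finset.sum_div]
  simp only [trace, diag_apply, mul_apply]
  refine (norm_sum_le _ _).trans (Finset.sum_le_sum fun i _ => ?_)
  rw [← Finset.sum_add_distrib, Finset.sum_div]
  refine (norm_sum_le _ _).trans (Finset.sum_le_sum fun j _ => ?_)
  rw [norm_mul]
  nlinarith [sq_nonneg (‖X i j‖ - ‖Y j i‖)]

/-- The trace as a continuous linear map. -/
noncomputable def trL (n : Type*) [Fintype n] [DecidableEq n] : Matrix n n ℂ →L[ℂ] ℂ :=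
  LinearMap.toContinuousLinearMap (traceLinearMap n ℂ ℂ)

lemma trL_apply (X : Matrix n n ℂ) : trL n X = X.trace := rfl

end GT

open GT

/-- Gibbs variational principle combined with the Golden-Thompson inequality. -/
theorem gibbs_gt {P A B : Matrix n n ℂ} (hP : P.PosDef) (hA : A.PosDef) (hB : B.PosDef) :
    rtr (P * (lg A + lg B)) ≤ rtr (P * lg P) - rtr P + rtr (A * B) := by
  obtain ⟨p, p1, p2, p3, p4, p5, Cp, Cp0, p6⟩ := exists_cpow hP
  obtain ⟨a, a1, a2, a3, a4, a5, Ca, Ca0, a6⟩ := exists_cpow hA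
  obtain ⟨b, b1, b2, b3, b4, b5, Cb, Cb0, b6⟩ := exists_cpow hB
  set F : ℂ → ℂ := fun z => trL n (p (1 - z) * (b (z / 2) * (a z * b (z / 2)))) with hF
  have hb' : ∀ z : ℂ, HasDerivAt (fun z => b (z / 2)) ((1 / 2 : ℂ) • (b (z / 2) * lg B)) z :=
    fun z => (b5 (z / 2)).scomp z ((hasDerivAt_id z).div_const 2)
  have hp' : ∀ z : ℂ, HasDerivAt (fun z => p (1 - z)) ((-1 : ℂ) • (p (1 - z) * lg P)) z :=
    fun z => (p5 (1 - z)).scomp z ((hasDerivAt_id z).const_sub 1)
  have hd := fun z : ℂ => (trL n).hasFDerivAt.comp_hasDerivAt z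
    ((hp' z).mul ((hb' z).mul ((a5 z).mul (hb' z))))
  have hdiff : Differentiable ℂ F := fun z => (hd z).differentiableAt
  have hconj : ∀ z : ℂ, z + starRingEnd ℂ z = 2 * (z.re : ℂ) := fun z => by
    rw [Complex.add_conj]; push_cast; ring
  have hbd : BddAbove ((norm ∘ F) '' Complex.HadamardThreeLines.verticalClosedStrip 0 1) := by
    refine ⟨‖trL n‖ * (Cp * (Cb * (Ca * Cb))), ?_⟩
    rintro _ ⟨z, hz, rfl⟩
    have hz' : 0 ≤ z.re ∧ z.re ≤ 1 := hz
    have h1 := p6 (1 - z) (by simp only [Complex.sub_re, Complex.one_re, abs_le]; constructor <;> linarith)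
    have h2 := b6 (z / 2) (by simp only [Complex.div_ofNat_re, abs_le]; constructor <;> linarith)
    have h3 := a6 z (by rw [abs_le]; constructor <;> linarith)
    refine ((trL n).le_opNorm _).trans (mul_le_mul_of_nonneg_left ?_ (norm_nonneg _))
    refine (norm_mul_le _ _).trans (mul_le_mul h1 ?_ (norm_nonneg _) Cp0)
    refine (norm_mul_le _ _).trans (mul_le_mul h2 ?_ (norm_nonneg _) Cb0)
    exact (norm_mul_le _ _).trans (mul_le_mul h3 h2 (norm_nonneg _) Ca0)
  have h0 : ∀ z ∈ Complex.re ⁻¹' {0}, ‖F z‖ ≤ rtr P := by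
    intro z hz
    have hz' : (z.re : ℂ) = 0 := by rw [show z.re = 0 from hz]; simp
    have e1 : F z = (b (z / 2) * a z * b (z / 2) * p ((1 - z) / 2) * p ((1 - z) / 2)).trace := by
      rw [hF, Matrix.mul_assoc _ (p _) (p _), p1, add_halves, trace_mul_comm]
      simp only [trL_apply, Matrix.mul_assoc]
    have e2 : p ((1 - z) / 2) * (p ((1 - z) / 2))ᴴ = P := by
      rw [p2, p1, ← p4]
      congr 1
      simp only [map_div₀, map_sub, map_one, map_ofNat]
      linear_combination (-1 / 2) * hconj z - hz'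
    have e3 : (b (z / 2))ᴴ * b (z / 2) = 1 := by
      rw [b2, b1, ← b3]
      congr 1
      simp only [map_div₀, map_ofNat]
      linear_combination (1 / 2) * hconj z + hz'
    have e4 : (a z)ᴴ * a z = 1 := by
      rw [a2, a1, ← a3]
      congr 1
      linear_combination hconj z + 2 * hz'
    have e5 : rtr (b (z / 2) * a z * b (z / 2) * p ((1 - z) / 2) *
        (b (z / 2) * a z * b (z / 2) * p ((1 - z) / 2))ᴴ) = rtr P := by
      rw [rtr_mul_comm]
      simp only [conjTranspose_mul, Matrix.mul_assoc]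
      rw [← Matrix.mul_assoc (b _)ᴴ (b _) (a z * _), e3, Matrix.one_mul,
        ← Matrix.mul_assoc (a _)ᴴ, e4, Matrix.one_mul, ← Matrix.mul_assoc (b _)ᴴ, e3,
        Matrix.one_mul, rtr_mul_comm, e2]
    rw [e1]
    refine (norm_trace_mul_le _ _).trans (le_of_eq ?_)
    rw [e2, e5]
    ring
  have h1 : ∀ z ∈ Complex.re ⁻¹' {1}, ‖F z‖ ≤ rtr (A * B) := by
    intro z hz
    have hz' : (z.re : ℂ) = 1 := by rw [show z.re = 1 from hz]; simp
    have e1 : F z = (p (1 - z) * b (z / 2) * a (z / 2) * (a (z / 2) * b (z / 2))).trace := by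
      rw [hF]
      simp only [trL_apply, Matrix.mul_assoc]
      rw [← Matrix.mul_assoc (a _) (a _), a1, add_halves]
    have e2 : (p (1 - z))ᴴ * p (1 - z) = 1 := by
      rw [p2, p1, ← p3]
      congr 1
      simp only [map_sub, map_one]
      linear_combination (-1) * hconj z - 2 * hz'
    have e3 : ∀ (c : ℂ → Matrix n n ℂ) (C : Matrix n n ℂ), (∀ z w, c z * c w = c (z + w)) →
        (∀ z, (c z)ᴴ = c (starRingEnd ℂ z)) → c 1 = C →
        (c (z / 2))ᴴ * c (z / 2) = C ∧ c (z / 2) * (c (z / 2))ᴴ = C := by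
      intro c C c1 c2 c4
      rw [c2, c1, c1, ← c4]
      simp only [map_div₀, map_ofNat]
      constructor <;> congr 1 <;> linear_combination (1 / 2) * hconj z + hz'
    obtain ⟨e4, e5⟩ := e3 a A a1 a2 a4
    obtain ⟨e6, e7⟩ := e3 b B b1 b2 b4
    have e8 : rtr (p (1 - z) * b (z / 2) * a (z / 2) * (p (1 - z) * b (z / 2) * a (z / 2))ᴴ) =
        rtr (A * B) := by
      rw [rtr_mul_comm]
      simp only [conjTranspose_mul, Matrix.mul_assoc]
      rw [← Matrix.mul_assoc (p _)ᴴ, e2, Matrix.one_mul, ← Matrix.mul_assoc (b _)ᴴ, e6,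
        ← Matrix.mul_assoc, rtr_mul_comm, ← Matrix.mul_assoc, e5]
    have e9 : rtr (a (z / 2) * b (z / 2) * (a (z / 2) * b (z / 2))ᴴ) = rtr (A * B) := by
      simp only [conjTranspose_mul, Matrix.mul_assoc]
      rw [← Matrix.mul_assoc (b _), e7, ← Matrix.mul_assoc, rtr_mul_comm, ← Matrix.mul_assoc, e4]
    rw [e1]
    refine (norm_trace_mul_le _ _).trans (le_of_eq ?_)
    rw [e8, e9]
    ring
  have hle : ∀ t : ℝ, 0 ≤ t → t ≤ 1 → (F t).re ≤ (1 - t) * rtr P + t * rtr (A * B) := by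
    intro t ht0 ht1
    have := Complex.HadamardThreeLines.norm_le_interp_of_mem_verticalClosedStrip₀₁' F
      (z := (t : ℂ)) ⟨by simpa using ht0, by simpa using ht1⟩ hdiff.diffContOnCl hbd h0 h1
    rw [Complex.ofReal_re] at this
    exact (Complex.re_le_norm _).trans (this.trans (Real.geom_mean_le_arith_mean2_weighted
      (by linarith) ht0 (rtr_nonneg hP.posSemidef)
      (rtr_mul_nonneg hA.posSemidef hB.posSemidef) (by ring)))
  have hF0 : (F (0 : ℝ)).re = rtr P := by
    simp [hF, trL_apply, p4, a3, b3, rtr]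
  have hd0 : HasDerivAt (fun t : ℝ => (F t).re) (rtr (P * (lg A + lg B)) - rtr (P * lg P)) 0 := by
    have := (hd ((0 : ℝ) : ℂ)).real_of_complex
    refine HasDerivAt.congr_deriv this ?_
    simp only [Complex.ofReal_zero, sub_zero, zero_div, p4, a3, b3, Pi.mul_apply, trL_apply,
      Matrix.mul_one, Matrix.one_mul, Matrix.mul_add, trace_add, Matrix.mul_smul, trace_smul,
      smul_eq_mul, rtr]
    simp
    ring
  have hlim := hd0.hasDerivWithinAt (s := Ioi 0)
  rw [hasDerivWithinAt_iff_tendsto_slope' (by simp)] at hlim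
  have := le_of_tendsto (b := rtr (A * B) - rtr P) hlim (by
    filter_upwards [Ioo_mem_nhdsGT (show (0 : ℝ) < 1 by norm_num)] with t ht
    rw [slope_def_field, hF0, sub_zero, div_le_iff₀ ht.1]
    linarith [hle t ht.1.le ht.2.le])
  linarith

end Vale.Agent.P371
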