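import Vale.Agent.P371.Basic

namespace Vale.Agent.P371

open MeasureTheory Matrix Set Filter Topology
open scoped ComplexOrder Matrix.Norms.L2Operator MatrixOrder

set_option linter.unusedSectionVars false

variable {n : Type*} [Fintype n] [DecidableEq n]

theorem continuous_Ip_integrand {p : ℝ} (hp : 1 < p) :
    Continuous fun t : ℝ => (1 - t ^ 2) ^ (p - 1) :=
  Continuous.rpow_const (by fun_prop) fun _ => Or.inr (by linarith)

theorem Ip_pos {p : ℝ} (hp : 1 < p) : 0 < Ip p := by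
  refine intervalIntegral.intervalIntegral_pos_of_pos_on
    ((continuous_Ip_integrand hp).intervalIntegrable _ _) (fun x hx => ?_) one_pos
  exact Real.rpow_pos_of_pos (by nlinarith [hx.1, hx.2]) _

theorem two_Ip {p : ℝ} (hp : 1 < p) : 2 * Ip p = ∫ t in (-1 : ℝ)..1, (1 - t ^ 2) ^ (p - 1) := by
  have hc := continuous_Ip_integrand hp
  rw [← intervalIntegral.integral_add_adjacent_intervals (hc.intervalIntegrable (-1) 0)
    (hc.intervalIntegrable 0 1), two_mul, Ip]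
  congr 1
  have := intervalIntegral.integral_comp_neg (a := 0) (b := 1)
    (fun t : ℝ => (1 - t ^ 2) ^ (p - 1))
  simpa using this

theorem two_Ip_eq {p : ℝ} (hp : 1 < p) :
    2 * Ip p * Real.Gamma (p + 1 / 2) = √Real.pi * Real.Gamma p := by
  have h1 : Complex.betaIntegral p p =
      ((∫ u in (0 : ℝ)..1, u ^ (p - 1) * (1 - u) ^ (p - 1) : ℝ) : ℂ) := by
    rw [← intervalIntegral.integral_ofReal, Complex.betaIntegral]
    refine intervalIntegral.integral_congr fun u hu => ?_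
    rw [uIcc_of_le zero_le_one] at hu
    rw [Complex.ofReal_mul, Complex.ofReal_cpow hu.1, Complex.ofReal_cpow (by linarith [hu.2])]
    push_cast
    rfl
  have h2 := Complex.Gamma_mul_Gamma_eq_betaIntegral (s := p) (t := p) (by simp; linarith)
    (by simp; linarith)
  rw [h1, ← Complex.ofReal_add, Complex.Gamma_ofReal, Complex.Gamma_ofReal] at h2
  have h3 : Real.Gamma p * Real.Gamma p =
      Real.Gamma (p + p) * ∫ u in (0 : ℝ)..1, u ^ (p - 1) * (1 - u) ^ (p - 1) := by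
    exact_mod_cast h2
  have h4 := intervalIntegral.integral_comp_mul_add (a := 0) (b := 1)
    (fun t : ℝ => (1 - t ^ 2) ^ (p - 1)) (c := 2) two_ne_zero (-1)
  have h5 : ∫ u in (0 : ℝ)..1, (1 - (2 * u + -1) ^ 2) ^ (p - 1) =
      (2 : ℝ) ^ (2 * p - 2) * ∫ u in (0 : ℝ)..1, u ^ (p - 1) * (1 - u) ^ (p - 1) := by
    rw [← intervalIntegral.integral_const_mul]
    refine intervalIntegral.integral_congr fun u hu => ?_
    rw [uIcc_of_le zero_le_one] at hu
    have h0 : 0 ≤ 1 - u := by linarith [hu.2]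
    rw [show 1 - (2 * u + -1) ^ 2 = 2 ^ (2 : ℝ) * (u * (1 - u)) by norm_num; ring,
      Real.mul_rpow (by positivity) (mul_nonneg hu.1 h0), Real.mul_rpow hu.1 h0,
      ← Real.rpow_mul zero_le_two]
    congr 2
    ring
  rw [h5, show (2 : ℝ) * 0 + -1 = -1 by norm_num, show (2 : ℝ) * 1 + -1 = 1 by norm_num,
    ← two_Ip hp, smul_eq_mul] at h4
  have h6 := Real.Gamma_mul_Gamma_add_half p
  have h7 : (2 : ℝ) ^ (2 * p - 2) * 2 ^ (1 - 2 * p) = 2⁻¹ := by
    rw [← Real.rpow_add two_pos, ← Real.rpow_neg_one]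
    congr 1
    ring
  have hg : 0 < Real.Gamma p := Real.Gamma_pos_of_pos (by linarith)
  rw [← two_mul] at h3
  refine mul_left_cancel₀ hg.ne' ?_
  generalize (∫ u in (0 : ℝ)..1, u ^ (p - 1) * (1 - u) ^ (p - 1)) = J at h3 h4
  calc _ = 2 * Ip p * (Real.Gamma p * Real.Gamma (p + 1 / 2)) := by ring
    _ = 2 * (2 ^ (2 * p - 2) * 2 ^ (1 - 2 * p)) * (Real.Gamma (2 * p) * J) * √Real.pi := by
      rw [h6, show 2 * Ip p = 2 * (2 ^ (2 * p - 2) * J) by rw [h4]; ring]
      ring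
    _ = _ := by
      rw [h7, ← h3]
      ring

theorem const_eq {γ : ℝ} (h1 : 1 / 2 < γ) :
    Cp (γ + 1 / 2) / (2 * Ip (γ + 1 / 2))
      = 2 * ((γ - 1 / 2) / (γ + 1 / 2)) ^ (γ - 1 / 2) *
        (Real.Gamma (γ + 1) / (2 * √Real.pi * Real.Gamma (γ + 3 / 2))) := by
  have hp : 1 < γ + 1 / 2 := by linarith
  have h2 := two_Ip_eq hp
  have h3 := Ip_pos hp
  have h4 : Real.Gamma (γ + 3 / 2) = (γ + 1 / 2) * Real.Gamma (γ + 1 / 2) := by
    rw [← Real.Gamma_add_one (by linarith)]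
    congr 1
    ring
  have hg : 0 < Real.Gamma (γ + 1 / 2) := Real.Gamma_pos_of_pos (by linarith)
  have hg' : 0 < Real.Gamma (γ + 1) := Real.Gamma_pos_of_pos (by linarith)
  have hπ : 0 < √Real.pi := Real.sqrt_pos.2 Real.pi_pos
  have h5 : (γ + 1 / 2) ^ (γ + 1 / 2) = (γ + 1 / 2) ^ (γ - 1 / 2) * (γ + 1 / 2) := by
    rw [← Real.rpow_add_one (by linarith)]
    congr 1
    ring
  rw [show γ + 1 / 2 + 1 / 2 = γ + 1 by ring] at h2
  have h6 : 2 * Ip (γ + 1 / 2) = √Real.pi * Real.Gamma (γ + 1 / 2) / Real.Gamma (γ + 1) := by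
    rw [← h2]
    field_simp
  have h7 : 0 < (γ + 1 / 2) ^ (γ - 1 / 2) := Real.rpow_pos_of_pos (by linarith) _
  rw [h6, h4, Cp, h5, show γ + 1 / 2 - 1 = γ - 1 / 2 by ring,
    Real.div_rpow (by linarith) (by linarith)]
  have h8 : 0 < γ + 1 / 2 := by linarith
  generalize γ + 1 / 2 = p at *
  field_simp

end Vale.Agent.P371
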