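import Vale.Agent.P371.Spec

namespace Vale.Agent.P371

open MeasureTheory Matrix Set Filter Topology
open scoped ComplexOrder Matrix.Norms.L2Operator MatrixOrder

set_option linter.unusedSectionVars false

variable {n : Type*} [Fintype n] [DecidableEq n]

theorem intervalIntegrable_of_memLp {E : Type*} [NormedAddCommGroup E] {u : ℝ → E}
    (h : MemLp u 2 volume) (a b : ℝ) : IntervalIntegrable u volume a b :=
  ((h.locallyIntegrable one_le_two).integrableOn_isCompact isCompact_uIcc).intervalIntegrable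

theorem IsH1.continuous {u u' : ℝ → ℂ} (h : IsH1 u u') : Continuous u := by
  have : u = fun y => u 0 + ∫ t in (0 : ℝ)..y, u' t := funext fun y => by rw [← h.ftc]; ring
  rw [this]
  exact continuous_const.add
    (intervalIntegral.continuous_primitive (intervalIntegrable_of_memLp h.memLp') 0)

theorem IsH1.star {u u' : ℝ → ℂ} (h : IsH1 u u') :
    IsH1 (fun x => star (u x)) (fun x => star (u' x)) := by
  refine ⟨h.memLp.star, h.memLp'.star, fun x y => ?_⟩
  rw [← star_sub, h.ftc]
  exact intervalIntegral.intervalIntegral_conj.symm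

theorem IsH1.sum {ι : Type*} (s : Finset ι) (c : ι → ℂ) {u u' : ι → ℝ → ℂ}
    (h : ∀ i ∈ s, IsH1 (u i) (u' i)) :
    IsH1 (fun x => ∑ i ∈ s, c i * u i x) (fun x => ∑ i ∈ s, c i * u' i x) := by
  refine ⟨memLp_finset_sum s fun i hi => (h i hi).memLp.const_mul _,
    memLp_finset_sum s fun i hi => (h i hi).memLp'.const_mul _, fun x y => ?_⟩
  rw [intervalIntegral.integral_finset_sum fun i hi =>
    (intervalIntegrable_of_memLp (h i hi).memLp' x y).const_mul _, ← Finset.sum_sub_distrib]
  refine Finset.sum_congr rfl fun i hi => ?_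
  rw [intervalIntegral.integral_const_mul, ← (h i hi).ftc, mul_sub]

theorem ac_primitive {a b : ℝ} {f : ℝ → ℂ} (hf : IntervalIntegrable f volume a b) (c : ℂ) :
    AbsolutelyContinuousOnInterval (fun y => c + ∫ t in a..y, f t) a b := by
  have h := hf.norm.absolutelyContinuousOnInterval_intervalIntegral left_mem_uIcc
  rw [absolutelyContinuousOnInterval_iff] at h ⊢
  intro ε hε
  obtain ⟨δ, hδ, H⟩ := h ε hε
  refine ⟨δ, hδ, fun E hE h1 => lt_of_le_of_lt (Finset.sum_le_sum fun i hi => ?_) (H E hE h1)⟩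
  have i1 := hf.mono_set (uIcc_subset_uIcc left_mem_uIcc (hE.1 i hi).1)
  have i2 := hf.mono_set (uIcc_subset_uIcc left_mem_uIcc (hE.1 i hi).2)
  rw [dist_add_left, dist_eq_norm, Real.dist_eq,
    intervalIntegral.integral_interval_sub_left i1 i2,
    intervalIntegral.integral_interval_sub_left i1.norm i2.norm]
  exact intervalIntegral.norm_integral_le_abs_integral_norm

/-- Product rule in integrated form. -/
theorem ftc_mul {a b : ℝ} (hab : a ≤ b) {u u' v v' : ℝ → ℂ}
    (hu' : IntervalIntegrable u' volume a b) (hv' : IntervalIntegrable v' volume a b)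
    (hu : ∀ y ∈ Icc a b, u y - u a = ∫ t in a..y, u' t)
    (hv : ∀ y ∈ Icc a b, v y - v a = ∫ t in a..y, v' t) :
    ∀ y ∈ Icc a b, u y * v y - u a * v a = ∫ t in a..y, (u' t * v t + u t * v' t) := by
  rw [← uIcc_of_le hab] at hu hv ⊢
  have hU := ac_primitive hu' (u a)
  have hV := ac_primitive hv' (v a)
  have eU : ∀ y ∈ uIcc a b, u a + ∫ t in a..y, u' t = u y := fun y hy => by rw [← hu y hy]; ring
  have eV : ∀ y ∈ uIcc a b, v a + ∫ t in a..y, v' t = v y := fun y hy => by rw [← hv y hy]; ring
  have cU : ContinuousOn u (uIcc a b) := hU.continuousOn.congr fun y hy => (eU y hy).symm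
  have cV : ContinuousOn v (uIcc a b) := hV.continuousOn.congr fun y hy => (eV y hy).symm
  have hw : IntervalIntegrable (fun t => u' t * v t + u t * v' t) volume a b :=
    (hu'.mul_continuousOn cV).add (hv'.continuousOn_mul cU)
  obtain ⟨C, hC⟩ := ((hU.smul hV).sub (ac_primitive hw 0)).const_of_ae_hasDerivAt_zero (by
    filter_upwards [hu'.ae_hasDerivAt_integral, hv'.ae_hasDerivAt_integral,
      hw.ae_hasDerivAt_integral] with x h1 h2 h3 hx
    have := ((((h1 hx a left_mem_uIcc).const_add (u a)).mul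
      ((h2 hx a left_mem_uIcc).const_add (v a))).sub ((h3 hx a left_mem_uIcc).const_add 0))
    rw [eU x hx, eV x hx, sub_self] at this
    exact this)
  intro y hy
  have h1 := hC y hy
  have h2 := hC a left_mem_uIcc
  simp only [Pi.sub_apply, Pi.smul_apply', smul_eq_mul, Pi.mul_apply, eU y hy, eV y hy,
    intervalIntegral.integral_same, add_zero, zero_add, sub_zero] at h1 h2
  rw [h2, ← h1]
  ring

theorem IsH1.tendsto_atTop {u u' : ℝ → ℂ} (h : IsH1 u u') : Tendsto u atTop (𝓝 0) := by
  have hs := h.star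
  have i1 : Integrable (fun t => u' t * Star.star (u t) + u t * Star.star (u' t)) volume :=
    (h.memLp'.integrable_mul hs.memLp).add (h.memLp.integrable_mul hs.memLp')
  have i2 : Integrable (fun t => u t * Star.star (u t)) volume := h.memLp.integrable_mul hs.memLp
  have t1 := (intervalIntegral_tendsto_integral_Ioi 0 i1.integrableOn tendsto_id).const_add
    (u 0 * Star.star (u 0))
  have t2 : Tendsto (fun t => u t * Star.star (u t)) atTop _ := t1.congr' (by
    filter_upwards [eventually_ge_atTop (0 : ℝ)] with y hy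
    rw [id, ← ftc_mul hy (intervalIntegrable_of_memLp h.memLp' _ _)
      (intervalIntegrable_of_memLp hs.memLp' _ _) (fun y _ => h.ftc 0 y) (fun y _ => hs.ftc 0 y) y
      ⟨hy, le_rfl⟩]
    ring)
  rw [(i2.integrableAtFilter atTop).eq_zero_of_tendsto (fun s hs => by
    obtain ⟨c, hc⟩ := mem_atTop_sets.1 hs
    exact top_le_iff.1 (Real.volume_Ici.ge.trans (measure_mono (fun x hx => hc x hx)))) t2] at t2
  rw [tendsto_zero_iff_norm_tendsto_zero] at t2 ⊢
  have t3 := (Real.continuous_sqrt.tendsto 0).comp t2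
  rw [Real.sqrt_zero] at t3
  refine t3.congr fun x => ?_
  simp

theorem IsH1.tendsto_atBot {u u' : ℝ → ℂ} (h : IsH1 u u') : Tendsto u atBot (𝓝 0) := by
  have h' : IsH1 (fun x => u (-x)) (fun x => -u' (-x)) := by
    refine ⟨h.memLp.comp_measurePreserving (Measure.measurePreserving_neg volume),
      (h.memLp'.comp_measurePreserving (Measure.measurePreserving_neg volume)).neg, fun x y => ?_⟩
    rw [intervalIntegral.integral_neg, intervalIntegral.integral_comp_neg,
      ← intervalIntegral.integral_symm, h.ftc]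
  simpa [Function.comp_def] using h'.tendsto_atTop.comp tendsto_neg_atBot_atTop

theorem IsH1.bounded {u u' : ℝ → ℂ} (h : IsH1 u u') : ∃ C : ℝ, ∀ x, ‖u x‖ ≤ C := by
  have : Tendsto u (cocompact ℝ) (𝓝 0) := by
    rw [cocompact_eq_atBot_atTop]
    exact h.tendsto_atBot.sup h.tendsto_atTop |>.mono_right (by simp)
  obtain ⟨C, hC⟩ :=
    (this.isCompact_insert_range_of_cocompact h.continuous).isBounded.exists_norm_le
  exact ⟨C, fun x => hC _ (Or.inr ⟨x, rfl⟩)⟩

theorem H1.isH1 {m : ℕ} (ψ : H1 m) (i : Fin m) :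
    IsH1 (fun x => ψ.toFun x i) (fun x => ψ.deriv x i) := by
  refine ⟨ψ.memLp_toFun.eval i, ψ.memLp_deriv.eval i, fun x y => ?_⟩
  have := (ContinuousLinearMap.proj (R := ℝ) (φ := fun _ : Fin m => ℂ) i).intervalIntegral_comp_comm
    (intervalIntegrable_of_memLp ψ.memLp_deriv x y)
  rw [← ψ.sub_eq_integral] at this
  exact this.symm

end Vale.Agent.P371
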