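import Vale.Agent.P371.Spec

namespace Vale.Agent.P371

open MeasureTheory Matrix Set Filter Topology
open scoped ComplexOrder Matrix.Norms.L2Operator MatrixOrder

set_option linter.unusedSectionVars false

variable {n : Type*} [Fintype n] [DecidableEq n]

namespace LogDeriv

theorem scalar_log {x : ℝ} (hx : 0 < x) :
    IntegrableOn (fun t : ℝ => (1 + t)⁻¹ - (x + t)⁻¹) (Ioi 0) ∧
      ∫ t in Ioi (0 : ℝ), ((1 + t)⁻¹ - (x + t)⁻¹) = Real.log x := by
  have hd : ∀ t ∈ Ici (0 : ℝ), HasDerivAt (fun t => Real.log (1 + t) - Real.log (x + t))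
      ((1 + t)⁻¹ - (x + t)⁻¹) t := by
    intro t ht
    have ht' : 0 ≤ t := ht
    have h1 := ((hasDerivAt_id t).const_add 1).log (show 1 + id t ≠ 0 by simp; linarith)
    have h2 := ((hasDerivAt_id t).const_add x).log (show x + id t ≠ 0 by simp; linarith)
    simpa using h1.fun_sub h2
  have hl : Tendsto (fun t => Real.log (1 + t) - Real.log (x + t)) atTop (𝓝 0) := by
    have h1 : Tendsto (fun t : ℝ => 1 + (1 - x) * (x + t)⁻¹) atTop (𝓝 (1 + (1 - x) * 0)) :=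
      ((tendsto_inv_atTop_zero.comp (tendsto_atTop_add_const_left _ x tendsto_id)).const_mul
        _).const_add 1
    rw [mul_zero, add_zero] at h1
    have h2 := h1.log one_ne_zero
    rw [Real.log_one] at h2
    refine h2.congr' ?_
    filter_upwards [eventually_gt_atTop 0] with t ht
    rw [← Real.log_div (by linarith) (by linarith)]
    congr 1
    field_simp
    ring
  have hi : IntegrableOn (fun t : ℝ => (1 + t)⁻¹ - (x + t)⁻¹) (Ioi 0) := by
    rcases le_total 1 x with h | h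
    · refine integrableOn_Ioi_deriv_of_nonneg' hd (fun t ht => ?_) hl
      have ht' : 0 < t := ht
      exact sub_nonneg.mpr (inv_anti₀ (by linarith) (by linarith))
    · refine integrableOn_Ioi_deriv_of_nonpos' hd (fun t ht => ?_) hl
      have ht' : 0 < t := ht
      exact sub_nonpos.mpr (inv_anti₀ (by linarith) (by linarith))
  refine ⟨hi, ?_⟩
  rw [integral_Ioi_of_hasDerivAt_of_tendsto' hd hi hl]
  simp

theorem scalar_sq {c : ℝ} (hc : 0 < c) :
    IntegrableOn (fun t : ℝ => (c + t)⁻¹ * (c + t)⁻¹) (Ioi 0) := by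
  have hd : ∀ t ∈ Ici (0 : ℝ), HasDerivAt (fun t => -(c + t)⁻¹) ((c + t)⁻¹ * (c + t)⁻¹) t := by
    intro t ht
    have ht' : 0 ≤ t := ht
    have h1 := (((hasDerivAt_id t).const_add c).fun_inv
      (show c + id t ≠ 0 by simp; linarith)).fun_neg
    refine HasDerivAt.congr_deriv h1 ?_
    simp only [id]
    field_simp
  have hl : Tendsto (fun t => -(c + t)⁻¹) atTop (𝓝 (-0)) :=
    (tendsto_inv_atTop_zero.comp (tendsto_atTop_add_const_left _ c tendsto_id)).neg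
  refine integrableOn_Ioi_deriv_of_nonneg' hd (fun t _ => mul_self_nonneg _) hl

/-- the resolvent -/
noncomputable def Rs (B : Matrix n n ℂ) (t : ℝ) : Matrix n n ℂ := cfc (fun x : ℝ => (x + t)⁻¹) B

theorem add_eq_cfc {B : Matrix n n ℂ} (hB : B.IsHermitian) (t : ℝ) :
    B + t • (1 : Matrix n n ℂ) = cfc (fun x : ℝ => x + t) B := by
  rw [cfc_add' (fun x => x) (fun _ => t), cfc_id_eq hB, cfc_const' t hB]

variable {A B : Matrix n n ℂ} {c t : ℝ}

theorem inv_eq_Rs (hB : B.IsHermitian) (hc : 0 < c) (hs : ∀ a ∈ spectrum ℝ B, c ≤ a)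
    (ht : 0 < t) : (B + t • (1 : Matrix n n ℂ))⁻¹ = Rs B t := by
  rw [add_eq_cfc hB, inv_cfc hB fun a ha => by linarith [hs a ha], Rs]

theorem Rs_mul (hB : B.IsHermitian) (hc : 0 < c) (hs : ∀ a ∈ spectrum ℝ B, c ≤ a)
    (ht : 0 < t) : Rs B t * (B + t • (1 : Matrix n n ℂ)) = 1 := by
  rw [add_eq_cfc hB, Rs, ← cfc_mul', ← cfc_one ℝ B hB.isSelfAdjoint]
  exact cfc_congr fun a ha => inv_mul_cancel₀ (by linarith [hs a ha])

theorem mul_Rs (hB : B.IsHermitian) (hc : 0 < c) (hs : ∀ a ∈ spectrum ℝ B, c ≤ a)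
    (ht : 0 < t) : (B + t • (1 : Matrix n n ℂ)) * Rs B t = 1 := by
  rw [add_eq_cfc hB, Rs, ← cfc_mul', ← cfc_one ℝ B hB.isSelfAdjoint]
  exact cfc_congr fun a ha => mul_inv_cancel₀ (by linarith [hs a ha])

theorem norm_Rs (hc : 0 < c) (hs : ∀ a ∈ spectrum ℝ B, c ≤ a) (ht : 0 < t) :
    ‖Rs B t‖ ≤ (c + t)⁻¹ := by
  refine norm_cfc_le (by positivity) fun a ha => ?_
  have := hs a ha
  rw [Real.norm_of_nonneg (inv_nonneg.mpr (by linarith))]
  exact inv_anti₀ (by linarith) (by linarith)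

theorem continuousOn_Rs (hB : B.IsHermitian) (hc : 0 < c) (hs : ∀ a ∈ spectrum ℝ B, c ≤ a) :
    ContinuousOn (Rs B) (Ioi 0) := by
  intro t ht
  have ht' : 0 < t := ht
  have := hasDerivAt_cfc hB (fun l x => (x + l)⁻¹) (fun x => -1 / (x + t) ^ 2) t fun a ha => by
    have h1 := ((hasDerivAt_id t).const_add a).fun_inv
      (show a + id t ≠ 0 by simp; linarith [hs a ha])
    simpa using h1
  exact this.continuousAt.continuousWithinAt

theorem exists_proj (hB : B.IsHermitian) :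
    ∃ (P : n → Matrix n n ℂ) (α : n → ℝ), spectrum ℝ B = range α ∧
      ∀ f : ℝ → ℝ, cfc f B = ∑ i, f (α i) • P i := by
  obtain ⟨U, α, -, -, h3, h4⟩ := exists_diag hB
  refine ⟨fun i => U * diagonal (Pi.single i 1) * Uᴴ, α, h3, fun f => ?_⟩
  have : diagonal (fun i => (f (α i) : ℂ)) = ∑ i, f (α i) • diagonal (Pi.single i (1 : ℂ)) := by
    ext i j
    by_cases h : i = j
    · subst h
      simp [Matrix.sum_apply, Pi.single_apply]
    · simp [Matrix.sum_apply, h]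
  rw [h4, this, Matrix.mul_sum, Matrix.sum_mul]
  simp only [Matrix.mul_smul, Matrix.smul_mul]

theorem lg_eq (hB : B.IsHermitian) (hc : 0 < c) (hs : ∀ a ∈ spectrum ℝ B, c ≤ a) :
    IntegrableOn (fun t : ℝ => (1 + t)⁻¹ • (1 : Matrix n n ℂ) - Rs B t) (Ioi 0) ∧
      ∫ t in Ioi (0 : ℝ), ((1 + t)⁻¹ • (1 : Matrix n n ℂ) - Rs B t) = lg B := by
  obtain ⟨P, α, h1, h2⟩ := exists_proj hB
  have hα : ∀ i, 0 < α i := fun i => hc.trans_le (hs _ (h1 ▸ mem_range_self i))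
  have e : ∀ t : ℝ, (1 + t)⁻¹ • (1 : Matrix n n ℂ) - Rs B t
      = ∑ i, ((1 + t)⁻¹ - (α i + t)⁻¹) • P i := by
    intro t
    rw [← cfc_const' _ hB, Rs, ← cfc_sub', h2]
  have hi : ∀ i, IntegrableOn (fun t : ℝ => ((1 + t)⁻¹ - (α i + t)⁻¹) • P i) (Ioi 0) :=
    fun i => (scalar_log (hα i)).1.smul_const (P i)
  simp only [e]
  refine ⟨integrable_finsetSum _ fun i _ => hi i, ?_⟩
  rw [integral_finsetSum _ fun i _ => hi i, lg, h2]
  refine Finset.sum_congr rfl fun i _ => ?_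
  rw [integral_smul_const, (scalar_log (hα i)).2]

theorem integrable_RER (hA : A.IsHermitian) (hc : 0 < c) (hs : ∀ a ∈ spectrum ℝ A, c ≤ a)
    (E : Matrix n n ℂ) : IntegrableOn (fun t => Rs A t * E * Rs A t) (Ioi 0) := by
  have h := continuousOn_Rs hA hc hs
  refine ((scalar_sq hc).const_mul ‖E‖).mono'
    (((h.mul continuousOn_const).mul h).aestronglyMeasurable measurableSet_Ioi) ?_
  filter_upwards [ae_restrict_mem measurableSet_Ioi] with t ht
  have ht' : 0 < t := ht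
  have h1 := norm_Rs hc hs ht'
  calc ‖Rs A t * E * Rs A t‖ ≤ ‖Rs A t‖ * ‖E‖ * ‖Rs A t‖ :=
        (norm_mul_le _ _).trans (mul_le_mul_of_nonneg_right (norm_mul_le _ _) (norm_nonneg _))
    _ ≤ (c + t)⁻¹ * ‖E‖ * (c + t)⁻¹ := by gcongr
    _ = _ := by ring

/-- the derivative of the logarithm at `A` -/
noncomputable def Dlg (hA : A.IsHermitian) (hc : 0 < c) (hs : ∀ a ∈ spectrum ℝ A, c ≤ a) :
    Matrix n n ℂ →L[ℝ] Matrix n n ℂ :=
  LinearMap.toContinuousLinearMap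
    { toFun := fun E => ∫ t in Ioi (0 : ℝ), Rs A t * E * Rs A t
      map_add' := fun E F => by
        rw [← integral_add (integrable_RER hA hc hs E) (integrable_RER hA hc hs F)]
        simp only [Matrix.mul_add, Matrix.add_mul]
      map_smul' := fun r E => by
        simp only [Matrix.mul_smul, Matrix.smul_mul, RingHom.id_apply]
        exact integral_smul _ _ }

theorem Dlg_apply (hA : A.IsHermitian) (hc : 0 < c) (hs : ∀ a ∈ spectrum ℝ A, c ≤ a)
    (E : Matrix n n ℂ) : Dlg hA hc hs E = ∫ t in Ioi (0 : ℝ), Rs A t * E * Rs A t := rfl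

theorem remainder (hA : A.IsHermitian) (hB : B.IsHermitian) (hc : 0 < c)
    (hs : ∀ a ∈ spectrum ℝ A, c ≤ a) (hs' : ∀ a ∈ spectrum ℝ B, c ≤ a) :
    ‖lg B - lg A - Dlg hA hc hs (B - A)‖ ≤
      (c⁻¹ * ∫ t in Ioi (0 : ℝ), (c + t)⁻¹ * (c + t)⁻¹) * ‖B - A‖ ^ 2 := by
  obtain ⟨a1, a2⟩ := lg_eq hA hc hs
  obtain ⟨b1, b2⟩ := lg_eq hB hc hs'
  have c1 : Integrable (fun t : ℝ => (1 + t)⁻¹ • (1 : Matrix n n ℂ) - Rs B t -
      ((1 + t)⁻¹ • (1 : Matrix n n ℂ) - Rs A t)) (volume.restrict (Ioi 0)) := b1.sub a1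
  rw [← a2, ← b2, Dlg_apply, ← integral_sub b1 a1,
    ← integral_sub c1 (integrable_RER hA hc hs _), ← integral_const_mul,
    ← integral_mul_const]
  refine norm_integral_le_of_norm_le (((scalar_sq hc).const_mul _).mul_const _) ?_
  filter_upwards [ae_restrict_mem measurableSet_Ioi] with t ht
  have ht' : 0 < t := ht
  have e1 : Rs A t - Rs B t = Rs B t * (B - A) * Rs A t := by
    have : B - A = (B + t • (1 : Matrix n n ℂ)) - (A + t • (1 : Matrix n n ℂ)) := by abel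
    rw [this, Matrix.mul_sub, Matrix.sub_mul, Rs_mul hB hc hs' ht', Matrix.one_mul,
      Matrix.mul_assoc, mul_Rs hA hc hs ht', Matrix.mul_one]
  have e2 : (1 + t)⁻¹ • (1 : Matrix n n ℂ) - Rs B t - ((1 + t)⁻¹ • (1 : Matrix n n ℂ) - Rs A t)
      - Rs A t * (B - A) * Rs A t = -(Rs B t * (B - A) * Rs A t * (B - A) * Rs A t) := by
    have : (1 + t)⁻¹ • (1 : Matrix n n ℂ) - Rs B t - ((1 + t)⁻¹ • (1 : Matrix n n ℂ) - Rs A t)
        = Rs A t - Rs B t := by abel
    rw [this, ← e1]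
    conv_lhs => rw [e1]
    simp only [Matrix.sub_mul]
    abel
  rw [e2, norm_neg]
  have h1 := norm_Rs hc hs ht'
  have h2 : ‖Rs B t‖ ≤ c⁻¹ := (norm_Rs hc hs' ht').trans (inv_anti₀ hc (by linarith))
  calc ‖Rs B t * (B - A) * Rs A t * (B - A) * Rs A t‖
      ≤ ‖Rs B t‖ * ‖B - A‖ * ‖Rs A t‖ * ‖B - A‖ * ‖Rs A t‖ := by
        refine (norm_mul_le _ _).trans (mul_le_mul_of_nonneg_right ?_ (norm_nonneg _))
        refine (norm_mul_le _ _).trans (mul_le_mul_of_nonneg_right ?_ (norm_nonneg _))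
        refine (norm_mul_le _ _).trans (mul_le_mul_of_nonneg_right ?_ (norm_nonneg _))
        exact norm_mul_le _ _
    _ ≤ c⁻¹ * ‖B - A‖ * (c + t)⁻¹ * ‖B - A‖ * (c + t)⁻¹ := by gcongr
    _ = _ := by ring

theorem spec_near (hA : A.IsHermitian) (hB : B.IsHermitian)
    (hs : ∀ a ∈ spectrum ℝ A, 2 * c ≤ a) (hn : ‖B - A‖ ≤ c) : ∀ a ∈ spectrum ℝ B, c ≤ a := by
  intro a ha
  refine le_of_mem_spectrum ?_ ha
  have h1 := (posSemidef_sub_of_spectrum hA hs).nonneg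
  have h2 := (hB.sub hA).isSelfAdjoint.neg_algebraMap_norm_le_self
  rw [Algebra.algebraMap_eq_smul_one] at h2
  have h3 : (0 : Matrix n n ℂ) ≤ (c - ‖B - A‖) • (1 : Matrix n n ℂ) :=
    smul_nonneg (sub_nonneg.mpr hn) zero_le_one
  have h4 := add_nonneg (add_nonneg h1 (sub_nonneg.mpr h2)) h3
  have e : A - (2 * c) • (1 : Matrix n n ℂ) + (B - A - -(‖B - A‖ • (1 : Matrix n n ℂ))) +
      (c - ‖B - A‖) • (1 : Matrix n n ℂ) = B - c • (1 : Matrix n n ℂ) := by
    module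
  rw [e] at h4
  exact h4.posSemidef

end LogDeriv

open LogDeriv in
/-- Derivative of the matrix logarithm along a differentiable Hermitian path. -/
theorem exists_hasDerivAt_lg {A : ℝ → Matrix n n ℂ} {E : Matrix n n ℂ} {l0 : ℝ}
    (hH : ∀ᶠ l in 𝓝 l0, (A l).IsHermitian) (hA : (A l0).PosDef) (hd : HasDerivAt A E l0) :
    ∃ D : Matrix n n ℂ, HasDerivAt (fun l => lg (A l)) D l0 ∧
      ∀ X : Matrix n n ℂ, rtr (X * D) = ∫ t in Ioi (0 : ℝ),
        rtr (X * (A l0 + t • (1 : Matrix n n ℂ))⁻¹ * E * (A l0 + t • (1 : Matrix n n ℂ))⁻¹) := by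
  have hA0 := hA.isHermitian
  obtain ⟨c', hc', hs2⟩ := (A l0).finite_real_spectrum.isCompact.exists_forall_le'
    (f := fun x : ℝ => x) continuousOn_id (a := 0) fun a ha => pos_of_mem_spectrum hA ha
  obtain ⟨c, hc, rfl⟩ : ∃ c : ℝ, 0 < c ∧ c' = 2 * c := ⟨c' / 2, by linarith, by ring⟩
  have hs : ∀ a ∈ spectrum ℝ (A l0), c ≤ a := fun a ha => by linarith [hs2 a ha]
  refine ⟨Dlg hA0 hc hs E, ?_, fun X => ?_⟩
  · have h1 : HasDerivAt (fun l => Dlg hA0 hc hs (A l)) (Dlg hA0 hc hs E) l0 :=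
      (Dlg hA0 hc hs).hasFDerivAt.comp_hasDerivAt l0 hd
    have hn : ∀ᶠ l in 𝓝 l0, ‖A l - A l0‖ ≤ c := by
      have := (tendsto_iff_norm_sub_tendsto_zero.mp hd.continuousAt).eventually_le_const hc
      exact this
    have h2 : HasDerivAt (fun l => lg (A l) - Dlg hA0 hc hs (A l)) 0 l0 := by
      rw [hasDerivAt_iff_isLittleO]
      have o1 : (fun l => lg (A l) - Dlg hA0 hc hs (A l) - (lg (A l0) - Dlg hA0 hc hs (A l0))
          - (l - l0) • (0 : Matrix n n ℂ)) =O[𝓝 l0] fun l => ‖A l - A l0‖ ^ 2 := by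
        refine Asymptotics.IsBigO.of_bound (c⁻¹ * ∫ t in Ioi (0 : ℝ), (c + t)⁻¹ * (c + t)⁻¹) ?_
        filter_upwards [hH, hn] with l a1 a2
        have := remainder hA0 a1 hc hs (spec_near hA0 a1 hs2 a2)
        rw [Real.norm_of_nonneg (sq_nonneg _)]
        refine le_of_eq_of_le ?_ this
        congr 1
        rw [map_sub, smul_zero]
        abel
      have o2 : (fun l => ‖A l - A l0‖ ^ 2) =O[𝓝 l0] fun l => ‖l - l0‖ ^ 2 :=
        hd.isBigO_sub.norm_norm.pow 2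
      exact (o1.trans o2).trans_isLittleO (Asymptotics.isLittleO_pow_sub_sub l0 one_lt_two)
    have h3 := h2.fun_add h1
    simpa using h3
  · have h1 := ((rtrL n).comp (ContinuousLinearMap.mul ℝ (Matrix n n ℂ) X)).integral_comp_comm
      (integrable_RER hA0 hc hs E)
    simp only [ContinuousLinearMap.comp_apply, ContinuousLinearMap.mul_apply', rtrL_apply] at h1
    rw [Dlg_apply, ← h1]
    refine setIntegral_congr_fun measurableSet_Ioi fun t ht => ?_
    simp only [inv_eq_Rs hA0 hc hs ht, Matrix.mul_assoc]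

end Vale.Agent.P371
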