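import Vale.Agent.P371.H1
import Vale.Agent.P371.GammaC

namespace Vale.Agent.P371

open MeasureTheory Matrix Set Filter Topology
open scoped ComplexOrder Matrix.Norms.L2Operator MatrixOrder

set_option linter.unusedSectionVars false

variable {n : Type*} [Fintype n] [DecidableEq n]

namespace Lower

/-- integration by parts on the line. -/
lemma ibp {f f' g g' : ℝ → ℂ} (hf : IsH1 f f') (hg : IsH1 g g') :
    (∫ x, f' x * g x) + ∫ x, f x * g' x = 0 := by
  have i1 : Integrable (fun x => f' x * g x) := hf.memLp'.integrable_mul hg.memLp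
  have i2 : Integrable (fun x => f x * g' x) := hf.memLp.integrable_mul hg.memLp'
  rw [← integral_add i1 i2]
  have hl : ∀ {u : ℝ → ℂ}, MemLp u 2 volume → ∀ a b : ℝ, IntervalIntegrable u volume a b :=
    fun hu a b => ((hu.locallyIntegrable (by norm_num)).integrableOn_isCompact
      isCompact_uIcc).intervalIntegrable
  have h1 := intervalIntegral_tendsto_integral (i1.add i2) tendsto_neg_atTop_atBot tendsto_id
  have h2 : Tendsto (fun T : ℝ => f T * g T - f (-T) * g (-T)) atTop (𝓝 (0 * 0 - 0 * 0)) :=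
    (hf.tendsto_atTop.mul hg.tendsto_atTop).sub
      ((hf.tendsto_atBot.mul hg.tendsto_atBot).comp tendsto_neg_atTop_atBot)
  simp only [mul_zero, sub_zero] at h2
  refine tendsto_nhds_unique h1 (h2.congr' ?_)
  filter_upwards [eventually_ge_atTop (0 : ℝ)] with T hT
  exact ftc_mul (by linarith : -T ≤ T) (hl hf.memLp' _ _) (hl hg.memLp' _ _)
    (fun y _ => hf.ftc _ _) (fun y _ => hg.ftc _ _) T ⟨by linarith, le_rfl⟩

/-- the optimal eigenfunction. -/
noncomputable def u (a x : ℝ) : ℝ := Real.cosh x ^ (-a)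

lemma u_pos (a x : ℝ) : 0 < u a x := Real.rpow_pos_of_pos (Real.cosh_pos x) _

lemma hasDerivAt_tanh (x : ℝ) : HasDerivAt Real.tanh (1 / Real.cosh x ^ 2) x := by
  have h := (Real.hasDerivAt_sinh x).div (Real.hasDerivAt_cosh x) (Real.cosh_pos x).ne'
  have e : Real.tanh = Real.sinh / Real.cosh := by
    funext y; simp [Real.tanh_eq_sinh_div_cosh]
  rw [e]
  refine h.congr_deriv ?_
  congr 1
  have := Real.cosh_sq x
  linarith

lemma tanh_sq (x : ℝ) : 1 - Real.tanh x ^ 2 = 1 / Real.cosh x ^ 2 := by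
  have := (Real.cosh_pos x).ne'
  rw [Real.tanh_eq_sinh_div_cosh]
  field_simp
  rw [Real.cosh_sq]; ring

lemma continuous_tanh : Continuous Real.tanh :=
  continuous_iff_continuousAt.2 fun x => (hasDerivAt_tanh x).continuousAt

lemma hasDerivAt_u (a x : ℝ) : HasDerivAt (u a) (-a * Real.tanh x * u a x) x := by
  have h := (Real.hasDerivAt_cosh x).rpow_const (p := -a) (Or.inl (Real.cosh_pos x).ne')
  refine h.congr_deriv ?_
  rw [Real.rpow_sub_one (Real.cosh_pos x).ne', Real.tanh_eq_sinh_div_cosh, u]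
  ring

lemma continuous_u (a : ℝ) : Continuous (u a) :=
  continuous_iff_continuousAt.2 fun x => (hasDerivAt_u a x).continuousAt

lemma hasDerivAt_u1 (a x : ℝ) : HasDerivAt (fun y => -a * Real.tanh y * u a y)
    ((a ^ 2 - a * (a + 1) / Real.cosh x ^ 2) * u a x) x := by
  have h := ((hasDerivAt_tanh x).const_mul (-a)).mul (hasDerivAt_u a x)
  refine h.congr_deriv ?_
  have := tanh_sq x
  linear_combination (-(a ^ 2 * u a x)) * this

lemma integrable_u {b : ℝ} (hb : 0 < b) : Integrable (u b) := by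
  have key : ∀ x y : ℝ, Real.exp y / 2 ≤ Real.cosh x → ‖u b x‖ ≤ 2 ^ b * Real.exp (-b * y) := by
    intro x y h
    rw [Real.norm_eq_abs, abs_of_pos (u_pos b x), u]
    refine (Real.rpow_le_rpow_of_nonpos (by positivity) h (by linarith)).trans (le_of_eq ?_)
    rw [Real.div_rpow (Real.exp_pos y).le (by norm_num), ← Real.exp_mul, Real.rpow_neg (by norm_num),
      div_inv_eq_mul, mul_comm, mul_comm y]
  rw [← integrableOn_univ, ← Iic_union_Ioi (a := (0 : ℝ))]
  refine IntegrableOn.union ?_ ?_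
  · refine ((integrableOn_exp_mul_Iic hb 0).const_mul (2 ^ b)).mono'
      (continuous_u b).aestronglyMeasurable (Eventually.of_forall fun x => ?_)
    have := key x (-x) (by rw [Real.cosh_eq]; have := Real.exp_pos x; linarith)
    simpa using this
  · refine ((exp_neg_integrableOn_Ioi 0 hb).const_mul (2 ^ b)).mono'
      (continuous_u b).aestronglyMeasurable (Eventually.of_forall fun x => ?_)
    exact key x x (by rw [Real.cosh_eq]; have := Real.exp_pos (-x); linarith)

lemma u_sq (a x : ℝ) : u a x ^ 2 = u (2 * a) x := by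
  unfold u
  rw [← Real.rpow_natCast, ← Real.rpow_mul (Real.cosh_pos x).le]
  congr 1; push_cast; ring

lemma memLp_u {a : ℝ} (ha : 0 < a) : MemLp (u a) 2 volume := by
  rw [memLp_two_iff_integrable_sq (continuous_u a).aestronglyMeasurable]
  simp_rw [u_sq]
  exact integrable_u (by linarith)

lemma memLp_mul {a : ℝ} (ha : 0 < a) {g : ℝ → ℝ} (hg : Continuous g) {C : ℝ}
    (hC : ∀ x, |g x| ≤ C) : MemLp (fun x => ((g x * u a x : ℝ) : ℂ)) 2 volume := by
  refine (memLp_u ha).of_le_mul (c := C)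
    (Complex.continuous_ofReal.comp (hg.mul (continuous_u a))).aestronglyMeasurable
    (Eventually.of_forall fun x => ?_)
  rw [Complex.norm_real, norm_mul]
  exact mul_le_mul_of_nonneg_right (hC x) (norm_nonneg _)

lemma isH1_of {g g' : ℝ → ℝ} (hd : ∀ x, HasDerivAt g (g' x) x) (hc : Continuous g')
    (h1 : MemLp (fun x => (g x : ℂ)) 2 volume) (h2 : MemLp (fun x => (g' x : ℂ)) 2 volume) :
    IsH1 (fun x => (g x : ℂ)) (fun x => (g' x : ℂ)) :=
  ⟨h1, h2, fun x y => by
    rw [intervalIntegral.integral_ofReal,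
      intervalIntegral.integral_eq_sub_of_hasDerivAt (fun t _ => hd t) (hc.intervalIntegrable _ _)]
    push_cast; rfl⟩

/-- a scalar function placed in one coordinate. -/
noncomputable def emb {m : ℕ} {v v' : ℝ → ℂ} (h : IsH1 v v') (j : Fin m) : H1 m where
  toFun x := v x • (Pi.single j 1 : Fin m → ℂ)
  deriv x := v' x • (Pi.single j 1 : Fin m → ℂ)
  memLp_toFun :=
    (ContinuousLinearMap.toSpanSingleton ℂ (Pi.single j 1 : Fin m → ℂ)).comp_memLp' h.memLp
  memLp_deriv :=
    (ContinuousLinearMap.toSpanSingleton ℂ (Pi.single j 1 : Fin m → ℂ)).comp_memLp' h.memLp'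
  sub_eq_integral x y := by rw [intervalIntegral.integral_smul_const, ← h.ftc, sub_smul]

lemma l2Inner_single {m : ℕ} (φ : ℝ → Fin m → ℂ) (v : ℝ → ℂ) (j : Fin m) :
    l2Inner φ (fun x => v x • (Pi.single j 1 : Fin m → ℂ)) = ∫ x, star (φ x j) * v x := by
  unfold l2Inner
  congr 1
  funext x
  simp [mul_comm]

lemma trPow_smul (m : ℕ) (w p : ℝ) :
    trPow (w • (1 : Matrix (Fin m) (Fin m) ℂ)) p = m * w ^ p := by
  rw [trPow, ← Algebra.algebraMap_eq_smul_one, cfc_algebraMap, Algebra.algebraMap_eq_smul_one]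
  simp [mul_comm]

lemma lint {p : ℝ} (hp : 1 < p) :
    ∫⁻ x, ENNReal.ofReal ((1 / Real.cosh x ^ 2) ^ p) = ENNReal.ofReal (2 * Ip p) := by
  have hc : Continuous fun t : ℝ => (1 - t ^ 2) ^ (p - 1) :=
    Continuous.rpow_const (by fun_prop) fun x => Or.inr (by linarith)
  have h := lintegral_image_eq_lintegral_abs_deriv_mul MeasurableSet.univ
    (fun x _ => (hasDerivAt_tanh x).hasDerivWithinAt) Real.tanh_injective.injOn
    (fun t => ENNReal.ofReal ((1 - t ^ 2) ^ (p - 1)))
  rw [Real.tanh_bijOn.image_eq, Measure.restrict_univ] at h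
  have h2 : ∀ x, ENNReal.ofReal |1 / Real.cosh x ^ 2| *
      ENNReal.ofReal ((1 - Real.tanh x ^ 2) ^ (p - 1))
      = ENNReal.ofReal ((1 / Real.cosh x ^ 2) ^ p) := by
    intro x
    have h0 : 0 < 1 / Real.cosh x ^ 2 := by have := Real.cosh_pos x; positivity
    rw [← ENNReal.ofReal_mul (abs_nonneg _), tanh_sq, abs_of_pos h0, Real.rpow_sub_one h0.ne']
    congr 1
    field_simp
  simp_rw [h2] at h
  rw [← h, ← ofReal_integral_eq_lintegral_ofReal]
  · congr 1
    rw [← integral_Ioc_eq_integral_Ioo, ← intervalIntegral.integral_of_le (by norm_num),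
      ← intervalIntegral.integral_add_adjacent_intervals (b := 0) (hc.intervalIntegrable _ _)
        (hc.intervalIntegrable _ _)]
    have := intervalIntegral.integral_comp_neg (a := 0) (b := 1)
      (fun t : ℝ => (1 - t ^ 2) ^ (p - 1))
    simp only [neg_zero, neg_sq] at this
    rw [← this, Ip]; ring
  · exact (hc.integrableOn_Icc (a := -1) (b := 1)).mono_set Ioo_subset_Icc_self
  · filter_upwards [ae_restrict_mem measurableSet_Ioo] with t ht
    exact Real.rpow_nonneg (by nlinarith [ht.1, ht.2]) _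

end Lower

open Lower in
theorem le_ltConst {γ : ℝ} (h1 : 1 / 2 < γ) {m : ℕ} (hm : 1 ≤ m) :
    ENNReal.ofReal (Cp (γ + 1 / 2) / (2 * Ip (γ + 1 / 2))) ≤ ltConst γ m := by
  obtain ⟨a, rfl⟩ : ∃ a, γ = a + 1 / 2 := ⟨γ - 1 / 2, by ring⟩
  have ha : 0 < a := by linarith
  have hp : a + 1 / 2 + 1 / 2 = a + 1 := by ring
  have hI := Ip_pos (p := a + 1) (by linarith)
  have hm0 : (0 : ℝ) < m := by exact_mod_cast hm
  let w : ℝ → ℝ := fun x => a * (a + 1) / Real.cosh x ^ 2
  have hw0 : ∀ x, 0 < w x := fun x => by have := Real.cosh_pos x; positivity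
  have hwc : Continuous w :=
    continuous_const.div (by fun_prop) fun x => pow_ne_zero _ (Real.cosh_pos x).ne'
  have hw1 : ∀ x, w x ≤ a * (a + 1) := fun x =>
    div_le_self (by positivity) (one_le_pow₀ (Real.one_le_cosh x))
  let W : ℝ → Matrix (Fin m) (Fin m) ℂ := fun x => w x • 1
  have hint : ∫⁻ x, ENNReal.ofReal (trPow (W x) (a + 1 / 2 + 1 / 2))
      = ENNReal.ofReal (m * (a * (a + 1)) ^ (a + 1) * (2 * Ip (a + 1))) := by
    rw [ENNReal.ofReal_mul (by positivity), ← lint (by linarith),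
      ← lintegral_const_mul' _ _ ENNReal.ofReal_ne_top]
    refine lintegral_congr fun x => ?_
    have := Real.cosh_pos x
    rw [← ENNReal.ofReal_mul (by positivity), hp, trPow_smul, mul_assoc,
      ← Real.mul_rpow (by positivity) (by positivity), mul_one_div]
  have hW : IsPotential (a + 1 / 2) W := by
    refine ⟨fun i j => ?_, fun x => PosSemidef.one.smul (hw0 x).le, ?_⟩
    · exact (hwc.smul continuous_const).measurable
    · rw [hint]; exact ENNReal.ofReal_lt_top
  have hW0 : ¬ W =ᵐ[volume] 0 := by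
    intro h
    obtain ⟨x, hx⟩ := h.exists
    have := congrFun (congrFun hx ⟨0, hm⟩) ⟨0, hm⟩
    simp [W, (hw0 x).ne'] at this
  -- the eigenfunction
  have hJ : 0 < ∫ x, u (2 * a) x := integral_pos_of_integrable_nonneg_nonzero (x := 0)
    (continuous_u _) (integrable_u (by linarith)) (fun x => (u_pos _ x).le) (u_pos _ 0).ne'
  obtain ⟨c, hc⟩ : ∃ c : ℝ, c ^ 2 * ∫ x, u (2 * a) x = 1 :=
    ⟨1 / √(∫ x, u (2 * a) x), by rw [div_pow, Real.sq_sqrt hJ.le]; field_simp⟩
  have hth : ∀ x, |Real.tanh x| ≤ 1 := fun x =>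
    abs_le.2 ⟨(Real.neg_one_lt_tanh x).le, (Real.tanh_lt_one x).le⟩
  have hcu := continuous_u a
  have hct := Lower.continuous_tanh
  have m0 : MemLp (fun x => ((c * u a x : ℝ) : ℂ)) 2 volume :=
    memLp_mul ha continuous_const (C := |c|) fun x => le_rfl
  have m1 : MemLp (fun x => ((c * (-a * Real.tanh x) * u a x : ℝ) : ℂ)) 2 volume :=
    memLp_mul ha (by fun_prop) (C := |c| * a) fun x => by
      rw [abs_mul, abs_mul, abs_neg, abs_of_pos ha]
      exact mul_le_mul_of_nonneg_left (mul_le_of_le_one_right ha.le (hth x)) (abs_nonneg _)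
  have m2 : MemLp (fun x => ((c * w x * u a x : ℝ) : ℂ)) 2 volume :=
    memLp_mul ha (by fun_prop) (C := |c| * (a * (a + 1))) fun x => by
      rw [abs_mul, abs_of_pos (hw0 x)]
      exact mul_le_mul_of_nonneg_left (hw1 x) (abs_nonneg _)
  have m3 : MemLp (fun x => ((c * (a ^ 2 - w x) * u a x : ℝ) : ℂ)) 2 volume :=
    memLp_mul ha (by fun_prop) (C := |c| * (a ^ 2 + a * (a + 1))) fun x => by
      rw [abs_mul]
      refine mul_le_mul_of_nonneg_left (abs_le.2 ⟨?_, ?_⟩) (abs_nonneg _) <;>
        nlinarith [hw0 x, hw1 x]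
  have hv : IsH1 (fun x => ((c * u a x : ℝ) : ℂ))
      (fun x => ((c * (-a * Real.tanh x) * u a x : ℝ) : ℂ)) :=
    isH1_of (fun x => ((hasDerivAt_u a x).const_mul c).congr_deriv (by ring)) (by fun_prop) m0 m1
  have hv' : IsH1 (fun x => ((c * (-a * Real.tanh x) * u a x : ℝ) : ℂ))
      (fun x => ((c * (a ^ 2 - w x) * u a x : ℝ) : ℂ)) :=
    isH1_of (fun x => by
      have := (hasDerivAt_u1 a x).const_mul c
      simp only [← mul_assoc] at this ⊢
      exact this) (by fun_prop) m1 m3
  have horth : ∀ j k : Fin m,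
      l2Inner (emb hv j).toFun (emb hv k).toFun = if j = k then 1 else 0 := by
    intro j k
    refine (l2Inner_single _ _ k).trans ?_
    split_ifs with h
    · subst h
      have : ∀ x, star ((emb hv j).toFun x j) * ((c * u a x : ℝ) : ℂ)
          = ((c ^ 2 * u (2 * a) x : ℝ) : ℂ) := by
        intro x
        rw [← u_sq]
        simp [emb]; ring
      simp_rw [this]
      rw [integral_complex_ofReal, integral_const_mul, hc]; rfl
    · simp [emb, Pi.single_eq_of_ne' h]
  have heig : ∀ j : Fin m, IsEigen W (-a ^ 2) (emb hv j) := by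
    intro j φ
    have hf := (φ.isH1 j).star
    have h2 := ibp hf hv'
    have e1 : (fun x => W x *ᵥ (emb hv j).toFun x)
        = fun x => ((c * w x * u a x : ℝ) : ℂ) • (Pi.single j 1 : Fin m → ℂ) := by
      funext x
      simp only [W, emb, smul_mulVec, one_mulVec]
      rw [← Complex.coe_smul, smul_smul]
      congr 1; push_cast; ring
    have i0 : Integrable fun x => star (φ.toFun x j) * ((c * u a x : ℝ) : ℂ) :=
      hf.memLp.integrable_mul m0
    have i2 : Integrable fun x => star (φ.toFun x j) * ((c * w x * u a x : ℝ) : ℂ) :=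
      hf.memLp.integrable_mul m2
    have e2 : ∫ x, star (φ.toFun x j) * ((c * (a ^ 2 - w x) * u a x : ℝ) : ℂ)
        = (a : ℂ) ^ 2 * (∫ x, star (φ.toFun x j) * ((c * u a x : ℝ) : ℂ))
          - ∫ x, star (φ.toFun x j) * ((c * w x * u a x : ℝ) : ℂ) := by
      rw [← integral_const_mul, ← integral_sub (i0.const_mul _) i2]
      congr 1; funext x; push_cast; ring
    rw [form, e1, l2Inner_single]
    erw [l2Inner_single, l2Inner_single]
    rw [e2] at h2
    push_cast at h2 ⊢
    linear_combination h2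
  have hR : ENNReal.ofReal (m * a ^ (2 * a + 1)) ≤ rieszMean (a + 1 / 2) W := by
    refine le_iSup_of_le m (le_iSup_of_le (emb hv) (le_iSup_of_le (fun _ => -a ^ 2)
      (le_iSup_of_le horth (le_iSup_of_le (fun j => ⟨by nlinarith, heig j⟩) (le_of_eq ?_)))))
    congr 1
    rw [Finset.sum_const, Finset.card_univ, Fintype.card_fin, nsmul_eq_mul, abs_neg,
      abs_of_pos (by positivity), ← Real.rpow_natCast, ← Real.rpow_mul ha.le]
    congr 2; push_cast; ring
  refine le_iSup_of_le W (le_iSup_of_le hW (le_iSup_of_le hW0 ?_))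
  refine le_trans (le_of_eq ?_) (ENNReal.div_le_div_right hR _)
  rw [hint, ← ENNReal.ofReal_div_of_pos (by positivity), hp, Cp]
  congr 1
  have e1 : a ^ (2 * a + 1) = a ^ a * a ^ (a + 1) := by
    rw [← Real.rpow_add ha]; congr 1; ring
  rw [add_sub_cancel_right, Real.mul_rpow ha.le (by linarith), e1]
  have := Real.rpow_pos_of_pos ha (a + 1)
  have := Real.rpow_pos_of_pos (by linarith : 0 < a + 1) (a + 1)
  field_simp

end Vale.Agent.P371
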