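import Vale.Agent.P371.Spec

namespace Vale.Agent.P371

open MeasureTheory Matrix Set Filter Topology
open scoped ComplexOrder Matrix.Norms.L2Operator MatrixOrder

set_option linter.unusedSectionVars false

variable {n : Type*} [Fintype n] [DecidableEq n]

theorem isHermitian_mOf (κ : Matrix n n ℂ) (l : ℝ) : (mOf κ l).IsHermitian :=
  isHermitian_cfc _ _

theorem mOf_mul_self {κ : Matrix n n ℂ} (hκ : κ.IsHermitian) {l : ℝ} (hl : 0 ≤ l) :
    mOf κ l * mOf κ l = κ * κ + l • (1 : Matrix n n ℂ) := by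
  have h1 : κ * κ + l • (1 : Matrix n n ℂ) = cfc (fun t : ℝ => t * t + l) κ := by
    rw [cfc_add', cfc_mul', cfc_id_eq hκ, cfc_const' l hκ]
  rw [h1, mOf, ← cfc_mul']
  refine cfc_congr fun t _ => ?_
  rw [Real.mul_self_sqrt (by positivity)]
  ring

theorem posDef_mOf {κ : Matrix n n ℂ} (hκ : κ.IsHermitian) {l : ℝ} (hl : 0 < l) :
    (mOf κ l).PosDef :=
  posDef_cfc hκ fun t _ => Real.sqrt_pos.mpr (by positivity)

theorem mOf_sub_eq {κ : Matrix n n ℂ} (hκ : κ.IsHermitian) (l : ℝ) :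
    mOf κ l - κ = cfc (fun t : ℝ => √(t ^ 2 + l) - t) κ := by
  rw [cfc_sub', cfc_id_eq hκ, mOf]

theorem mOf_add_eq {κ : Matrix n n ℂ} (hκ : κ.IsHermitian) (l : ℝ) :
    mOf κ l + κ = cfc (fun t : ℝ => √(t ^ 2 + l) + t) κ := by
  rw [cfc_add', cfc_id_eq hκ, mOf]

/-- `m - κ ≥ sqrt (R^2 + l) - R` if `0 ≤ κ ≤ R`. -/
theorem mOf_sub_ge {κ : Matrix n n ℂ} (hκ : κ.PosSemidef) {R l : ℝ}
    (hR : (R • (1 : Matrix n n ℂ) - κ).PosSemidef) (hl : 0 ≤ l) :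
    (mOf κ l - κ - (√(R ^ 2 + l) - R) • (1 : Matrix n n ℂ)).PosSemidef := by
  rw [mOf_sub_eq hκ.isHermitian, ← cfc_const' _ hκ.isHermitian]
  refine posSemidef_cfc_sub κ fun t ht => ?_
  have h0 := nonneg_of_mem_spectrum hκ ht
  have h1 := ge_of_mem_spectrum hR ht
  have h2 : t ≤ √(t ^ 2 + l) := Real.le_sqrt_of_sq_le (by linarith)
  have h3 : √(R ^ 2 + l) ≤ √(t ^ 2 + l) + (R - t) := by
    refine Real.sqrt_le_iff.mpr ⟨by linarith, ?_⟩
    have h4 : √(t ^ 2 + l) ^ 2 = t ^ 2 + l := Real.sq_sqrt (by positivity)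
    nlinarith [mul_nonneg (sub_nonneg.mpr h1) (sub_nonneg.mpr h2)]
  linarith

theorem posDef_mOf_sub_self {κ : Matrix n n ℂ} (hκ : κ.PosSemidef) {l : ℝ} (hl : 0 < l) :
    (mOf κ l - κ).PosDef := by
  rw [mOf_sub_eq hκ.isHermitian]
  refine posDef_cfc hκ.isHermitian fun t _ => ?_
  exact sub_pos.mpr (Real.lt_sqrt_of_sq_lt (by linarith))

theorem posDef_mOf_add {κ Z : Matrix n n ℂ} (hκ : κ.PosSemidef) (hZ : (κ + Z).PosSemidef)
    {l : ℝ} (hl : 0 < l) : (mOf κ l + Z).PosDef := by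
  have := (posDef_mOf_sub_self hκ hl).add_posSemidef hZ
  convert this using 1
  abel

theorem posDef_mOf_sub {κ Z : Matrix n n ℂ} (hκ : κ.PosSemidef) (hZ : (κ - Z).PosSemidef)
    {l : ℝ} (hl : 0 < l) : (mOf κ l - Z).PosDef := by
  have := (posDef_mOf_sub_self hκ hl).add_posSemidef hZ
  convert this using 1
  abel

theorem hasDerivAt_mOf {κ : Matrix n n ℂ} (hκ : κ.IsHermitian) {l : ℝ} (hl : 0 < l) :
    HasDerivAt (mOf κ) (mOf κ l + mOf κ l)⁻¹ l := by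
  have h1 : (mOf κ l + mOf κ l)⁻¹ = cfc (fun t : ℝ => (√(t ^ 2 + l) + √(t ^ 2 + l))⁻¹) κ := by
    rw [mOf, ← cfc_add', inv_cfc hκ]
    intro t _
    have : 0 < √(t ^ 2 + l) := Real.sqrt_pos.mpr (by positivity)
    positivity
  rw [h1]
  refine hasDerivAt_cfc hκ (fun l t => √(t ^ 2 + l)) _ l fun t _ => ?_
  have h2 := ((hasDerivAt_id l).const_add (t ^ 2)).sqrt (by simp only [id]; positivity)
  simp only [id] at h2
  rwa [one_div, two_mul] at h2

/-- `Z` is Hermitian when `-κ ≤ Z ≤ κ`. -/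
theorem isHermitian_of_sub {κ Z : Matrix n n ℂ} (hκ : κ.IsHermitian) (hZ : (κ - Z).PosSemidef) :
    Z.IsHermitian := by
  have := hκ.sub hZ.isHermitian
  simpa using this

end Vale.Agent.P371
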