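import Vale.Agent.P371.Basic

/-!
Matrix toolbox: spectral decomposition, double eigenbasis, Klein type inequalities.
-/

namespace Vale.Agent.P371

open MeasureTheory Matrix Set
open scoped ComplexOrder Matrix.Norms.L2Operator MatrixOrder

set_option linter.unusedSectionVars false

variable {n : Type*} [Fintype n] [DecidableEq n]

/-- Every function is continuous on the (finite) spectrum of a matrix. -/
theorem contOn (A : Matrix n n ℂ) (f : ℝ → ℝ) : ContinuousOn f (spectrum ℝ A) :=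
  A.finite_real_spectrum.continuousOn f

/-- Spectral decomposition with an explicit unitary. -/
theorem exists_diag {A : Matrix n n ℂ} (hA : A.IsHermitian) :
    ∃ (U : Matrix n n ℂ) (α : n → ℝ), Uᴴ * U = 1 ∧ U * Uᴴ = 1 ∧ spectrum ℝ A = range α ∧
      ∀ f : ℝ → ℝ, cfc f A = U * diagonal (fun i => (f (α i) : ℂ)) * Uᴴ := by
  refine ⟨hA.eigenvectorUnitary, hA.eigenvalues, ?_, ?_, hA.spectrum_real_eq_range_eigenvalues,
    fun f => ?_⟩
  · exact (Unitary.coe_star_mul_self hA.eigenvectorUnitary)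
  · exact (Unitary.coe_mul_star_self hA.eigenvectorUnitary)
  · rw [hA.cfc_eq, IsHermitian.cfc, Unitary.conjStarAlgAut_apply]
    rfl

theorem isHermitian_cfc (f : ℝ → ℝ) (A : Matrix n n ℂ) : (cfc f A).IsHermitian :=
  (cfc_predicate f A : IsSelfAdjoint (cfc f A))

theorem cfc_id_eq {A : Matrix n n ℂ} (hA : A.IsHermitian) : cfc (fun t : ℝ => t) A = A :=
  cfc_id' ℝ A hA

theorem cfc_mul' (f g : ℝ → ℝ) (A : Matrix n n ℂ) :
    cfc (fun t => f t * g t) A = cfc f A * cfc g A :=
  cfc_mul f g A (contOn A f) (contOn A g)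

theorem cfc_add' (f g : ℝ → ℝ) (A : Matrix n n ℂ) :
    cfc (fun t => f t + g t) A = cfc f A + cfc g A :=
  cfc_add A f g (contOn A f) (contOn A g)

theorem cfc_sub' (f g : ℝ → ℝ) (A : Matrix n n ℂ) :
    cfc (fun t => f t - g t) A = cfc f A - cfc g A :=
  cfc_sub f g A (contOn A f) (contOn A g)

theorem cfc_const_mul' (c : ℝ) (f : ℝ → ℝ) (A : Matrix n n ℂ) :
    cfc (fun t => c * f t) A = c • cfc f A :=
  cfc_const_mul c f A (contOn A f)

theorem cfc_const' (c : ℝ) {A : Matrix n n ℂ} (hA : A.IsHermitian) :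
    cfc (fun _ => c) A = c • (1 : Matrix n n ℂ) := by
  rw [cfc_const c A hA.isSelfAdjoint, Algebra.algebraMap_eq_smul_one]

theorem cfc_cfc (g f : ℝ → ℝ) {A : Matrix n n ℂ} (hA : A.IsHermitian) :
    cfc g (cfc f A) = cfc (fun t => g (f t)) A :=
  (cfc_comp' g f A ((A.finite_real_spectrum.image f).continuousOn g) (contOn A f) hA).symm

@[simp] theorem rtr_add (A B : Matrix n n ℂ) : rtr (A + B) = rtr A + rtr B := by
  simp [rtr]

@[simp] theorem rtr_sub (A B : Matrix n n ℂ) : rtr (A - B) = rtr A - rtr B := by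
  simp [rtr]

@[simp] theorem rtr_neg (A : Matrix n n ℂ) : rtr (-A) = -rtr A := by
  simp [rtr]

@[simp] theorem rtr_smul (c : ℝ) (A : Matrix n n ℂ) : rtr (c • A) = c * rtr A := by
  simp [rtr]

@[simp] theorem rtr_zero : rtr (0 : Matrix n n ℂ) = 0 := by
  simp [rtr]

@[simp] theorem rtr_one : rtr (1 : Matrix n n ℂ) = Fintype.card n := by
  simp [rtr]

theorem rtr_mul_comm {m : Type*} [Fintype m] [DecidableEq m] (A : Matrix n m ℂ)
    (B : Matrix m n ℂ) : rtr (A * B) = rtr (B * A) := by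
  rw [rtr, rtr, trace_mul_comm]

theorem rtr_conjTranspose (A : Matrix n n ℂ) : rtr Aᴴ = rtr A := by
  simp [rtr, trace_conjTranspose]

/-- `rtr` as a continuous real-linear map. -/
noncomputable def rtrL (n : Type*) [Fintype n] [DecidableEq n] : Matrix n n ℂ →L[ℝ] ℝ :=
  LinearMap.toContinuousLinearMap
    { toFun := rtr, map_add' := rtr_add, map_smul' := fun c A => rtr_smul c A }

@[simp] theorem rtrL_apply (A : Matrix n n ℂ) : rtrL n A = rtr A := rfl

theorem continuous_rtr : Continuous (rtr : Matrix n n ℂ → ℝ) := (rtrL n).continuous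

theorem rtr_nonneg {A : Matrix n n ℂ} (hA : A.PosSemidef) : 0 ≤ rtr A :=
  (Complex.nonneg_iff.mp hA.trace_nonneg).1

theorem rtr_mul_nonneg {A B : Matrix n n ℂ} (hA : A.PosSemidef) (hB : B.PosSemidef) :
    0 ≤ rtr (A * B) := by
  obtain ⟨C, rfl⟩ := CStarAlgebra.nonneg_iff_eq_star_mul_self.mp hA.nonneg
  rw [Matrix.mul_assoc, rtr_mul_comm]
  exact rtr_nonneg (hB.mul_mul_conjTranspose_same C)

theorem trace_mul_diag (U X : Matrix n n ℂ) (d : n → ℂ) :
    (X * (U * diagonal d * Uᴴ)).trace = ∑ i, d i * (Uᴴ * X * U) i i := by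
  have : X * (U * diagonal d * Uᴴ) = (X * U * diagonal d) * Uᴴ := by simp only [Matrix.mul_assoc]
  rw [this, trace_mul_comm, ← Matrix.mul_assoc, ← Matrix.mul_assoc, trace]
  refine Finset.sum_congr rfl fun i _ => ?_
  rw [diag_apply, mul_diagonal, mul_comm]

/-- For fixed `X`, `tr (X f(A))` is a fixed linear combination of the values `f (α i)`. -/
theorem exists_rtr_mul_cfc {A : Matrix n n ℂ} (hA : A.IsHermitian) :
    ∃ (α : n → ℝ) (c : Matrix n n ℂ → n → ℝ), spectrum ℝ A = range α ∧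
      (∀ i, c 1 i = 1) ∧ (∀ X, X.PosSemidef → ∀ i, 0 ≤ c X i) ∧
      ∀ (X : Matrix n n ℂ) (f : ℝ → ℝ), rtr (X * cfc f A) = ∑ i, c X i * f (α i) := by
  obtain ⟨U, α, h1, h2, h3, h4⟩ := exists_diag hA
  refine ⟨α, fun X i => ((Uᴴ * X * U) i i).re, h3, fun i => ?_, fun X hX i => ?_, fun X f => ?_⟩
  · simp [h1]
  · exact (Complex.nonneg_iff.mp ((hX.conjTranspose_mul_mul_same U).diag_nonneg (i := i))).1
  · rw [h4, rtr, trace_mul_diag, Complex.re_sum]
    refine Finset.sum_congr rfl fun i _ => ?_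
    rw [Complex.re_ofReal_mul, mul_comm]

/-- Double eigenbasis: doubly stochastic weights. -/
theorem exists_double {A B : Matrix n n ℂ} (hA : A.IsHermitian) (hB : B.IsHermitian) :
    ∃ (α β : n → ℝ) (c : n → n → ℝ), spectrum ℝ A = range α ∧ spectrum ℝ B = range β ∧
      (∀ i j, 0 ≤ c i j) ∧ (∀ i, ∑ j, c i j = 1) ∧ (∀ j, ∑ i, c i j = 1) ∧
      (∀ f : ℝ → ℝ, rtr (cfc f A) = ∑ i, f (α i)) ∧
      (∀ g : ℝ → ℝ, rtr (cfc g B) = ∑ j, g (β j)) ∧
      ∀ f g : ℝ → ℝ, rtr (cfc f A * cfc g B) = ∑ i, ∑ j, c i j * (f (α i) * g (β j)) := by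
  obtain ⟨U, α, h1, h2, h3, h4⟩ := exists_diag hA
  obtain ⟨V, β, k1, k2, k3, k4⟩ := exists_diag hB
  set T := Uᴴ * V with hT
  have hT1 : T * Tᴴ = 1 := by
    rw [hT, conjTranspose_mul, conjTranspose_conjTranspose, Matrix.mul_assoc,
      ← Matrix.mul_assoc V, k2, Matrix.one_mul, h1]
  have hT2 : Tᴴ * T = 1 := by
    rw [hT, conjTranspose_mul, conjTranspose_conjTranspose, Matrix.mul_assoc,
      ← Matrix.mul_assoc U, h2, Matrix.one_mul, k1]
  have key : ∀ (W : Matrix n n ℂ) (γ : n → ℝ), Wᴴ * W = 1 →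
      rtr (W * diagonal (fun i => (γ i : ℂ)) * Wᴴ) = ∑ i, γ i := by
    intro W γ hW
    rw [rtr, trace_mul_comm, ← Matrix.mul_assoc, hW, Matrix.one_mul, trace_diagonal,
      Complex.re_sum]
    simp
  refine ⟨α, β, fun i j => Complex.normSq (T i j), h3, k3, fun i j => Complex.normSq_nonneg _,
    fun i => ?_, fun j => ?_, fun f => ?_, fun g => ?_, fun f g => ?_⟩
  · have := congrArg (fun M : Matrix n n ℂ => (M i i).re) hT1
    simp only [mul_apply, conjTranspose_apply, one_apply_eq, Complex.re_sum, Complex.one_re] at this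
    rw [← this]
    refine Finset.sum_congr rfl fun j _ => ?_
    rw [Complex.star_def, Complex.mul_conj, Complex.ofReal_re]
  · have := congrArg (fun M : Matrix n n ℂ => (M j j).re) hT2
    simp only [mul_apply, conjTranspose_apply, one_apply_eq, Complex.re_sum, Complex.one_re] at this
    rw [← this]
    refine Finset.sum_congr rfl fun i _ => ?_
    rw [Complex.star_def, mul_comm, Complex.mul_conj, Complex.ofReal_re]
  · rw [h4, key U _ h1]
  · rw [k4, key V _ k1]
  · rw [h4 f, k4 g, rtr, trace_mul_comm, trace_mul_diag, Complex.re_sum]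
    refine Finset.sum_congr rfl fun i _ => ?_
    have : Uᴴ * (V * diagonal (fun j => (g (β j) : ℂ)) * Vᴴ) * U
        = T * diagonal (fun j => (g (β j) : ℂ)) * Tᴴ := by
      rw [hT, conjTranspose_mul, conjTranspose_conjTranspose]
      simp only [Matrix.mul_assoc]
    rw [this, mul_apply, Finset.mul_sum, Complex.re_sum]
    refine Finset.sum_congr rfl fun j _ => ?_
    rw [mul_diagonal, conjTranspose_apply, Complex.star_def]
    have h5 : (f (α i) : ℂ) * (T i j * (g (β j) : ℂ) * (starRingEnd ℂ) (T i j))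
        = ((Complex.normSq (T i j) * (f (α i) * g (β j)) : ℝ) : ℂ) := by
      push_cast
      rw [← Complex.mul_conj]
      ring
    rw [h5, Complex.ofReal_re]

/-- Klein / Young type inequality. -/
theorem rtr_cfc_mul_le {A B : Matrix n n ℂ} (hA : A.IsHermitian) (hB : B.IsHermitian)
    (f g F G : ℝ → ℝ)
    (h : ∀ a ∈ spectrum ℝ A, ∀ b ∈ spectrum ℝ B, f a * g b ≤ F a + G b) :
    rtr (cfc f A * cfc g B) ≤ rtr (cfc F A) + rtr (cfc G B) := by
  obtain ⟨α, β, c, h1, h2, h3, h4, h5, h6, h7, h8⟩ := exists_double hA hB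
  rw [h8, h6, h7]
  calc ∑ i, ∑ j, c i j * (f (α i) * g (β j))
      ≤ ∑ i, ∑ j, c i j * (F (α i) + G (β j)) := by
        refine Finset.sum_le_sum fun i _ => Finset.sum_le_sum fun j _ => ?_
        exact mul_le_mul_of_nonneg_left (h _ (h1 ▸ mem_range_self i) _ (h2 ▸ mem_range_self j))
          (h3 i j)
    _ = ∑ i, F (α i) + ∑ j, G (β j) := by
        simp only [mul_add, Finset.sum_add_distrib]
        congr 1
        · refine Finset.sum_congr rfl fun i _ => ?_
          rw [← Finset.sum_mul, h4, one_mul]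
        · rw [Finset.sum_comm]
          refine Finset.sum_congr rfl fun j _ => ?_
          rw [← Finset.sum_mul, h5, one_mul]

/-- First order Taylor estimate for trace functions. -/
theorem abs_rtr_cfc_sub_le {A B : Matrix n n ℂ} (hA : A.IsHermitian) (hB : B.IsHermitian)
    (f f' : ℝ → ℝ) (C : ℝ)
    (h : ∀ a ∈ spectrum ℝ A, ∀ b ∈ spectrum ℝ B, |f b - f a - f' a * (b - a)| ≤ C * (b - a) ^ 2) :
    |rtr (cfc f B) - rtr (cfc f A) - rtr (cfc f' A * (B - A))| ≤ C * rtr ((B - A) * (B - A)) := by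
  obtain ⟨α, β, c, h1, h2, h3, h4, h5, h6, h7, h8⟩ := exists_double hA hB
  have e1 : ∀ F : ℝ → ℝ, ∑ i, F (α i) = ∑ i, ∑ j, c i j * F (α i) := fun F =>
    Finset.sum_congr rfl fun i _ => by rw [← Finset.sum_mul, h4, one_mul]
  have e2 : ∀ G : ℝ → ℝ, ∑ j, G (β j) = ∑ i, ∑ j, c i j * G (β j) := fun G => by
    rw [Finset.sum_comm]
    exact Finset.sum_congr rfl fun j _ => by rw [← Finset.sum_mul, h5, one_mul]
  have a1 : rtr (cfc f' A * (B - A))
      = ∑ i, ∑ j, c i j * (f' (α i) * β j) - ∑ i, ∑ j, c i j * (f' (α i) * α i) := by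
    rw [Matrix.mul_sub, rtr_sub, ← e1 (fun t => f' t * t), ← h6 (fun t => f' t * t), cfc_mul', cfc_id_eq hA,
      ← h8 f' (fun t => t), cfc_id_eq hB]
  have a2 : rtr ((B - A) * (B - A)) = ∑ i, ∑ j, c i j * (β j - α i) ^ 2 := by
    have b1 : rtr (B * B) = ∑ i, ∑ j, c i j * (β j * β j) := by
      rw [← e2 (fun t => t * t), ← h7 (fun t => t * t), cfc_mul', cfc_id_eq hB]
    have b2 : rtr (A * A) = ∑ i, ∑ j, c i j * (α i * α i) := by
      rw [← e1 (fun t => t * t), ← h6 (fun t => t * t), cfc_mul', cfc_id_eq hA]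
    have b3 : rtr (A * B) = ∑ i, ∑ j, c i j * (α i * β j) := by
      rw [← h8 (fun t => t) (fun t => t), cfc_id_eq hA, cfc_id_eq hB]
    rw [Matrix.sub_mul, Matrix.mul_sub, Matrix.mul_sub, rtr_sub, rtr_sub, rtr_sub,
      rtr_mul_comm B A, b1, b2, b3]
    simp only [← Finset.sum_sub_distrib]
    refine Finset.sum_congr rfl fun i _ => Finset.sum_congr rfl fun j _ => ?_
    ring
  rw [a1, a2, h6, h7, e1 f, e2 f]
  simp only [← Finset.sum_sub_distrib, Finset.mul_sum]
  refine (Finset.abs_sum_le_sum_abs _ _).trans (Finset.sum_le_sum fun i _ => ?_)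
  refine (Finset.abs_sum_le_sum_abs _ _).trans (Finset.sum_le_sum fun j _ => ?_)
  have h9 := h _ (h1 ▸ mem_range_self i) _ (h2 ▸ mem_range_self j)
  have : c i j * f (β j) - c i j * f (α i) - (c i j * (f' (α i) * β j) - c i j * (f' (α i) * α i))
      = c i j * (f (β j) - f (α i) - f' (α i) * (β j - α i)) := by ring
  rw [this, abs_mul, abs_of_nonneg (h3 i j)]
  calc c i j * |f (β j) - f (α i) - f' (α i) * (β j - α i)| ≤ c i j * (C * (β j - α i) ^ 2) :=
        mul_le_mul_of_nonneg_left h9 (h3 i j)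
    _ = C * (c i j * (β j - α i) ^ 2) := by ring

/-- Functional calculus respects intertwiners. -/
theorem cfc_mul_intertwine {m : Type*} [Fintype m] [DecidableEq m] {A : Matrix n n ℂ}
    {B : Matrix m m ℂ} (hA : A.IsHermitian) (hB : B.IsHermitian) (T : Matrix n m ℂ)
    (h : A * T = T * B) (f : ℝ → ℝ) : cfc f A * T = T * cfc f B := by
  obtain ⟨U, α, h1, h2, -, h4⟩ := exists_diag hA
  obtain ⟨V, β, k1, k2, -, k4⟩ := exists_diag hB
  have hA' := h4 (fun t => t)
  have hB' := k4 (fun t => t)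
  rw [cfc_id_eq hA] at hA'
  rw [cfc_id_eq hB] at hB'
  set S := Uᴴ * T * V with hS
  have hT : T = U * S * Vᴴ := by
    rw [hS]
    calc T = (U * Uᴴ) * T * (V * Vᴴ) := by rw [h2, k2, Matrix.one_mul, Matrix.mul_one]
      _ = _ := by simp only [Matrix.mul_assoc]
  have e : ∀ (d : n → ℂ) (e : m → ℂ),
      (U * diagonal d * Uᴴ * T = T * (V * diagonal e * Vᴴ)) ↔ diagonal d * S = S * diagonal e := by
    intro d e
    constructor
    · intro hh
      have := congrArg (fun M => Uᴴ * M * V) hh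
      simp only [Matrix.mul_assoc] at this
      rw [← Matrix.mul_assoc Uᴴ U, h1, Matrix.one_mul, k1, Matrix.mul_one] at this
      rw [hS]
      simpa only [Matrix.mul_assoc] using this
    · intro hh
      rw [hT]
      calc U * diagonal d * Uᴴ * (U * S * Vᴴ) = U * (diagonal d * ((Uᴴ * U) * S)) * Vᴴ := by
            simp only [Matrix.mul_assoc]
        _ = U * (S * ((Vᴴ * V) * diagonal e)) * Vᴴ := by
            rw [h1, k1, Matrix.one_mul, Matrix.one_mul, hh]
        _ = _ := by simp only [Matrix.mul_assoc]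
  rw [h4, k4, e]
  rw [hA', hB', e] at h
  ext i j
  have := congrFun (congrFun h i) j
  rw [diagonal_mul, mul_diagonal] at this ⊢
  by_cases hS0 : S i j = 0
  · simp [hS0]
  · have : (α i : ℂ) = β j := by
      rw [mul_comm] at this
      exact mul_left_cancel₀ hS0 this
    rw [Complex.ofReal_inj.mp this, mul_comm]

theorem cfc_mulVec_of_eigen {A : Matrix n n ℂ} (hA : A.IsHermitian) {v : n → ℂ} {c : ℝ}
    (h : A *ᵥ v = (c : ℂ) • v) (f : ℝ → ℝ) : cfc f A *ᵥ v = (f c : ℂ) • v := by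
  have hB : (c • (1 : Matrix Unit Unit ℂ)).IsHermitian := by
    simp [IsHermitian, conjTranspose_smul]
  have h2 := cfc_mul_intertwine hA hB (replicateCol Unit v) (by
    ext i j
    have := congrFun h i
    simpa [mul_apply, mulVec, dotProduct, mul_comm] using this) f
  have h3 : cfc f (c • (1 : Matrix Unit Unit ℂ)) = f c • (1 : Matrix Unit Unit ℂ) := by
    rw [← Algebra.algebraMap_eq_smul_one, cfc_algebraMap, Algebra.algebraMap_eq_smul_one]
  rw [h3] at h2
  ext i
  have := congrFun (congrFun h2 i) ()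
  simpa [mul_apply, mulVec, dotProduct, mul_comm] using this

/-- Differentiating the functional calculus in a parameter of the function. -/
theorem hasDerivAt_cfc {A : Matrix n n ℂ} (hA : A.IsHermitian) (f : ℝ → ℝ → ℝ) (f' : ℝ → ℝ)
    (l0 : ℝ) (h : ∀ a ∈ spectrum ℝ A, HasDerivAt (fun l => f l a) (f' a) l0) :
    HasDerivAt (fun l => cfc (f l) A) (cfc f' A) l0 := by
  obtain ⟨U, α, -, -, h3, h4⟩ := exists_diag hA
  have e : ∀ g : ℝ → ℝ, cfc g A
      = ∑ i, g (α i) • (U * diagonal (Pi.single i (1 : ℂ)) * Uᴴ) := by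
    intro g
    rw [h4]
    simp only [← Matrix.smul_mul, ← Matrix.sum_mul]
    congr 1
    ext i j
    simp [Matrix.sum_apply, Pi.single_apply, mul_comm]
  simp only [e]
  exact HasDerivAt.fun_sum fun i _ => (h _ (h3 ▸ mem_range_self i)).smul_const _

theorem posSemidef_cfc (A : Matrix n n ℂ) {f : ℝ → ℝ} (h : ∀ a ∈ spectrum ℝ A, 0 ≤ f a) :
    (cfc f A).PosSemidef :=
  (cfc_nonneg h : 0 ≤ cfc f A).posSemidef

theorem posSemidef_cfc_sub (A : Matrix n n ℂ) {f g : ℝ → ℝ}
    (h : ∀ a ∈ spectrum ℝ A, f a ≤ g a) : (cfc g A - cfc f A).PosSemidef := by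
  rw [← cfc_sub']
  exact posSemidef_cfc A fun a ha => sub_nonneg.mpr (h a ha)

theorem le_of_mem_spectrum {A : Matrix n n ℂ} {c : ℝ}
    (h : (A - c • (1 : Matrix n n ℂ)).PosSemidef) {a : ℝ} (ha : a ∈ spectrum ℝ A) : c ≤ a := by
  have hA : A.IsHermitian := by
    have := h.isHermitian.add (show (c • (1 : Matrix n n ℂ)).IsHermitian by
      simp [IsHermitian, conjTranspose_smul])
    simpa using this
  have h1 : algebraMap ℝ (Matrix n n ℂ) c ≤ A := by
    rw [Algebra.algebraMap_eq_smul_one]; exact h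
  exact (algebraMap_le_iff_le_spectrum (ha := hA)).mp h1 a ha

theorem ge_of_mem_spectrum {A : Matrix n n ℂ} {c : ℝ}
    (h : (c • (1 : Matrix n n ℂ) - A).PosSemidef) {a : ℝ} (ha : a ∈ spectrum ℝ A) : a ≤ c := by
  have hA : A.IsHermitian := by
    have := (show (c • (1 : Matrix n n ℂ)).IsHermitian by
      simp [IsHermitian, conjTranspose_smul]).sub h.isHermitian
    simpa using this
  have h1 : A ≤ algebraMap ℝ (Matrix n n ℂ) c := by
    rw [Algebra.algebraMap_eq_smul_one]; exact h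
  exact (le_algebraMap_iff_spectrum_le (ha := hA)).mp h1 a ha

theorem posSemidef_sub_of_spectrum {A : Matrix n n ℂ} (hA : A.IsHermitian) {c : ℝ}
    (h : ∀ a ∈ spectrum ℝ A, c ≤ a) : (A - c • (1 : Matrix n n ℂ)).PosSemidef := by
  have := posSemidef_cfc_sub A (f := fun _ => c) (g := fun t => t) h
  rwa [cfc_id_eq hA, cfc_const' c hA] at this

theorem posSemidef_sub_of_spectrum' {A : Matrix n n ℂ} (hA : A.IsHermitian) {c : ℝ}
    (h : ∀ a ∈ spectrum ℝ A, a ≤ c) : (c • (1 : Matrix n n ℂ) - A).PosSemidef := by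
  have := posSemidef_cfc_sub A (g := fun _ => c) (f := fun t => t) h
  rwa [cfc_id_eq hA, cfc_const' c hA] at this

theorem nonneg_of_mem_spectrum {A : Matrix n n ℂ} (h : A.PosSemidef) {a : ℝ}
    (ha : a ∈ spectrum ℝ A) : 0 ≤ a :=
  le_of_mem_spectrum (c := 0) (by simpa using h) ha

theorem pos_of_mem_spectrum {A : Matrix n n ℂ} (h : A.PosDef) {a : ℝ}
    (ha : a ∈ spectrum ℝ A) : 0 < a := by
  rw [h.isHermitian.spectrum_real_eq_range_eigenvalues] at ha
  obtain ⟨i, rfl⟩ := ha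
  exact h.eigenvalues_pos i

theorem posDef_cfc {A : Matrix n n ℂ} (hA : A.IsHermitian) {f : ℝ → ℝ}
    (h : ∀ a ∈ spectrum ℝ A, 0 < f a) : (cfc f A).PosDef := by
  rw [(posSemidef_cfc A fun a ha => (h a ha).le).posDef_iff_isUnit]
  exact isUnit_cfc f A (contOn A f) hA fun a ha => (h a ha).ne'

theorem posDef_of_sub {A : Matrix n n ℂ} {c : ℝ} (hc : 0 < c)
    (h : (A - c • (1 : Matrix n n ℂ)).PosSemidef) : A.PosDef := by
  have hA : A.IsHermitian := by
    have := h.isHermitian.add (show (c • (1 : Matrix n n ℂ)).IsHermitian by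
      simp [IsHermitian, conjTranspose_smul])
    simpa using this
  have := posDef_cfc hA (f := fun t => t) fun a ha => hc.trans_le (le_of_mem_spectrum h ha)
  rwa [cfc_id_eq hA] at this

/-- The inverse through the functional calculus. -/
theorem inv_cfc {A : Matrix n n ℂ} (hA : A.IsHermitian) {f : ℝ → ℝ}
    (h : ∀ a ∈ spectrum ℝ A, f a ≠ 0) : (cfc f A)⁻¹ = cfc (fun t => (f t)⁻¹) A := by
  apply Matrix.inv_eq_right_inv
  rw [← cfc_mul', ← cfc_one ℝ A hA.isSelfAdjoint]
  exact cfc_congr fun a ha => mul_inv_cancel₀ (h a ha)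

/-- Continuity of the functional calculus in the matrix. -/
theorem continuousOn_cfc_of_continuous {X : Type*} [TopologicalSpace X] {f : ℝ → ℝ}
    (hf : Continuous f) {a : X → Matrix n n ℂ} {t : Set X} (ha : ContinuousOn a t)
    (hH : ∀ x ∈ t, (a x).IsHermitian) : ContinuousOn (fun x => cfc f (a x)) t :=
  ContinuousOn.cfc_of_mem_nhdsSet (s := univ) f Filter.univ_mem ha hH hf.continuousOn

/-- Continuity of the functional calculus on positive definite matrices. -/
theorem continuousOn_cfc_of_posDef {X : Type*} [TopologicalSpace X] {f : ℝ → ℝ}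
    (hf : ContinuousOn f (Ioi 0)) {a : X → Matrix n n ℂ} {t : Set X} (ha : ContinuousOn a t)
    (hH : ∀ x ∈ t, (a x).PosDef) : ContinuousOn (fun x => cfc f (a x)) t := by
  refine ContinuousOn.cfc_of_mem_nhdsSet (s := Ioi 0) f ?_ ha (fun x hx => (hH x hx).isHermitian) hf
  refine isOpen_Ioi.mem_nhdsSet.mpr ?_
  simp only [iUnion_subset_iff]
  exact fun x hx a ha => pos_of_mem_spectrum (hH x hx) ha

theorem abs_rtr_le (A : Matrix n n ℂ) : |rtr A| ≤ Fintype.card n * ‖A‖ := by
  have h : ∀ i, ‖A i i‖ ≤ ‖A‖ := by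
    intro i
    have h1 := l2_opNorm_mulVec A (EuclideanSpace.single i (1 : ℂ))
    have h2 := PiLp.norm_apply_le
      (EuclideanSpace.equiv n ℂ |>.symm <| A *ᵥ (EuclideanSpace.single i (1 : ℂ))) i
    simp only [PiLp.norm_single, norm_one, mul_one] at h1
    refine le_trans (le_of_eq ?_) (h2.trans h1)
    simp
  calc |rtr A| ≤ ‖A.trace‖ := Complex.abs_re_le_norm _
    _ ≤ ∑ i, ‖A i i‖ := norm_sum_le _ _
    _ ≤ ∑ _i : n, ‖A‖ := Finset.sum_le_sum fun i _ => h i
    _ = _ := by simp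

end Vale.Agent.P371
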