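import Vale.Agent.P371.ClaimR

namespace Vale.Agent.P371

open MeasureTheory Matrix Set Filter Topology Asymptotics
open scoped ComplexOrder Matrix.Norms.L2Operator MatrixOrder

set_option linter.unusedSectionVars false

variable {n : Type*} [Fintype n] [DecidableEq n]

theorem continuous_eta : Continuous eta := Real.continuous_mul_log.sub continuous_id

theorem eta_taylor {c a b : ℝ} (hc : 0 < c) (ha : c ≤ a) (hb : c ≤ b) :
    |eta b - eta a - Real.log a * (b - a)| ≤ c⁻¹ * (b - a) ^ 2 := by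
  have ha0 : 0 < a := hc.trans_le ha
  have hb0 : 0 < b := hc.trans_le hb
  have e : eta b - eta a - Real.log a * (b - a) = b * Real.log (b / a) - (b - a) := by
    rw [Real.log_div hb0.ne' ha0.ne', eta, eta]
    ring
  have h1 : Real.log (b / a) ≤ b / a - 1 := Real.log_le_sub_one_of_pos (by positivity)
  have h2 : 1 - (b / a)⁻¹ ≤ Real.log (b / a) := Real.one_sub_inv_le_log_of_pos (by positivity)
  have h3 : b * (1 - (b / a)⁻¹) = b - a := by field_simp
  have h4 : b * (b / a - 1) - (b - a) = a⁻¹ * (b - a) ^ 2 := by field_simp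
  have h5 : a⁻¹ * (b - a) ^ 2 ≤ c⁻¹ * (b - a) ^ 2 :=
    mul_le_mul_of_nonneg_right (inv_anti₀ hc ha) (sq_nonneg _)
  have h6 := mul_le_mul_of_nonneg_left h1 hb0.le
  have h7 := mul_le_mul_of_nonneg_left h2 hb0.le
  rw [e, abs_of_nonneg (by linarith)]
  linarith

theorem le_norm_smul_one {κ : Matrix n n ℂ} (hκ : κ.IsHermitian) :
    (‖κ‖ • (1 : Matrix n n ℂ) - κ).PosSemidef := by
  have := IsSelfAdjoint.le_algebraMap_norm_self hκ.isSelfAdjoint
  rwa [Algebra.algebraMap_eq_smul_one] at this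

theorem Sm_taylor {κ : Matrix n n ℂ} (hκ : κ.PosSemidef) {l0 : ℝ} (hl0 : 0 < l0) :
    ∃ C : ℝ, 0 ≤ C ∧ ∀ Z0 Z1 : Matrix n n ℂ, (κ - Z0).PosSemidef → (κ + Z0).PosSemidef →
      (κ - Z1).PosSemidef → (κ + Z1).PosSemidef → ∀ l, l0 ≤ l →
      |Sm κ Z1 l - Sm κ Z0 l - rtr (Lm κ Z0 l * (Z1 - Z0))| ≤ C * ‖Z1 - Z0‖ ^ 2 := by
  set R := ‖κ‖ with hR
  set c := √(R ^ 2 + l0) - R with hc
  have hc0 : 0 < c := sub_pos.mpr (Real.lt_sqrt_of_sq_lt (by linarith))
  refine ⟨2 * c⁻¹ * Fintype.card n, by positivity, fun Z0 Z1 a0 b0 a1 b1 l hl => ?_⟩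
  have hl' : 0 < l := hl0.trans_le hl
  have hm := mOf_sub_ge hκ (le_norm_smul_one hκ.isHermitian) hl'.le
  have hcl : c ≤ √(R ^ 2 + l) - R := by
    have : √(R ^ 2 + l0) ≤ √(R ^ 2 + l) := Real.sqrt_le_sqrt (by linarith)
    linarith
  have hp : ∀ Z : Matrix n n ℂ, (κ + Z).PosSemidef → ∀ t ∈ spectrum ℝ (mOf κ l + Z), c ≤ t := by
    intro Z hZ t ht
    refine hcl.trans (le_of_mem_spectrum ?_ ht)
    convert hm.add hZ using 1
    abel
  have hn : ∀ Z : Matrix n n ℂ, (κ - Z).PosSemidef → ∀ t ∈ spectrum ℝ (mOf κ l - Z), c ≤ t := by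
    intro Z hZ t ht
    refine hcl.trans (le_of_mem_spectrum ?_ ht)
    convert hm.add hZ using 1
    abel
  have k1 := abs_rtr_cfc_sub_le (posDef_mOf_add hκ b0 hl').isHermitian
    (posDef_mOf_add hκ b1 hl').isHermitian eta Real.log c⁻¹
    (fun a ha b hb => eta_taylor hc0 (hp _ b0 a ha) (hp _ b1 b hb))
  have k2 := abs_rtr_cfc_sub_le (posDef_mOf_sub hκ a0 hl').isHermitian
    (posDef_mOf_sub hκ a1 hl').isHermitian eta Real.log c⁻¹
    (fun a ha b hb => eta_taylor hc0 (hn _ a0 a ha) (hn _ a1 b hb))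
  have e1 : mOf κ l + Z1 - (mOf κ l + Z0) = Z1 - Z0 := by abel
  have e2 : mOf κ l - Z1 - (mOf κ l - Z0) = -(Z1 - Z0) := by abel
  rw [e1] at k1
  rw [e2, Matrix.mul_neg, Matrix.mul_neg, Matrix.neg_mul, neg_neg, rtr_neg] at k2
  have k3 : rtr ((Z1 - Z0) * (Z1 - Z0)) ≤ Fintype.card n * ‖Z1 - Z0‖ ^ 2 := by
    refine (le_abs_self _).trans ((abs_rtr_le _).trans ?_)
    rw [sq]
    exact mul_le_mul_of_nonneg_left (norm_mul_le _ _) (Nat.cast_nonneg _)
  have e3 : Sm κ Z1 l - Sm κ Z0 l - rtr (Lm κ Z0 l * (Z1 - Z0))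
      = (rtr (cfc eta (mOf κ l + Z1)) - rtr (cfc eta (mOf κ l + Z0))
          - rtr (cfc Real.log (mOf κ l + Z0) * (Z1 - Z0)))
        - (rtr (cfc eta (mOf κ l - Z1)) - rtr (cfc eta (mOf κ l - Z0))
          - -rtr (cfc Real.log (mOf κ l - Z0) * (Z1 - Z0))) := by
    rw [Sm, Sm, Lm, Matrix.sub_mul, Matrix.add_mul, Matrix.smul_mul, Matrix.one_mul, rtr_sub,
      rtr_add, rtr_smul, rtr_sub, lg, lg]
    ring
  rw [e3]
  refine (abs_sub _ _).trans ?_
  have k4 := mul_le_mul_of_nonneg_left k3 (inv_nonneg.mpr hc0.le)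
  nlinarith

theorem continuousOn_Sm {κ Z : Matrix n n ℂ} (hκ : κ.IsHermitian) (hZ : Z.IsHermitian) :
    ContinuousOn (Sm κ Z) (Ioi 0) := by
  have h1 := continuousOn_cfc_of_continuous continuous_eta
    ((continuousOn_mOf hκ).add (continuousOn_const (c := Z)))
    (fun l _ => (isHermitian_mOf κ l).add hZ)
  have h2 := continuousOn_cfc_of_continuous continuous_eta
    ((continuousOn_mOf hκ).sub (continuousOn_const (c := Z)))
    (fun l _ => (isHermitian_mOf κ l).sub hZ)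
  exact ((continuous_rtr.comp_continuousOn h1).sub (continuous_rtr.comp_continuousOn h2)).sub
    (continuousOn_log_Ioi.mul continuousOn_const)

/-- The integrated potential `∫ l^e S_l(Z) dl` has the gradient `∫ l^e L_l(Z) dl`. -/
theorem SI_taylor {κ : Matrix n n ℂ} (hκ : κ.PosSemidef) (e : ℝ) {l0 l1 : ℝ} (hl0 : 0 < l0)
    (hl : l0 ≤ l1) :
    ∃ C : ℝ, ∀ Z0 : Matrix n n ℂ, (κ - Z0).PosSemidef → (κ + Z0).PosSemidef →
      ∃ Λ : Matrix n n ℂ →L[ℝ] ℝ, (∀ E, Λ E = ∫ l in l0..l1, l ^ e * rtr (Lm κ Z0 l * E)) ∧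
        ∀ Z1 : Matrix n n ℂ, (κ - Z1).PosSemidef → (κ + Z1).PosSemidef →
          |(∫ l in l0..l1, l ^ e * Sm κ Z1 l) - (∫ l in l0..l1, l ^ e * Sm κ Z0 l) - Λ (Z1 - Z0)|
            ≤ C * ‖Z1 - Z0‖ ^ 2 := by
  obtain ⟨C, hC0, hC⟩ := Sm_taylor hκ hl0
  have hsub : Icc l0 l1 ⊆ Ioi 0 := fun x hx => hl0.trans_le hx.1
  have hpow : ContinuousOn (fun l : ℝ => l ^ e) (Icc l0 l1) :=
    continuousOn_id.rpow_const fun x hx => Or.inl (ne_of_gt (hsub hx))
  refine ⟨(∫ l in l0..l1, l ^ e) * C, fun Z0 a0 b0 => ?_⟩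
  have hL := (continuousOn_Lm hκ a0 b0).mono hsub
  have iL : IntervalIntegrable (fun l : ℝ => l ^ e • Lm κ Z0 l) volume l0 l1 :=
    (hpow.smul hL).intervalIntegrable_of_Icc hl
  have hΛ : ∀ E : Matrix n n ℂ, rtr ((∫ l in l0..l1, l ^ e • Lm κ Z0 l) * E)
      = ∫ l in l0..l1, l ^ e * rtr (Lm κ Z0 l * E) := by
    intro E
    have := ((rtrL n).comp ((ContinuousLinearMap.mul ℝ (Matrix n n ℂ)).flip
      E)).intervalIntegral_comp_comm iL
    simpa using this.symm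
  refine ⟨(rtrL n).comp (ContinuousLinearMap.mul ℝ (Matrix n n ℂ)
    (∫ l in l0..l1, l ^ e • Lm κ Z0 l)), hΛ, fun Z1 a1 b1 => ?_⟩
  have iS : ∀ Z : Matrix n n ℂ, (κ - Z).PosSemidef →
      IntervalIntegrable (fun l : ℝ => l ^ e * Sm κ Z l) volume l0 l1 := fun Z hZ =>
    (hpow.mul ((continuousOn_Sm hκ.isHermitian
      (isHermitian_of_sub hκ.isHermitian hZ)).mono hsub)).intervalIntegrable_of_Icc hl
  have iE : IntervalIntegrable (fun l : ℝ => l ^ e * rtr (Lm κ Z0 l * (Z1 - Z0))) volume l0 l1 :=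
    (hpow.mul (continuous_rtr.comp_continuousOn
      (hL.mul continuousOn_const))).intervalIntegrable_of_Icc hl
  have e1 : ((rtrL n).comp (ContinuousLinearMap.mul ℝ (Matrix n n ℂ)
      (∫ l in l0..l1, l ^ e • Lm κ Z0 l))) (Z1 - Z0)
      = ∫ l in l0..l1, l ^ e * rtr (Lm κ Z0 l * (Z1 - Z0)) := hΛ _
  rw [e1, ← intervalIntegral.integral_sub (iS _ a1) (iS _ a0),
    ← intervalIntegral.integral_sub ((iS _ a1).sub (iS _ a0)) iE, mul_assoc,
    ← intervalIntegral.integral_mul_const]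
  refine (intervalIntegral.abs_integral_le_integral_abs hl).trans ?_
  refine intervalIntegral.integral_mono_on hl (((iS _ a1).sub (iS _ a0)).sub iE).abs
    ((hpow.intervalIntegrable_of_Icc hl).mul_const _) fun l hl' => ?_
  have h0 : 0 ≤ l ^ e := Real.rpow_nonneg (le_of_lt (hsub hl')) e
  rw [← mul_sub, ← mul_sub, abs_mul, abs_of_nonneg h0]
  exact mul_le_mul_of_nonneg_left (hC Z0 Z1 a0 b0 a1 b1 l hl'.1) h0

theorem Sm_self_sub {κ : Matrix n n ℂ} (hκ : κ.IsHermitian) (l : ℝ) :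
    Sm κ κ l - Sm κ (-κ) l = rtr (cfc (fun k : ℝ =>
      2 * (eta (√(k ^ 2 + l) + k) - eta (√(k ^ 2 + l) - k) - Real.log l * k)) κ) := by
  rw [cfc_const_mul', cfc_sub', cfc_sub', cfc_const_mul', cfc_id_eq hκ,
    ← cfc_cfc eta (fun k : ℝ => √(k ^ 2 + l) + k) hκ,
    ← cfc_cfc eta (fun k : ℝ => √(k ^ 2 + l) - k) hκ, ← mOf_add_eq hκ, ← mOf_sub_eq hκ, Sm, Sm,
    sub_neg_eq_add (mOf κ l), ← sub_eq_add_neg (mOf κ l)]
  simp only [rtr_smul, rtr_sub, rtr_neg]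
  ring

theorem continuousOn_rtr_pw {X : Type*} [TopologicalSpace X] {p : ℝ} (hp : 0 ≤ p)
    {V : X → Matrix n n ℂ} {t : Set X} (hVc : ContinuousOn V t)
    (hVp : ∀ x ∈ t, (V x).IsHermitian) : ContinuousOn (fun x => rtr (pw (V x) p)) t :=
  continuous_rtr.comp_continuousOn
    (continuousOn_cfc_of_continuous (Real.continuous_rpow_const hp) hVc hVp)

theorem stepA_aux {p : ℝ} (hp1 : 1 < p) (hp2 : p < 2) {a b : ℝ} (hab : a ≤ b) {κ : Matrix n n ℂ}
    (hκ : κ.PosSemidef) {V Z : ℝ → Matrix n n ℂ} (hVc : ContinuousOn V (Icc a b))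
    (hVp : ∀ x ∈ Icc a b, (V x).PosSemidef) (hZc : ContinuousOn Z (Icc a b))
    (hZd : ∀ x ∈ Ioo a b, HasDerivAt Z (κ * κ - Z x * Z x - V x) x)
    (hZ : ∀ x ∈ Icc a b, (κ - Z x).PosSemidef ∧ (κ + Z x).PosSemidef)
    {l0 l1 : ℝ} (hl0 : 0 < l0) (hl : l0 ≤ l1) {D : ℝ}
    (hD : ∀ x ∈ Icc a b, wm κ (Z x) l0 ≤ D) :
    (∫ l in l0..l1, l ^ (p - 2) * Sm κ (Z a) l) - (∫ l in l0..l1, l ^ (p - 2) * Sm κ (Z b) l)
      ≤ Jc (p - 1) * Cp p * (∫ x in a..b, rtr (pw (V x) p))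
        + (b - a) * (l0 ^ (p - 1) * D / (p - 1)) := by
  obtain ⟨C, hC⟩ := SI_taylor hκ (p - 2) hl0 hl
  choose! Λ hΛ1 hΛ2 using hC
  set S : ℝ → ℝ := fun x => ∫ l in l0..l1, l ^ (p - 2) * Sm κ (Z x) l with hS
  have hT : ∀ x ∈ Icc a b, ∀ y ∈ Icc a b,
      |S y - S x - Λ (Z x) (Z y - Z x)| ≤ C * ‖Z y - Z x‖ ^ 2 := fun x hx y hy =>
    hΛ2 _ (hZ x hx).1 (hZ x hx).2 _ (hZ y hy).1 (hZ y hy).2
  have hcont : ContinuousOn S (Icc a b) := by
    intro x hx
    have h1 : Tendsto (fun y => Z y - Z x) (𝓝[Icc a b] x) (𝓝 0) :=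
      tendsto_sub_nhds_zero_iff.mpr (hZc x hx)
    have h2 : Tendsto (fun y => S y - S x - Λ (Z x) (Z y - Z x)) (𝓝[Icc a b] x) (𝓝 0) := by
      refine squeeze_zero_norm' (a := fun y => C * ‖Z y - Z x‖ ^ 2) ?_ ?_
      · filter_upwards [self_mem_nhdsWithin] with y hy using hT x hx y hy
      · simpa using (h1.norm.pow 2).const_mul C
    have h3 : Tendsto (fun y => Λ (Z x) (Z y - Z x)) (𝓝[Icc a b] x) (𝓝 0) := by
      have := ((Λ (Z x)).continuous.tendsto 0).comp h1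
      rwa [map_zero] at this
    have h4 := (h2.add h3).add_const (S x)
    have h5 : Tendsto S (𝓝[Icc a b] x) (𝓝 (S x)) := by simpa using h4
    exact h5
  have hder : ∀ x ∈ Ioo a b, HasDerivAt S (Λ (Z x) (κ * κ - Z x * Z x - V x)) x := by
    intro x hx
    have hx' : x ∈ Icc a b := Ioo_subset_Icc_self hx
    have h1 := (Λ (Z x)).hasFDerivAt.comp_hasDerivAt x (hZd x hx)
    have h2 : (fun y => S y - S x - Λ (Z x) (Z y - Z x)) =o[𝓝 x] (fun y => y - x) := by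
      have k1 := (hZd x hx).isBigO_sub
      have k2 : (fun y => ‖Z y - Z x‖) =o[𝓝 x] (fun _ => (1 : ℝ)) := by
        rw [isLittleO_one_iff]
        simpa using (tendsto_sub_nhds_zero_iff.mpr (hZd x hx).continuousAt).norm
      have k3 := k1.norm_left.mul_isLittleO k2
      simp only [mul_one] at k3
      refine IsBigO.trans_isLittleO (IsBigO.of_bound |C| ?_) k3
      filter_upwards [Icc_mem_nhds hx.1 hx.2] with y hy
      refine (hT x hx' y hy).trans ?_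
      rw [Real.norm_eq_abs, abs_mul_self, ← sq]
      exact mul_le_mul_of_nonneg_right (le_abs_self C) (sq_nonneg _)
    rw [hasDerivAt_iff_isLittleO] at h1 ⊢
    refine (h2.add h1).congr_left fun y => ?_
    simp only [Function.comp, map_sub]
    ring
  have hW := continuousOn_rtr_pw (by linarith : (0 : ℝ) ≤ p) hVc fun x hx => (hVp x hx).isHermitian
  have key := intervalIntegral.sub_le_integral_of_hasDeriv_right_of_le
    (g := fun x => -S x) (g' := fun x => -Λ (Z x) (κ * κ - Z x * Z x - V x))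
    (φ := fun x => Jc (p - 1) * Cp p * rtr (pw (V x) p) + l0 ^ (p - 1) * D / (p - 1)) hab
    hcont.neg (fun x hx => (hder x hx).neg.hasDerivWithinAt)
    (((continuousOn_const.mul hW).add continuousOn_const).integrableOn_Icc)
    (fun x hx => by
      have hx' : x ∈ Icc a b := Ioo_subset_Icc_self hx
      have h1 := claimR hp1 hp2 hκ (hZ x hx').1 (hZ x hx').2 (hVp x hx') hl0 hl
      rw [← map_neg, neg_sub, hΛ1 _ (hZ x hx').1 (hZ x hx').2]
      refine h1.trans (add_le_add le_rfl ?_)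
      exact div_le_div_of_nonneg_right
        (mul_le_mul_of_nonneg_left (hD x hx') (Real.rpow_nonneg hl0.le _)) (by linarith))
  rw [intervalIntegral.integral_add ((hW.intervalIntegrable_of_Icc hab).const_mul _)
    intervalIntegrable_const, intervalIntegral.integral_const_mul,
    intervalIntegral.integral_const, smul_eq_mul] at key
  linarith

theorem stepA {p : ℝ} (hp1 : 1 < p) (hp2 : p < 2) {a b : ℝ} (hab : a ≤ b) {κ : Matrix n n ℂ}
    (hκ : κ.PosDef) {V Z : ℝ → Matrix n n ℂ} (hVc : ContinuousOn V (Icc a b))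
    (hVp : ∀ x ∈ Icc a b, (V x).PosSemidef) (hZc : ContinuousOn Z (Icc a b))
    (hZd : ∀ x ∈ Ioo a b, HasDerivAt Z (κ * κ - Z x * Z x - V x) x) (hZa : Z a = κ)
    (hZb : Z b = -κ) (hZ : ∀ x ∈ Icc a b, (κ - Z x).PosSemidef ∧ (κ + Z x).PosSemidef) :
    2 * Ip p * rtr (pw κ (2 * p - 1)) ≤ Cp p * ∫ x in a..b, rtr (pw (V x) p) := by
  have ha0 : 0 < p - 1 := by linarith
  have ha1 : p - 1 < 1 := by linarith
  obtain ⟨C, hC⟩ := wm_le hκ.posSemidef
  obtain ⟨k, hk1, hk2⟩ := exists_rtr_cfc hκ.isHermitian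
  have hk0 : ∀ i, 0 < k i := fun i => pos_of_mem_spectrum hκ (hk1 ▸ mem_range_self i)
  have hN : ∀ N : ℕ, (0 : ℝ) < 1 / ((N : ℝ) + 1) ∧ 1 / ((N : ℝ) + 1) ≤ 1 ∧ (1 : ℝ) ≤ (N : ℝ) + 1 := by
    intro N
    have : (0 : ℝ) ≤ N := Nat.cast_nonneg N
    exact ⟨by positivity, by rw [div_le_one (by positivity)]; linarith, by linarith⟩
  have h1 : ∀ N : ℕ, ∑ i, ∫ l in (1 / ((N : ℝ) + 1))..((N : ℝ) + 1), l ^ (p - 1 - 1) *
        (2 * (eta (√(k i ^ 2 + l) + k i) - eta (√(k i ^ 2 + l) - k i) - Real.log l * k i))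
      ≤ Jc (p - 1) * Cp p * (∫ x in a..b, rtr (pw (V x) p))
        + (b - a) * ((1 / ((N : ℝ) + 1)) ^ (p - 1) * (C * (1 + |Real.log (1 / ((N : ℝ) + 1))|))
          / (p - 1)) := by
    intro N
    obtain ⟨n1, n2, n3⟩ := hN N
    have hl := n2.trans n3
    have hsub : Icc (1 / ((N : ℝ) + 1)) ((N : ℝ) + 1) ⊆ Ioi 0 := fun x hx => n1.trans_le hx.1
    have hpow : ContinuousOn (fun l : ℝ => l ^ (p - 2)) (Icc (1 / ((N : ℝ) + 1)) ((N : ℝ) + 1)) :=
      continuousOn_id.rpow_const fun x hx => Or.inl (ne_of_gt (hsub hx))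
    have key := stepA_aux hp1 hp2 hab hκ.posSemidef hVc hVp hZc hZd hZ n1 hl
      (fun x hx => hC _ (hZ x hx).1 (hZ x hx).2 _ ⟨n1, n2⟩)
    have iS : ∀ Z : Matrix n n ℂ, Z.IsHermitian → IntervalIntegrable
        (fun l : ℝ => l ^ (p - 2) * Sm κ Z l) volume (1 / ((N : ℝ) + 1)) ((N : ℝ) + 1) :=
      fun Z hZ => (hpow.mul ((continuousOn_Sm hκ.isHermitian hZ).mono
        hsub)).intervalIntegrable_of_Icc hl
    rw [hZa, hZb, ← intervalIntegral.integral_sub (iS _ hκ.isHermitian)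
      (iS _ hκ.isHermitian.neg)] at key
    refine le_trans (le_of_eq ?_) key
    have e0 : p - 1 - 1 = p - 2 := by ring
    rw [← intervalIntegral.integral_finsetSum, e0]
    · refine intervalIntegral.integral_congr fun l _ => ?_
      rw [← mul_sub, Sm_self_sub hκ.isHermitian, hk2, Finset.mul_sum]
    · intro i _
      rw [e0]
      refine (hpow.mul (continuousOn_const.mul ?_)).intervalIntegrable_of_Icc hl
      have c1 : Continuous fun l : ℝ => √(k i ^ 2 + l) := by fun_prop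
      exact ((continuous_eta.comp (c1.add continuous_const)).continuousOn.sub
        (continuous_eta.comp (c1.sub continuous_const)).continuousOn).sub
        ((continuousOn_log_Ioi.mono hsub).mul continuousOn_const)
  have h2 := tendsto_finsetSum Finset.univ fun i _ => tendsto_integral_g ha0 ha1 (hk0 i)
  have h3 : Tendsto (fun N : ℕ => (1 / ((N : ℝ) + 1)) ^ (p - 1) *
      (1 + |Real.log (1 / ((N : ℝ) + 1))|)) atTop (𝓝 0) := by
    have t0 : Tendsto (fun N : ℕ => 1 / ((N : ℝ) + 1)) atTop (𝓝[>] 0) :=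
      tendsto_nhdsWithin_iff.mpr ⟨tendsto_one_div_add_atTop_nhds_zero_nat,
        Eventually.of_forall fun N => (hN N).1⟩
    have t1 := ((tendsto_log_mul_rpow_nhdsGT_zero ha0).comp t0).abs
    have t2 : Tendsto (fun N : ℕ => (1 / ((N : ℝ) + 1)) ^ (p - 1)) atTop (𝓝 0) := by
      have := ((Real.continuous_rpow_const ha0.le).tendsto 0).comp
        (tendsto_one_div_add_atTop_nhds_zero_nat (𝕜 := ℝ))
      rwa [Real.zero_rpow ha0.ne'] at this
    have t3 := t2.add t1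
    rw [abs_zero, add_zero] at t3
    refine t3.congr fun N => ?_
    simp only [Function.comp]
    rw [abs_mul, abs_of_nonneg (Real.rpow_nonneg (hN N).1.le _)]
    ring
  have h4 : Tendsto (fun N : ℕ => Jc (p - 1) * Cp p * (∫ x in a..b, rtr (pw (V x) p))
        + (b - a) * ((1 / ((N : ℝ) + 1)) ^ (p - 1) * (C * (1 + |Real.log (1 / ((N : ℝ) + 1))|))
          / (p - 1))) atTop (𝓝 (Jc (p - 1) * Cp p * (∫ x in a..b, rtr (pw (V x) p)))) := by
    have := (h3.const_mul ((b - a) * C / (p - 1))).const_add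
      (Jc (p - 1) * Cp p * (∫ x in a..b, rtr (pw (V x) p)))
    rw [mul_zero, add_zero] at this
    refine this.congr fun N => ?_
    ring
  have h5 := le_of_tendsto_of_tendsto' h2 h4 h1
  have e1 : p - 1 + 1 = p := by ring
  have e2 : 2 * (p - 1) + 1 = 2 * p - 1 := by ring
  rw [← Finset.mul_sum, ← Finset.mul_sum, e1, e2, mul_assoc (Jc (p - 1))] at h5
  rw [pw, hk2]
  exact le_of_mul_le_mul_left h5 (Jc_pos ha0 ha1)

end Vale.Agent.P371
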