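import Vale.Agent.P371.Core
import Vale.Agent.P371.GammaC

namespace Vale.Agent.P371

open MeasureTheory Matrix Set Filter Topology
open scoped ComplexOrder Matrix.Norms.L2Operator MatrixOrder

set_option linter.unusedSectionVars false

variable {n : Type*} [Fintype n] [DecidableEq n]

theorem trPow_nonneg {m : ℕ} {A : Matrix (Fin m) (Fin m) ℂ} (hA : A.PosSemidef) (p : ℝ) :
    0 ≤ trPow A p :=
  rtr_nonneg (posSemidef_cfc A fun _ ha => Real.rpow_nonneg (nonneg_of_mem_spectrum hA ha) p)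

theorem IsPotential.integrable {γ : ℝ} (h1 : 1 / 2 < γ) {m : ℕ}
    {W : ℝ → Matrix (Fin m) (Fin m) ℂ} (hW : IsPotential γ W) :
    Integrable fun x => trPow (W x) (γ + 1 / 2) := by
  have hc : Continuous fun H : Matrix (Fin m) (Fin m) ℂ =>
      rtr (cfc (fun t : ℝ => t ^ (γ + 1 / 2)) ((1 / 2 : ℝ) • (H + Hᴴ))) := by
    refine continuous_rtr.comp ?_
    rw [← continuousOn_univ]
    refine continuousOn_cfc_of_continuous (Real.continuous_rpow_const (by linarith)) ?_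
      fun H _ => by simp [IsHermitian, conjTranspose_smul, add_comm]
    exact ((continuous_id.add continuous_star).const_smul (1 / 2 : ℝ)).continuousOn
  have hc' : Continuous fun H : Fin m → Fin m → ℂ =>
      rtr (cfc (fun t : ℝ => t ^ (γ + 1 / 2)) ((1 / 2 : ℝ) • (Matrix.of H + (Matrix.of H)ᴴ))) := hc
  have hm : Measurable fun x => (fun i j => W x i j : Fin m → Fin m → ℂ) :=
    measurable_pi_iff.mpr fun i => measurable_pi_iff.mpr fun j => hW.measurable i j
  have hm2 : Measurable fun x => trPow (W x) (γ + 1 / 2) := by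
    convert hc'.measurable.comp hm using 1
    ext x
    have e : (1 / 2 : ℝ) • (W x + (W x)ᴴ) = W x := by
      rw [(hW.posSemidef x).isHermitian.eq]
      module
    change trPow (W x) (γ + 1 / 2)
      = rtr (cfc (fun t : ℝ => t ^ (γ + 1 / 2)) ((1 / 2 : ℝ) • (W x + (W x)ᴴ)))
    rw [e]
    rfl
  refine ⟨hm2.aestronglyMeasurable, ?_⟩
  rw [hasFiniteIntegral_iff_ofReal (ae_of_all _ fun x => trPow_nonneg (hW.posSemidef x) _)]
  exact hW.lintegral_lt_top

theorem sum_eigen_le {γ : ℝ} (h1 : 1 / 2 < γ) (h2 : γ < 3 / 2) {m : ℕ}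
    {W : ℝ → Matrix (Fin m) (Fin m) ℂ} (hW : IsPotential γ W) {N : ℕ} (ψ : Fin N → H1 m)
    (E : Fin N → ℝ)
    (ho : ∀ j k, l2Inner (ψ j).toFun (ψ k).toFun = if j = k then 1 else 0)
    (hE : ∀ j, E j < 0 ∧ IsEigen W (E j) (ψ j)) :
    2 * Ip (γ + 1 / 2) * ∑ j, |E j| ^ γ
      ≤ Cp (γ + 1 / 2) * ∫ x, trPow (W x) (γ + 1 / 2) := by
  have hWi : Integrable fun x => rtr (pw (W x) (γ + 1 / 2)) := hW.integrable h1
  set Ψ : ℝ → Matrix (Fin N) (Fin m) ℂ := fun x => Matrix.of fun j i => star ((ψ j).toFun x i)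
    with hΨd
  set Ψ' : ℝ → Matrix (Fin N) (Fin m) ℂ := fun x => Matrix.of fun j i => star ((ψ j).deriv x i)
    with hΨ'd
  have hΨ : ∀ j i, IsH1 (fun x => Ψ x j i) (fun x => Ψ' x j i) := fun j i =>
    ((ψ j).isH1 i).star
  have e1 : ∀ x j k, (Ψ x * (Ψ x)ᴴ) j k = star ((ψ j).toFun x) ⬝ᵥ (ψ k).toFun x := by
    intro x j k
    simp [hΨd, mul_apply, dotProduct]
  have e2 : ∀ x j k, (Ψ' x * (Ψ' x)ᴴ) j k = star ((ψ j).deriv x) ⬝ᵥ (ψ k).deriv x := by
    intro x j k
    simp [hΨ'd, mul_apply, dotProduct]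
  have e3 : ∀ x j k, (Ψ x * W x * (Ψ x)ᴴ) j k
      = star ((ψ j).toFun x) ⬝ᵥ (W x *ᵥ (ψ k).toFun x) := by
    intro x j k
    rw [Matrix.mul_assoc]
    simp [hΨd, mul_apply, dotProduct, mulVec]
  have horth : ∀ j k, ∫ x, (Ψ x * (Ψ x)ᴴ) j k = (1 : Matrix (Fin N) (Fin N) ℂ) j k := by
    intro j k
    simp only [e1, one_apply]
    exact ho j k
  have heig : ∀ j k, (∫ x, (Ψ' x * (Ψ' x)ᴴ) j k) - ∫ x, (Ψ x * W x * (Ψ x)ᴴ) j k
      = -(diagonal fun i => ((|E i| : ℝ) : ℂ)) j k := by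
    intro j k
    simp only [e2, e3]
    have := (hE k).2 (ψ j)
    rw [ho j k] at this
    refine this.trans ?_
    rw [diagonal_apply]
    split_ifs with h
    · subst h
      rw [abs_of_neg (hE j).1]
      simp
    · simp
  have key : ∀ η : ℝ, 0 < η → (∀ j, η < |E j|) →
      2 * Ip (γ + 1 / 2) * ∑ j, (|E j| - η) ^ γ
        ≤ Cp (γ + 1 / 2) * ((∫ x, trPow (W x) (γ + 1 / 2)) + η) := by
    intro η hη hηE
    obtain ⟨a, b, hab, hT, hX⟩ := trunc (p := γ + 1 / 2) (by linarith) hW.measurable hW.posSemidef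
      hWi hΨ horth (d := fun i => |E i|) heig hη
    exact core h1 h2 hW.measurable hW.posSemidef hWi (lt_add_of_pos_right _ hη) hΨ horth
      (d := fun i => |E i| - η) (fun i => sub_pos.mpr (hηE i)) hab hT hX
  have c1 : Continuous fun η : ℝ => 2 * Ip (γ + 1 / 2) * ∑ j, (|E j| - η) ^ γ := by
    refine continuous_const.mul (continuous_finsetSum _ fun j _ => ?_)
    exact (Real.continuous_rpow_const (by linarith)).comp (continuous_const.sub continuous_id)
  have c2 : Continuous fun η : ℝ => Cp (γ + 1 / 2) * ((∫ x, trPow (W x) (γ + 1 / 2)) + η) := by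
    fun_prop
  have t1 := (c1.tendsto 0).mono_left (nhdsWithin_le_nhds (s := Ioi 0))
  have t2 := (c2.tendsto 0).mono_left (nhdsWithin_le_nhds (s := Ioi 0))
  simp only [sub_zero, add_zero] at t1 t2
  refine le_of_tendsto_of_tendsto t1 t2 ?_
  have ev : ∀ᶠ η in 𝓝[>] (0 : ℝ), ∀ j, η < |E j| := by
    refine eventually_all.mpr fun j => ?_
    exact nhdsWithin_le_nhds (Iio_mem_nhds (abs_pos.mpr (hE j).1.ne))
  filter_upwards [self_mem_nhdsWithin, ev] with η h h'
  exact key η h h'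

theorem ltConst_le {γ : ℝ} (h1 : 1 / 2 < γ) (h2 : γ < 3 / 2) (m : ℕ) :
    ltConst γ m ≤ ENNReal.ofReal (Cp (γ + 1 / 2) / (2 * Ip (γ + 1 / 2))) := by
  have hI : 0 < Ip (γ + 1 / 2) := Ip_pos (by linarith)
  have hC : 0 ≤ Cp (γ + 1 / 2) :=
    div_nonneg (Real.rpow_nonneg (by linarith) _) (Real.rpow_nonneg (by linarith) _)
  refine iSup_le fun W => iSup_le fun hW => iSup_le fun _ => ENNReal.div_le_of_le_mul ?_
  rw [← ofReal_integral_eq_lintegral_ofReal (hW.integrable h1)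
    (ae_of_all _ fun x => trPow_nonneg (hW.posSemidef x) _),
    ← ENNReal.ofReal_mul (by positivity)]
  refine iSup_le fun N => iSup_le fun ψ => iSup_le fun E => iSup_le fun ho => iSup_le fun hE => ?_
  refine ENNReal.ofReal_le_ofReal ?_
  rw [div_mul_eq_mul_div, le_div_iff₀ (by positivity), mul_comm]
  exact sum_eigen_le h1 h2 hW ψ E ho hE

end Vale.Agent.P371
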