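import Vale.Agent.P371.MBasic
import Vale.Agent.P371.GT
import Vale.Agent.P371.LogDeriv
import Vale.Agent.P371.DlogBound

namespace Vale.Agent.P371

open MeasureTheory Matrix Set Filter Topology
open scoped ComplexOrder Matrix.Norms.L2Operator MatrixOrder

set_option linter.unusedSectionVars false

variable {n : Type*} [Fintype n] [DecidableEq n]

theorem continuousOn_mOf {κ : Matrix n n ℂ} (hκ : κ.IsHermitian) : ContinuousOn (mOf κ) (Ioi 0) :=
  fun _ hl => (hasDerivAt_mOf hκ hl).continuousAt.continuousWithinAt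

theorem continuousOn_log_Ioi : ContinuousOn Real.log (Ioi 0) :=
  Real.continuousOn_log.mono fun _ hx => ne_of_gt hx

theorem continuousOn_Lm {κ Z : Matrix n n ℂ} (hκ : κ.PosSemidef) (hZ1 : (κ - Z).PosSemidef)
    (hZ2 : (κ + Z).PosSemidef) : ContinuousOn (Lm κ Z) (Ioi 0) := by
  have h1 := continuousOn_cfc_of_posDef continuousOn_log_Ioi
    ((continuousOn_mOf hκ.isHermitian).add (continuousOn_const (c := Z)))
    (fun l hl => posDef_mOf_add hκ hZ2 hl)
  have h2 := continuousOn_cfc_of_posDef continuousOn_log_Ioi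
    ((continuousOn_mOf hκ.isHermitian).sub (continuousOn_const (c := Z)))
    (fun l hl => posDef_mOf_sub hκ hZ1 hl)
  exact (h1.add h2).sub (continuousOn_log_Ioi.smul continuousOn_const)

theorem rtr_mOf_mul {κ Z : Matrix n n ℂ} (hκ : κ.IsHermitian) {l : ℝ} (hl : 0 ≤ l) :
    rtr ((mOf κ l + Z) * (mOf κ l - Z)) = rtr (κ * κ - Z * Z) + l * Fintype.card n := by
  rw [Matrix.add_mul, Matrix.mul_sub, Matrix.mul_sub, mOf_mul_self hκ hl]
  simp only [rtr_add, rtr_sub, rtr_smul, rtr_one, rtr_mul_comm Z (mOf κ l)]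
  ring

/-- The Gibbs / Golden-Thompson bound for `L`. -/
theorem gibbs_Lm {κ Z P : Matrix n n ℂ} (hκ : κ.PosSemidef) (hZ1 : (κ - Z).PosSemidef)
    (hZ2 : (κ + Z).PosSemidef) (hP : P.PosSemidef) {l : ℝ} (hl : 0 < l) :
    rtr ((P + l • (1 : Matrix n n ℂ)) * Lm κ Z l)
      ≤ rtr (cfc (fun t : ℝ => (t + l) * Real.log (t + l) - (t + l) * Real.log l - t) P)
        + rtr (κ * κ - Z * Z) := by
  have hP' : P + l • (1 : Matrix n n ℂ) = cfc (fun t : ℝ => t + l) P := by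
    rw [cfc_add', cfc_id_eq hP.isHermitian, cfc_const' l hP.isHermitian]
  have hPd : (P + l • (1 : Matrix n n ℂ)).PosDef := posDef_of_sub hl (by simpa using hP)
  have h := gibbs_gt hPd (posDef_mOf_add hκ hZ2 hl) (posDef_mOf_sub hκ hZ1 hl)
  rw [rtr_mOf_mul hκ.isHermitian hl.le] at h
  have e1 : cfc (fun t : ℝ => (t + l) * Real.log (t + l) - (t + l) * Real.log l - t) P
      = (P + l • (1 : Matrix n n ℂ)) * lg (P + l • (1 : Matrix n n ℂ))
        - Real.log l • (P + l • (1 : Matrix n n ℂ)) - P := by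
    rw [cfc_sub', cfc_sub', cfc_mul', cfc_mul', cfc_id_eq hP.isHermitian,
      cfc_const' _ hP.isHermitian, lg, hP', cfc_cfc _ _ hP.isHermitian, Matrix.mul_smul,
      Matrix.mul_one]
  rw [e1, Lm, Matrix.mul_sub, Matrix.mul_smul, Matrix.mul_one]
  simp only [rtr_add, rtr_sub, rtr_smul, rtr_one] at h ⊢
  linarith

theorem um_nonneg {κ Z : Matrix n n ℂ} (hκ : κ.PosSemidef) (hZ1 : (κ - Z).PosSemidef)
    (hZ2 : (κ + Z).PosSemidef) {l : ℝ} (hl : 0 < l) : 0 ≤ um κ Z l := by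
  have h := gibbs_Lm hκ hZ1 hZ2 (PosSemidef.zero (n := n) (R := ℂ)) hl
  have e : cfc (fun t : ℝ => (t + l) * Real.log (t + l) - (t + l) * Real.log l - t)
      (0 : Matrix n n ℂ) = 0 := by
    rw [cfc_apply_zero]
    simp
  rw [e, zero_add, Matrix.smul_mul, Matrix.one_mul, rtr_smul, rtr_zero] at h
  rw [um]
  linarith

theorem exists_hasDerivAt_wm {κ Z : Matrix n n ℂ} (hκ : κ.PosSemidef) (hZ1 : (κ - Z).PosSemidef)
    (hZ2 : (κ + Z).PosSemidef) {l : ℝ} (hl : 0 < l) :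
    ∃ w' : ℝ, HasDerivAt (wm κ Z) w' l ∧ w' ≤ -um κ Z l / l := by
  have hZ := isHermitian_of_sub hκ.isHermitian hZ1
  have hm := hasDerivAt_mOf hκ.isHermitian hl
  have hA := posDef_mOf_add hκ hZ2 hl
  have hA' := posDef_mOf_sub hκ hZ1 hl
  have hS : (mOf κ l + mOf κ l).PosDef :=
    (posDef_mOf hκ.isHermitian hl).add (posDef_mOf hκ.isHermitian hl)
  obtain ⟨D1, hD1, hT1⟩ := exists_hasDerivAt_lg (A := fun l => mOf κ l + Z)
    (Eventually.of_forall fun l => (isHermitian_mOf κ l).add hZ) hA (hm.add_const Z)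
  obtain ⟨D2, hD2, hT2⟩ := exists_hasDerivAt_lg (A := fun l => mOf κ l - Z)
    (Eventually.of_forall fun l => (isHermitian_mOf κ l).sub hZ) hA' (hm.sub_const Z)
  have hL : HasDerivAt (Lm κ Z) (D1 + D2 - l⁻¹ • (1 : Matrix n n ℂ)) l :=
    (hD1.add hD2).sub ((Real.hasDerivAt_log hl.ne').smul_const _)
  have hH : HasDerivAt (fun l : ℝ => κ * κ - Z * Z + l • (1 : Matrix n n ℂ)) 1 l := by
    simpa using ((hasDerivAt_id l).smul_const (1 : Matrix n n ℂ)).const_add (κ * κ - Z * Z)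
  have hw := ((rtrL n).hasFDerivAt.comp_hasDerivAt l (hH.mul hL)).sub_const (rtr (κ * κ - Z * Z))
  refine ⟨_, hw, ?_⟩
  set m := mOf κ l with hmdef
  have hmm : m * m = κ * κ + l • (1 : Matrix n n ℂ) := mOf_mul_self hκ.isHermitian hl.le
  have eH : κ * κ - Z * Z + l • (1 : Matrix n n ℂ) = m * m - Z * Z := by rw [hmm]; abel
  have e1 : (1 / 2 : ℝ) • ((m + Z) * (m + m) + (m + m) * (m + Z)) - (m + Z) * (m + Z)
      = m * m - Z * Z := by
    have : (m + Z) * (m + m) + (m + m) * (m + Z) = (2 : ℝ) • ((m + Z) * m + m * (m + Z)) := by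
      rw [two_smul]; noncomm_ring
    rw [this, smul_smul]
    norm_num
    noncomm_ring
  have e2 : (1 / 2 : ℝ) • ((m - Z) * (m + m) + (m + m) * (m - Z)) - (m - Z) * (m - Z)
      = m * m - Z * Z := by
    have : (m - Z) * (m + m) + (m + m) * (m - Z) = (2 : ℝ) • ((m - Z) * m + m * (m - Z)) := by
      rw [two_smul]; noncomm_ring
    rw [this, smul_smul]
    norm_num
    noncomm_ring
  have b1 := dlog_bound hA hS
  have b2 := dlog_bound hA' hS
  rw [e1, ← hT1] at b1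
  rw [e2, ← hT2] at b2
  have e3 : rtr ((m + m)⁻¹ * (m + Z)) + rtr ((m + m)⁻¹ * (m - Z)) = Fintype.card n := by
    rw [← rtr_add, ← Matrix.mul_add]
    have : m + Z + (m - Z) = m + m := by abel
    rw [this, Matrix.nonsing_inv_mul _ (isUnit_iff_isUnit_det _ |>.mp hS.isUnit), rtr_one]
  have e4 : rtr (m * m - Z * Z) = rtr (κ * κ - Z * Z) + l * Fintype.card n := by
    rw [← eH, rtr_add, rtr_smul, rtr_one]
  rw [rtrL_apply, eH, Matrix.one_mul, Matrix.mul_sub, Matrix.mul_add, Matrix.mul_smul,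
    Matrix.mul_one, rtr_add, rtr_sub, rtr_add, rtr_smul, e4, um]
  have e5 : -(rtr (κ * κ - Z * Z) - l * rtr (Lm κ Z l)) / l
      = rtr (Lm κ Z l) - l⁻¹ * (rtr (κ * κ - Z * Z) + l * Fintype.card n) + Fintype.card n := by
    field_simp
    ring
  rw [e5]
  linarith

end Vale.Agent.P371
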